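/-
S0499 blueprint: definitions shared by all packages.  See BLUEPRINT.md in this directory.
-/
import Mathlib
import Crest.Prelude.Def_StreamLearn

set_option autoImplicit false

namespace Crest.Agent.S0499Lib

open MeasureTheory ProbabilityTheory Crest.StreamLearn
open scoped ENNReal

noncomputable section

variable {d : ℕ} {ι : Type*} [Fintype ι]

/-- Shorthand for the uniform measure on the sphere. -/
abbrev σ (d : ℕ) : Measure (Sphere d) := sphereUniform d

/-- The part of the sphere at distance `< ρ` from `z` (`z` may lie off the sphere). -/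
def sBall (z : E d) (ρ : ℝ) : Set (Sphere d) := {w | ‖(w : E d) - z‖ < ρ}

/-- The measure of a spherical cap of chordal radius `ρ` (independent of the centre, see
`real_sBall_eq_cap`). -/
def cap (d : ℕ) (ρ : ℝ) : ℝ := ⨆ z : Sphere d, (σ d).real (sBall (z : E d) ρ)

/-- The law of a matrix of iid standard Gaussian rows indexed by `ι`. -/
abbrev γ (d : ℕ) (ι : Type*) [Fintype ι] : Measure (ι → E d) :=
  Measure.pi fun _ => stdGaussian (E d)

/-- The cell of a real number in the grid of mesh `η`. -/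
def cell (η y : ℝ) : ℤ := ⌊y / η⌋

/-- Discretized data of a signal `w` under the rows `X`. -/
def dat (η : ℝ) (X : ι → E d) (w : Sphere d) : ι → ℤ :=
  fun i => cell η (inner ℝ (X i) (w : E d))

/-- The slab of signals with discretized data `c`. -/
def flat (η : ℝ) (X : ι → E d) (c : ι → ℤ) : Set (Sphere d) := {w | dat η X w = c}

/-- The "dimension deficit" factor `min (1, (2^q / 2^p)^b)`. -/
def θ (b : ℕ) (q p : ℤ) : ℝ := min 1 ((2 : ℝ) ^ ((q - p) * (b : ℤ)))

/-- The profile: `U` is measurable and looks codimension `b` at scales above `2^q`, with constant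
`Λ`.  -/
structure Profile (b : ℕ) (q : ℤ) (Λ : ℝ) (U : Set (Sphere d)) : Prop where
  meas : MeasurableSet U
  bound : ∀ (z : E d) (p : ℤ), p ≤ 2 →
    (σ d).real (U ∩ sBall z ((2 : ℝ) ^ p)) ≤ Λ * θ b q (p + 1) * cap d (12 * (2 : ℝ) ^ p)

/-- Local sparsity of `V` inside the slab `T` around `w`, at the scale `2^p`. -/
def LocSparseAt (b : ℕ) (q p : ℤ) (V T : Set (Sphere d)) (w : Sphere d) : Prop :=
  (σ d).real (V ∩ T ∩ sBall (w : E d) ((2 : ℝ) ^ p)) ≤
    θ b q p * (σ d).real (T ∩ sBall (w : E d) ((2 : ℝ) ^ (p + 1)))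

/-- Local sparsity at all the relevant scales `q ≤ p ≤ 3`. -/
def LocSparse (b : ℕ) (q : ℤ) (V T : Set (Sphere d)) (w : Sphere d) : Prop :=
  ∀ p : ℤ, q ≤ p → p ≤ 3 → LocSparseAt b q p V T w

/-- The inverse distance to the affine subspace `a + V`, to the power `k`, in `ℝ≥0∞`. -/
def dInv (k : ℕ) (a : E d) (V : Submodule ℝ (E d)) (w : Sphere d) : ℝ≥0∞ :=
  (ENNReal.ofReal (Metric.infDist ((w : E d) - a) (V : Set (E d))))⁻¹ ^ k

/-- The exceptional pairs for a single set `U` at scale `2^p`. -/
def excAt (η : ℝ) (b : ℕ) (q : ℤ) (U : Set (Sphere d)) (p : ℤ) : Set (Sphere d × (ι → E d)) :=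
  {x | x.1 ∈ U ∧ ¬ LocSparseAt b q p U (flat η x.2 (dat η x.2 x.1)) x.1}

section Step
variable {St' : Type*}

/-- All exceptional pairs for the family `U'`. -/
def stepExc (η : ℝ) (b : ℕ) (q : ℤ) (U' : St' → Set (Sphere d)) : Set (Sphere d × (ι → E d)) :=
  {x | ∃ a p, q ≤ p ∧ p ≤ 3 ∧ x ∈ excAt η b q (U' a) p}

/-- The "good" rows for the signal `w`, given the block transition `F`. -/
def stepEv (η : ℝ) (b : ℕ) (q : ℤ) (U' : St' → Set (Sphere d)) (F : (ι → E d) → (ι → ℤ) → St')
    (w : Sphere d) : Set (ι → E d) :=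
  {X | w ∈ U' (F X (dat η X w)) ∧
    LocSparse b q (U' (F X (dat η X w))) (flat η X (dat η X w)) w}

/-- The pulled back set: the signals for which the good rows have probability at least `τ`. -/
def stepU (η : ℝ) (b : ℕ) (q : ℤ) (U' : St' → Set (Sphere d)) (F : (ι → E d) → (ι → ℤ) → St')
    (τ : ℝ) : Set (Sphere d) :=
  {w | ENNReal.ofReal τ ≤ γ d ι (stepEv η b q U' F w)}

end Step

section Machine
variable {T : ℕ} {St' : Type*}

/-- One step of a discretized machine, at the time `n` (a no-op after the horizon). -/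
def stepAt (tr : Fin T → St' → E d → ℤ → St') (n : ℕ) (a : St') (X : Fin T → E d)
    (c : Fin T → ℤ) : St' :=
  if h : n < T then tr ⟨n, h⟩ a (X ⟨n, h⟩) (c ⟨n, h⟩) else a

/-- Run a discretized machine from the time `n₀` for `l` steps, starting at the state `a`. -/
def seg (tr : Fin T → St' → E d → ℤ → St') (n₀ : ℕ) : ℕ → St' → (Fin T → E d) → (Fin T → ℤ) → St'
  | 0, a, _, _ => a
  | l + 1, a, X, c => stepAt tr (n₀ + l) (seg tr n₀ l a X c) X c

/-- The run of a discretized machine during the first `n` steps. -/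
def dRun (tr : Fin T → St' → E d → ℤ → St') (init : St') (η : ℝ) (n : ℕ) (s : Sphere d)
    (X : Fin T → E d) : St' :=
  seg tr 0 n init X (dat η X s)

end Machine

end

end Crest.Agent.S0499Lib
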