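/-
S0499 package C: counting integer points (cells) near a point, in the l¹ norm.
-/
import Crest.Agent.S0499Lib.Defs

set_option autoImplicit false

namespace Crest.Agent.S0499Lib

open scoped ENNReal

noncomputable section

variable {ι : Type*} [Fintype ι]

private theorem geom_sum_finset_le {r : ℝ} (h0 : 0 ≤ r) (h1 : r < 1) (S : Finset ℕ) :
    ∑ k ∈ S, r ^ k ≤ (1 - r)⁻¹ := by
  rw [← tsum_geometric_of_lt_one h0 h1]
  exact (summable_geometric_of_lt_one h0 h1).sum_le_tsum S (fun _ _ => pow_nonneg h0 _)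

/-- A sum over integers, dominated by a geometric sequence through an injective index map. -/
private theorem sum_le_geom {r : ℝ} (h0 : 0 ≤ r) (h1 : r < 1) (J : Finset ℤ) (f : ℤ → ℝ)
    (idx : ℤ → ℕ) (hinj : Set.InjOn idx (J : Set ℤ)) (hf : ∀ j ∈ J, f j ≤ r ^ idx j) :
    ∑ j ∈ J, f j ≤ (1 - r)⁻¹ := by
  calc ∑ j ∈ J, f j ≤ ∑ j ∈ J, r ^ idx j := Finset.sum_le_sum hf
    _ = ∑ k ∈ J.image idx, r ^ k := (Finset.sum_image hinj).symm
    _ ≤ (1 - r)⁻¹ := geom_sum_finset_le h0 h1 _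

/-- For any finite `J ⊆ ℤ`, `∑_{j ∈ J} exp (-|η j - a| / R) ≤ 4 R / η` when `0 < η ≤ R`.
(Split at `⌈a/η⌉`; geometric series; `1 / (1 - e^{-h}) ≤ 2 / h` for `0 < h ≤ 1`.) -/
theorem sum_exp_abs_le {η R : ℝ} (hη : 0 < η) (hηR : η ≤ R) (a : ℝ) (J : Finset ℤ) :
    ∑ j ∈ J, Real.exp (-|η * (j : ℝ) - a| / R) ≤ 4 * R / η := by
  have hR : 0 < R := lt_of_lt_of_le hη hηR
  set h : ℝ := η / R with hh
  have hh0 : 0 < h := div_pos hη hR
  have hh1 : h ≤ 1 := (div_le_one hR).2 hηR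
  set r : ℝ := Real.exp (-h) with hr
  have hr0 : 0 ≤ r := (Real.exp_pos _).le
  -- `1 - r ≥ h / 2`
  have hrle : r ≤ 1 - h / 2 := by
    have h1 : h + 1 ≤ Real.exp h := Real.add_one_le_exp h
    have hpos : 0 < Real.exp h := Real.exp_pos h
    have hmul : r * Real.exp h = 1 := by
      rw [hr, ← Real.exp_add]; simp
    have h3 : (1 - h / 2) * (h + 1) ≥ 1 := by nlinarith
    have h4 : r * (h + 1) ≤ 1 := by
      calc r * (h + 1) ≤ r * Real.exp h := by
            exact mul_le_mul_of_nonneg_left h1 hr0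
        _ = 1 := hmul
    have h5 : 0 < h + 1 := by linarith
    by_contra hcon
    push Not at hcon
    have : (1 - h / 2) * (h + 1) < r * (h + 1) := mul_lt_mul_of_pos_right hcon h5
    linarith
  have hr1 : r < 1 := by linarith
  have hinv : (1 - r)⁻¹ ≤ 2 * R / η := by
    have h6 : 0 < 1 - r := by linarith
    have h7 : (2 * R / η) = (h / 2)⁻¹ := by
      rw [hh]; field_simp
    rw [h7]
    exact inv_anti₀ (by linarith) (by linarith)
  set j₀ : ℤ := ⌈a / η⌉ with hj₀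
  have hj₀ge : a / η ≤ (j₀ : ℝ) := Int.le_ceil _
  have hj₀lt : (j₀ : ℝ) < a / η + 1 := Int.ceil_lt_add_one _
  -- rewriting the exponent
  have hexp : ∀ j : ℤ, η * (j : ℝ) - a = η * ((j : ℝ) - a / η) := by
    intro j; field_simp
  have hdiv : ∀ x : ℝ, η * x / R = h * x := by
    intro x; rw [hh]; ring
  have hrpow : ∀ k : ℕ, r ^ k = Real.exp (-(h * (k : ℝ))) := by
    intro k
    rw [hr, ← Real.exp_nat_mul]
    congr 1; ring
  classical
  have hsplit := Finset.sum_filter_add_sum_filter_not J (fun j : ℤ => a / η ≤ (j : ℝ))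
    (fun j : ℤ => Real.exp (-|η * (j : ℝ) - a| / R))
  rw [← hsplit]
  have hup : ∑ j ∈ J.filter (fun j : ℤ => a / η ≤ (j : ℝ)), Real.exp (-|η * (j : ℝ) - a| / R)
      ≤ (1 - r)⁻¹ := by
    apply sum_le_geom hr0 hr1 _ _ (fun j => (j - j₀).toNat)
    · intro x hx y hy hxy
      have hx' : j₀ ≤ x := by
        have hx2 := (Finset.mem_filter.1 (Finset.mem_coe.1 hx)).2
        exact Int.ceil_le.2 hx2
      have hy' : j₀ ≤ y := by
        have hy2 := (Finset.mem_filter.1 (Finset.mem_coe.1 hy)).2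
        exact Int.ceil_le.2 hy2
      simp only at hxy
      omega
    · intro j hj
      have hj2 := (Finset.mem_filter.1 hj).2
      have hj' : j₀ ≤ j := Int.ceil_le.2 hj2
      have hcast : (((j - j₀).toNat : ℕ) : ℝ) = (j : ℝ) - (j₀ : ℝ) := by
        have : (((j - j₀).toNat : ℕ) : ℤ) = j - j₀ := Int.toNat_of_nonneg (by omega)
        exact_mod_cast this
      rw [hrpow, hcast, hexp, abs_mul, abs_of_pos hη, abs_of_nonneg (by linarith),
        neg_div, hdiv]
      apply Real.exp_le_exp.2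
      have : h * ((j : ℝ) - (j₀ : ℝ)) ≤ h * ((j : ℝ) - a / η) :=
        mul_le_mul_of_nonneg_left (by linarith) hh0.le
      linarith
  have hdown : ∑ j ∈ J.filter (fun j : ℤ => ¬ a / η ≤ (j : ℝ)), Real.exp (-|η * (j : ℝ) - a| / R)
      ≤ (1 - r)⁻¹ := by
    apply sum_le_geom hr0 hr1 _ _ (fun j => (j₀ - 1 - j).toNat)
    · intro x hx y hy hxy
      have hx' : x < j₀ := by
        have hx2 := (Finset.mem_filter.1 (Finset.mem_coe.1 hx)).2
        exact Int.lt_ceil.2 (not_le.1 hx2)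
      have hy' : y < j₀ := by
        have hy2 := (Finset.mem_filter.1 (Finset.mem_coe.1 hy)).2
        exact Int.lt_ceil.2 (not_le.1 hy2)
      simp only at hxy
      omega
    · intro j hj
      have hj2 := not_le.1 (Finset.mem_filter.1 hj).2
      have hj' : j < j₀ := Int.lt_ceil.2 hj2
      have hcast : (((j₀ - 1 - j).toNat : ℕ) : ℝ) = (j₀ : ℝ) - 1 - (j : ℝ) := by
        have : (((j₀ - 1 - j).toNat : ℕ) : ℤ) = j₀ - 1 - j := Int.toNat_of_nonneg (by omega)
        exact_mod_cast this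
      rw [hrpow, hcast, hexp, abs_mul, abs_of_pos hη, abs_of_neg (by linarith),
        neg_div, hdiv]
      apply Real.exp_le_exp.2
      have : h * ((j₀ : ℝ) - 1 - (j : ℝ)) ≤ h * (-((j : ℝ) - a / η)) :=
        mul_le_mul_of_nonneg_left (by linarith) hh0.le
      linarith
  have h8 : 4 * R / η = 2 * R / η + 2 * R / η := by ring
  rw [h8]
  linarith

/-- The cells `c` with `∑_i |η c_i - a_i| ≤ 3 k R` number at most `(128 R / η)^k`:
`#C ≤ ∑_{c ∈ C} e^{3k} ∏_i exp (-|η c_i - a_i| / R) ≤ e^{3k} ∏_i ∑_j exp (-|η j - a_i| / R)`,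
and `4 e³ ≤ 128`. -/
theorem card_typical_le {η R : ℝ} (hη : 0 < η) (hηR : η ≤ R) (a : ι → ℝ) (C : Finset (ι → ℤ))
    (hC : ∀ c ∈ C, ∑ i, |η * (c i : ℝ) - a i| ≤ 3 * (Fintype.card ι : ℝ) * R) :
    (C.card : ℝ) ≤ (128 * R / η) ^ Fintype.card ι := by
  classical
  have hR : 0 < R := lt_of_lt_of_le hη hηR
  set k := Fintype.card ι with hk
  set f : ι → ℤ → ℝ := fun i j => Real.exp (-|η * (j : ℝ) - a i| / R) with hf
  have hfnn : ∀ i j, 0 ≤ f i j := fun i j => (Real.exp_pos _).le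
  -- each cell has weight at least `e^{-3k}`
  have hweight : ∀ c ∈ C, 1 ≤ Real.exp (3 * (k : ℝ)) * ∏ i, f i (c i) := by
    intro c hc
    have h1 : ∏ i, f i (c i) = Real.exp (∑ i, (-|η * (c i : ℝ) - a i| / R)) := by
      rw [Real.exp_sum]
    rw [h1, ← Real.exp_add]
    apply Real.one_le_exp
    have h2 : ∑ i, (-|η * (c i : ℝ) - a i| / R) = -(∑ i, |η * (c i : ℝ) - a i|) / R := by
      rw [← Finset.sum_neg_distrib, Finset.sum_div]
    rw [h2]
    have h3 : (∑ i, |η * (c i : ℝ) - a i|) / R ≤ 3 * (k : ℝ) := by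
      rw [div_le_iff₀ hR]; exact hC c hc
    rw [neg_div]
    linarith
  set J : ι → Finset ℤ := fun i => C.image (fun c => c i) with hJ
  have hmem : ∀ c ∈ C, c ∈ Fintype.piFinset J := by
    intro c hc
    rw [Fintype.mem_piFinset]
    intro i
    exact Finset.mem_image.2 ⟨c, hc, rfl⟩
  have hsum : ∑ c ∈ C, ∏ i, f i (c i) ≤ ∏ i, ∑ j ∈ J i, f i j := by
    rw [Finset.prod_univ_sum]
    apply Finset.sum_le_sum_of_subset_of_nonneg
    · intro c hc; exact hmem c hc
    · intro c _ _; exact Finset.prod_nonneg fun i _ => hfnn i _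
  have hprod : ∏ i, ∑ j ∈ J i, f i j ≤ (4 * R / η) ^ k := by
    calc ∏ i, ∑ j ∈ J i, f i j ≤ ∏ _i : ι, (4 * R / η) :=
          Finset.prod_le_prod (fun i _ => Finset.sum_nonneg fun j _ => hfnn i j)
            (fun i _ => sum_exp_abs_le hη hηR (a i) (J i))
      _ = (4 * R / η) ^ k := by rw [Finset.prod_const, Finset.card_univ]
  have hcard : (C.card : ℝ) ≤ ∑ c ∈ C, Real.exp (3 * (k : ℝ)) * ∏ i, f i (c i) := by
    rw [Finset.card_eq_sum_ones]
    push_cast
    exact Finset.sum_le_sum hweight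
  rw [← Finset.mul_sum] at hcard
  have hexp3 : Real.exp 3 ≤ 32 := by
    have h := Real.exp_one_lt_d9
    have h1 : Real.exp 3 = Real.exp 1 ^ 3 := by
      rw [← Real.exp_nat_mul]; norm_num
    rw [h1]
    have h0 : 0 < Real.exp 1 := Real.exp_pos 1
    have h2 : Real.exp 1 ≤ 3 := by linarith
    calc Real.exp 1 ^ 3 ≤ 3 ^ 3 := pow_le_pow_left₀ h0.le h2 3
      _ ≤ 32 := by norm_num
  have hfinal : Real.exp (3 * (k : ℝ)) * (4 * R / η) ^ k ≤ (128 * R / η) ^ k := by
    have h1 : Real.exp (3 * (k : ℝ)) = Real.exp 3 ^ k := by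
      rw [← Real.exp_nat_mul]; congr 1; ring
    rw [h1, ← mul_pow]
    apply pow_le_pow_left₀ (mul_nonneg (Real.exp_pos _).le (by positivity))
    have h2 : 128 * R / η = 32 * (4 * R / η) := by ring
    rw [h2]
    exact mul_le_mul_of_nonneg_right hexp3 (by positivity)
  calc (C.card : ℝ) ≤ Real.exp (3 * (k : ℝ)) * ∑ c ∈ C, ∏ i, f i (c i) := hcard
    _ ≤ Real.exp (3 * (k : ℝ)) * (4 * R / η) ^ k :=
        mul_le_mul_of_nonneg_left (hsum.trans hprod) (Real.exp_pos _).le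
    _ ≤ _ := hfinal

/-- The set of these cells is finite. -/
theorem finite_typical {η R : ℝ} (hη : 0 < η) (a : ι → ℝ) :
    {c : ι → ℤ | ∑ i, |η * (c i : ℝ) - a i| ≤ 3 * (Fintype.card ι : ℝ) * R}.Finite := by
  set B : ℝ := 3 * (Fintype.card ι : ℝ) * R with hB
  have hfin : {c : ι → ℤ | ∀ i, c i ∈ Set.Icc ⌊(a i - B) / η⌋ ⌈(a i + B) / η⌉}.Finite :=
    Set.Finite.pi' fun i => Set.finite_Icc _ _
  apply hfin.subset
  intro c hc i
  have h1 : |η * (c i : ℝ) - a i| ≤ B :=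
    (Finset.single_le_sum (f := fun i => |η * (c i : ℝ) - a i|)
      (fun i _ => abs_nonneg _) (Finset.mem_univ i)).trans hc
  have h2 := abs_le.1 h1
  constructor
  · have : (a i - B) / η ≤ (c i : ℝ) := by
      rw [div_le_iff₀ hη]; linarith
    exact_mod_cast (Int.floor_le _).trans this
  · have : (c i : ℝ) ≤ (a i + B) / η := by
      rw [le_div_iff₀ hη]; linarith
    exact_mod_cast this.trans (Int.le_ceil _)

end

end Crest.Agent.S0499Lib
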