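/-
S0499 package A2 (helper25): comparison of the measures of spherical caps at the pole `e₀`,
by comparing the volumes of the cones over the caps.  Only depends on `Defs`.
-/
import Crest.Agent.S0499Lib.Defs

set_option autoImplicit false

namespace Crest.Agent.S0499Lib

open MeasureTheory Crest.StreamLearn Metric Set
open scoped ENNReal Pointwise

noncomputable section

namespace CapBound

variable {d : ℕ}

/-- The first basis vector. -/
def e0 (hd : 0 < d) : E d := EuclideanSpace.single ⟨0, hd⟩ (1 : ℝ)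

@[simp] lemma norm_e0 (hd : 0 < d) : ‖e0 hd‖ = 1 := by simp [e0]

lemma e0_mem (hd : 0 < d) : e0 hd ∈ sphere (0 : E d) 1 := by simp

/-- The pole, as a point of the sphere. -/
def pole (hd : 0 < d) : Sphere d := ⟨e0 hd, e0_mem hd⟩

/-- The first coordinate. -/
def c0 (hd : 0 < d) (v : E d) : ℝ := v ⟨0, hd⟩

/-- The part orthogonal to `e0`. -/
def rest (hd : 0 < d) (v : E d) : E d := v - c0 hd v • e0 hd

lemma inner_e0 (hd : 0 < d) (v : E d) : inner ℝ v (e0 hd) = c0 hd v := by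
  simp [e0, c0, EuclideanSpace.inner_single_right]

lemma rest_norm_sq (hd : 0 < d) (v : E d) : ‖rest hd v‖ ^ 2 = ‖v‖ ^ 2 - c0 hd v ^ 2 := by
  rw [rest, norm_sub_sq_real, inner_smul_right, inner_e0, norm_smul, norm_e0]
  simp only [Real.norm_eq_abs, mul_one, sq_abs]
  ring

lemma c0_add (hd : 0 < d) (u v : E d) : c0 hd (u + v) = c0 hd u + c0 hd v := by simp [c0]
lemma c0_sub (hd : 0 < d) (u v : E d) : c0 hd (u - v) = c0 hd u - c0 hd v := by simp [c0]
lemma c0_smul (hd : 0 < d) (a : ℝ) (v : E d) : c0 hd (a • v) = a * c0 hd v := by simp [c0]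
@[simp] lemma c0_e0 (hd : 0 < d) : c0 hd (e0 hd) = 1 := by simp [c0, e0]

lemma rest_add (hd : 0 < d) (u v : E d) : rest hd (u + v) = rest hd u + rest hd v := by
  simp only [rest, c0_add, add_smul]; abel
lemma rest_smul (hd : 0 < d) (a : ℝ) (v : E d) : rest hd (a • v) = a • rest hd v := by
  simp only [rest, c0_smul, mul_smul, smul_sub]
@[simp] lemma rest_e0 (hd : 0 < d) : rest hd (e0 hd) = 0 := by simp [rest]
@[simp] lemma c0_rest (hd : 0 < d) (v : E d) : c0 hd (rest hd v) = 0 := by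
  simp [rest, c0_sub, c0_smul]
lemma rest_rest (hd : 0 < d) (v : E d) : rest hd (rest hd v) = rest hd v := by
  simp [rest, c0_sub, c0_smul]
lemma decomp (hd : 0 < d) (v : E d) : v = c0 hd v • e0 hd + rest hd v := by simp [rest]

lemma norm_rest_le (hd : 0 < d) (v : E d) : ‖rest hd v‖ ≤ ‖v‖ := by
  have h := rest_norm_sq hd v
  have h' : ‖rest hd v‖ ^ 2 ≤ ‖v‖ ^ 2 := by nlinarith [sq_nonneg (c0 hd v)]
  exact abs_le_of_sq_le_sq' h' (norm_nonneg _) |>.2

lemma abs_c0_le (hd : 0 < d) (v : E d) : |c0 hd v| ≤ ‖v‖ := by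
  have h := rest_norm_sq hd v
  have h' : c0 hd v ^ 2 ≤ ‖v‖ ^ 2 := by nlinarith [sq_nonneg (‖rest hd v‖)]
  exact abs_le_of_sq_le_sq h' (norm_nonneg _)

/-- The cone over a subset of the sphere. -/
def cone (S : Set (Sphere d)) : Set (E d) := Ioo (0 : ℝ) 1 • (((↑) : Sphere d → E d) '' S)

/-- The "big" cylinder containing the cone over the cap of radius `x`. -/
def bigCyl (hd : 0 < d) (x : ℝ) : Set (E d) := {v | |c0 hd v| < 1 ∧ ‖rest hd v‖ < x}

/-- The "small" cylinder contained in the cone over the cap of radius `y`. -/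
def smallCyl (hd : 0 < d) (y : ℝ) : Set (E d) :=
  {v | 1 / 2 < c0 hd v ∧ c0 hd v < 3 / 4 ∧ ‖rest hd v‖ < y / 4}

lemma cone_subset_bigCyl (hd : 0 < d) {x : ℝ} (hx : 0 < x) :
    cone (sBall (e0 hd) x : Set (Sphere d)) ⊆ bigCyl hd x := by
  rintro v ⟨τ, hτ, _, ⟨w, hw, rfl⟩, rfl⟩
  have hw1 : ‖(w : E d)‖ = 1 := by simp
  have hwx : ‖(w : E d) - e0 hd‖ < x := hw
  simp only [bigCyl, mem_ofPred_eq, rest_smul, c0_smul] at *
  constructor
  · rw [abs_mul, abs_of_pos hτ.1]
    have := abs_c0_le hd (w : E d)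
    rw [hw1] at this
    nlinarith [hτ.1, hτ.2, abs_nonneg (c0 hd (w : E d))]
  · rw [norm_smul, Real.norm_eq_abs, abs_of_pos hτ.1]
    have h1 : rest hd (w : E d) = rest hd ((w : E d) - e0 hd) := by
      have : (w : E d) - e0 hd = (w : E d) + (-1 : ℝ) • e0 hd := by simp [sub_eq_add_neg]
      rw [this, rest_add, rest_smul, rest_e0]; simp
    have h2 : ‖rest hd (w : E d)‖ < x := by
      rw [h1]; exact lt_of_le_of_lt (norm_rest_le _ _) hwx
    nlinarith [hτ.1, hτ.2, norm_nonneg (rest hd (w : E d))]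

lemma smallCyl_subset_cone (hd : 0 < d) {y : ℝ} (hy : 0 < y) (hy2 : y ≤ 2) :
    smallCyl hd y ⊆ cone (sBall (e0 hd) y : Set (Sphere d)) := by
  rintro v ⟨ht1, ht2, hr⟩
  set t := c0 hd v with ht
  set r := ‖rest hd v‖ with hr'
  have hr0 : 0 ≤ r := norm_nonneg _
  have hn := rest_norm_sq hd v
  rw [← hr', ← ht] at hn
  set τ := ‖v‖ with hτ
  have hτ0 : 0 ≤ τ := norm_nonneg _
  have hτt : t ≤ τ := by
    have := abs_c0_le hd v
    exact le_trans (le_abs_self _) this
  have hτpos : 0 < τ := by linarith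
  have hτ1 : τ < 1 := by
    have : τ ^ 2 < 1 := by nlinarith
    nlinarith
  have hw : ‖(τ⁻¹ • v : E d)‖ = 1 := by
    rw [norm_smul, Real.norm_eq_abs, abs_of_pos (inv_pos.mpr hτpos), ← hτ]
    field_simp
  let w : Sphere d := ⟨τ⁻¹ • v, by simpa using hw⟩
  refine ⟨τ, ⟨hτpos, hτ1⟩, _, ⟨w, ?_, rfl⟩, ?_⟩
  · -- `‖w - e0‖ < y`
    show ‖(τ⁻¹ • v : E d) - e0 hd‖ < y
    have h1 : ‖(τ⁻¹ • v : E d) - e0 hd‖ ^ 2 = 2 - 2 * (t / τ) := by
      rw [norm_sub_sq_real, hw, norm_e0, inner_e0, c0_smul, ← ht]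
      field_simp
      ring
    have h2 : 2 - 2 * (t / τ) < y ^ 2 := by
      have h3 : (τ - t) * (τ + t) = r ^ 2 := by linarith [hn, sq τ, sq t]
      have h4 : r ^ 2 < y ^ 2 / 16 := by nlinarith
      have h5 : 2 - 2 * (t / τ) = 2 * (τ - t) / τ := by field_simp
      rw [h5, div_lt_iff₀ hτpos]
      have h6 : 1 / 2 < τ := by linarith
      have h7 : 1 < τ + t := by linarith
      have h8 : (τ - t) ≤ r ^ 2 := by nlinarith [sub_nonneg.mpr hτt]
      nlinarith [sq_nonneg y, mul_pos hy hy]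
    have h9 : ‖(τ⁻¹ • v : E d) - e0 hd‖ ^ 2 < y ^ 2 := by rw [h1]; exact h2
    exact lt_of_pow_lt_pow_left₀ 2 hy.le h9
  · show τ • (τ⁻¹ • v) = v
    rw [smul_smul, mul_inv_cancel₀ hτpos.ne', one_smul]


/-- The diagonal map `diag (a, c, …, c)`. -/
def diagMap (hd : 0 < d) (a c : ℝ) : E d →ₗ[ℝ] E d :=
  Matrix.toLin (EuclideanSpace.basisFun (Fin d) ℝ).toBasis (EuclideanSpace.basisFun (Fin d) ℝ).toBasis
    (Matrix.diagonal fun i => if i = (⟨0, hd⟩ : Fin d) then a else c)

lemma diagMap_apply (hd : 0 < d) (a c : ℝ) (v : E d) (i : Fin d) :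
    diagMap hd a c v i = (if i = (⟨0, hd⟩ : Fin d) then a else c) * v i := by
  simp only [diagMap, Matrix.toLin_apply]
  simp [Matrix.mulVec_diagonal]
  rw [Finset.sum_eq_single i]
  · by_cases hi : i = ⟨0, hd⟩ <;> simp [hi]
  · intro b _ hb
    have hib : i ≠ b := fun h => hb h.symm
    by_cases hb0 : b = ⟨0, hd⟩ <;> simp [hb0, PiLp.single_apply] <;> simp_all
  · simp

lemma det_diagMap (hd : 2 ≤ d) (a c : ℝ) :
    LinearMap.det (diagMap (by omega : 0 < d) a c) = a * c ^ (d - 1) := by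
  rw [diagMap, LinearMap.det_toLin, Matrix.det_diagonal]
  obtain ⟨n, rfl⟩ : ∃ n, d = n + 1 := ⟨d - 1, by omega⟩
  rw [Fin.prod_univ_succ]
  simp [Fin.succ_ne_zero]

lemma diagMap_eq (hd : 0 < d) (a c : ℝ) (v : E d) :
    diagMap hd a c v = (a * c0 hd v) • e0 hd + c • rest hd v := by
  ext i
  rw [diagMap_apply]
  by_cases hi : i = ⟨0, hd⟩
  · subst hi
    simp [rest, c0, e0]
  · simp [rest, c0, e0, hi]

lemma bigCyl_subset (hd : 0 < d) {x y c : ℝ} (hy : 0 < y) (hc : c = 4 * x / y) (hx : 0 < x) :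
    bigCyl hd x ⊆ (fun v => v + (5 : ℝ) • e0 hd) ⁻¹' (diagMap hd 8 c '' smallCyl hd y) := by
  rintro v ⟨h1, h2⟩
  have hcpos : 0 < c := by rw [hc]; positivity
  rw [mem_preimage]
  refine ⟨((c0 hd v + 5) / 8) • e0 hd + c⁻¹ • rest hd v, ⟨?_, ?_, ?_⟩, ?_⟩
  · simp only [c0_add, c0_smul, c0_e0, c0_rest]
    have := abs_lt.mp h1
    linarith [this.1, this.2]
  · simp only [c0_add, c0_smul, c0_e0, c0_rest]
    have := abs_lt.mp h1
    linarith [this.1, this.2]
  · simp only [rest_add, rest_smul, rest_e0, smul_zero, zero_add, rest_rest]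
    rw [norm_smul, Real.norm_eq_abs, abs_of_pos (inv_pos.mpr hcpos), inv_mul_lt_iff₀ hcpos]
    have : c * (y / 4) = x := by rw [hc]; field_simp
    rwa [this]
  · rw [diagMap_eq]
    simp only [c0_add, c0_smul, c0_e0, c0_rest, rest_add, rest_smul, rest_e0, smul_zero,
      zero_add, rest_rest]
    rw [smul_smul, mul_inv_cancel₀ hcpos.ne', one_smul]
    conv_rhs => rw [decomp hd v]
    have : 8 * ((c0 hd v + 5) / 8 * 1 + c⁻¹ * 0) = c0 hd v + 5 := by ring
    rw [this, add_smul]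
    abel

/-- The key volume comparison. -/
theorem volume_cone_le (hd : 2 ≤ d) {x y : ℝ} (hx : 0 < x) (hy : 0 < y) (hy4 : y ≤ 4) :
    (volume : Measure (E d)) (cone (sBall (e0 (by omega)) x : Set (Sphere d))) ≤
      ENNReal.ofReal (8 * (8 * x / y) ^ (d - 1)) *
        (volume : Measure (E d)) (cone (sBall (e0 (by omega)) y : Set (Sphere d))) := by
  have hd0 : 0 < d := by omega
  set y' := min y 2 with hy'
  have hy'0 : 0 < y' := lt_min hy (by norm_num)
  have hy'2 : y' ≤ 2 := min_le_right _ _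
  have hy'y : y' ≤ y := min_le_left _ _
  have hyy' : y ≤ 2 * y' := by
    rcases le_total y 2 with h | h
    · rw [hy', min_eq_left h]; linarith
    · rw [hy', min_eq_right h]; linarith
  set c := 4 * x / y' with hc
  have hcpos : 0 < c := by rw [hc]; positivity
  have hcle : c ≤ 8 * x / y := by
    rw [hc, div_le_div_iff₀ hy'0 hy]
    nlinarith
  have h1 : (volume : Measure (E d)) (cone (sBall (e0 hd0) x : Set (Sphere d))) ≤
      volume (diagMap hd0 8 c '' smallCyl hd0 y') := by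
    calc _ ≤ volume (bigCyl hd0 x) := measure_mono (cone_subset_bigCyl hd0 hx)
      _ ≤ volume ((fun v => v + (5 : ℝ) • e0 hd0) ⁻¹' (diagMap hd0 8 c '' smallCyl hd0 y')) :=
          measure_mono (bigCyl_subset hd0 hy'0 hc hx)
      _ = _ := measure_preimage_add_right _ _ _
  have h2 : (volume : Measure (E d)) (diagMap hd0 8 c '' smallCyl hd0 y') =
      ENNReal.ofReal |LinearMap.det (diagMap hd0 8 c)| * volume (smallCyl hd0 y') :=
    Measure.addHaar_image_linearMap _ _ _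
  have h3 : |LinearMap.det (diagMap hd0 8 c)| ≤ 8 * (8 * x / y) ^ (d - 1) := by
    rw [det_diagMap hd, abs_of_nonneg (by positivity)]
    gcongr
  have h4 : (volume : Measure (E d)) (smallCyl hd0 y') ≤
      volume (cone (sBall (e0 hd0) y : Set (Sphere d))) := by
    refine measure_mono ((smallCyl_subset_cone hd0 hy'0 hy'2).trans ?_)
    unfold cone
    apply Set.smul_subset_smul_left
    apply Set.image_mono
    intro w hw
    exact lt_of_lt_of_le hw hy'y
  calc _ ≤ _ := h1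
    _ = _ := h2
    _ ≤ _ := by
      gcongr

lemma measurableSet_sBall' (z : E d) (ρ : ℝ) : MeasurableSet (sBall z ρ : Set (Sphere d)) := by
  have : (sBall z ρ : Set (Sphere d)) = (fun w : Sphere d => ‖(w : E d) - z‖) ⁻¹' Iio ρ := rfl
  rw [this]
  exact (by fun_prop : Continuous fun w : Sphere d => ‖(w : E d) - z‖).measurable measurableSet_Iio

/-- Comparison of the measures of the caps around the pole. -/
theorem real_sBall_pole_le (hd : 2 ≤ d) {x y : ℝ} (hx : 0 < x) (hy : 0 < y) (hy4 : y ≤ 4) :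
    (σ d).real (sBall (e0 (by omega)) x) ≤
      8 * (8 * x / y) ^ (d - 1) * (σ d).real (sBall (e0 (by omega)) y) := by
  have hd0 : 0 < d := by omega
  have : Nontrivial (E d) := by
    have : Nonempty (Fin d) := ⟨⟨0, hd0⟩⟩
    infer_instance
  have hv := volume_cone_le hd hx hy hy4
  have hne : (volume : Measure (E d)).toSphere Set.univ ≠ 0 := by
    exact Measure.measure_univ_ne_zero.mpr (volume : Measure (E d)).toSphere_ne_zero
  have hnt : (volume : Measure (E d)).toSphere Set.univ ≠ ∞ := measure_ne_top _ _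
  set Z := ((volume : Measure (E d)).toSphere Set.univ)⁻¹ with hZ
  have hZt : Z ≠ ∞ := by simpa [hZ] using hne
  have hσ : ∀ ρ : ℝ, (σ d) (sBall (e0 hd0) ρ) =
      Z * ((Module.finrank ℝ (E d) : ℝ≥0∞) *
        volume (cone (sBall (e0 hd0) ρ : Set (Sphere d)))) := by
    intro ρ
    simp only [σ, sphereUniform, Measure.smul_apply, smul_eq_mul]
    rw [Measure.toSphere_apply' _ (measurableSet_sBall' _ _)]
    rfl
  have hσt : ∀ ρ : ℝ, (σ d) (sBall (e0 hd0) ρ) ≠ ∞ := by
    intro ρ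
    simp only [σ, sphereUniform, Measure.smul_apply, smul_eq_mul]
    exact ENNReal.mul_ne_top hZt (measure_ne_top _ _)
  have hle : (σ d) (sBall (e0 hd0) x) ≤
      ENNReal.ofReal (8 * (8 * x / y) ^ (d - 1)) * (σ d) (sBall (e0 hd0) y) := by
    rw [hσ, hσ]
    calc _ ≤ Z * ((Module.finrank ℝ (E d) : ℝ≥0∞) * (ENNReal.ofReal (8 * (8 * x / y) ^ (d - 1)) *
        volume (cone (sBall (e0 hd0) y : Set (Sphere d))))) := by gcongr
      _ = _ := by ring
  have := ENNReal.toReal_mono (ENNReal.mul_ne_top ENNReal.ofReal_ne_top (hσt y)) hle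
  rw [ENNReal.toReal_mul, ENNReal.toReal_ofReal (by positivity)] at this
  exact this

end CapBound

end

end Crest.Agent.S0499Lib
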