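/-
S0499 package A: basic facts about the uniform measure on the sphere.
-/
import Crest.Agent.S0499Lib.Defs
import Crest.Agent.S0499Lib.CapBound

set_option autoImplicit false

namespace Crest.Agent.S0499Lib

open MeasureTheory ProbabilityTheory Crest.StreamLearn
open scoped ENNReal Pointwise

noncomputable section

variable {d : ℕ}

namespace SphereBasicAux

lemma nontrivial_E (hd : 0 < d) : Nontrivial (E d) := by
  haveI : Nonempty (Fin d) := ⟨⟨0, hd⟩⟩
  infer_instance

lemma volume_haar (d : ℕ) : (volume : Measure (E d)).IsAddHaarMeasure := inferInstance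

lemma toSphere_univ_ne_zero (hd : 0 < d) :
    ((volume : Measure (E d)).toSphere Set.univ) ≠ 0 := by
  haveI := nontrivial_E hd
  exact (Measure.measure_univ_ne_zero).mpr (Measure.toSphere_ne_zero _)

lemma toSphere_univ_ne_top (d : ℕ) :
    ((volume : Measure (E d)).toSphere Set.univ) ≠ ∞ := measure_ne_top _ _

end SphereBasicAux

open SphereBasicAux

theorem isProb_σ (hd : 0 < d) : IsProbabilityMeasure (σ d) := by
  constructor
  simp only [σ, sphereUniform, Measure.smul_apply, smul_eq_mul]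
  exact ENNReal.inv_mul_cancel (toSphere_univ_ne_zero hd) (toSphere_univ_ne_top d)

/-- The map induced on the sphere by a linear isometry. -/
def sphereMap (g : E d ≃ₗᵢ[ℝ] E d) (w : Sphere d) : Sphere d :=
  ⟨g (w : E d), by simpa using w.2⟩

lemma continuous_sphereMap (g : E d ≃ₗᵢ[ℝ] E d) : Continuous (sphereMap g) := by
  unfold sphereMap
  fun_prop

/-- Rotation invariance of the uniform measure. -/
theorem measurePreserving_sphereMap (hd : 0 < d) (g : E d ≃ₗᵢ[ℝ] E d) :
    MeasurePreserving (sphereMap g) (σ d) (σ d) := by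
  have hm : Measurable (sphereMap g) := (continuous_sphereMap g).measurable
  refine ⟨hm, ?_⟩
  have key : ∀ s : Set (Sphere d), MeasurableSet s →
      (volume : Measure (E d)).toSphere (sphereMap g ⁻¹' s) =
        (volume : Measure (E d)).toSphere s := by
    intro s hs
    rw [Measure.toSphere_apply' _ (hm hs), Measure.toSphere_apply' _ hs]
    congr 1
    have hset : Set.Ioo (0 : ℝ) 1 • (((↑) : Sphere d → E d) '' (sphereMap g ⁻¹' s)) =
        g ⁻¹' (Set.Ioo (0 : ℝ) 1 • (((↑) : Sphere d → E d) '' s)) := by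
      ext v
      simp only [Set.mem_preimage, Set.mem_smul, Set.mem_image]
      constructor
      · rintro ⟨τ, hτ, _, ⟨w, hw, rfl⟩, rfl⟩
        exact ⟨τ, hτ, _, ⟨sphereMap g w, hw, rfl⟩, by simp [sphereMap]⟩
      · rintro ⟨τ, hτ, _, ⟨w, hw, rfl⟩, h⟩
        refine ⟨τ, hτ, _, ⟨sphereMap g.symm w, ?_, rfl⟩, ?_⟩
        · have : sphereMap g (sphereMap g.symm w) = w := by
            ext1; simp [sphereMap]
          simpa [this] using hw
        · have : v = g.symm (τ • (w : E d)) := by
            rw [h]; simp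
          rw [this]; simp [sphereMap]
    rw [hset]
    have hmp : MeasurePreserving (g.toHomeomorph.toMeasurableEquiv)
        (volume : Measure (E d)) volume := g.measurePreserving
    exact hmp.measure_preimage_equiv _
  ext s hs
  rw [Measure.map_apply hm hs]
  simp only [σ, sphereUniform, Measure.smul_apply, smul_eq_mul]
  rw [key s hs]

theorem measurableSet_sBall (z : E d) (ρ : ℝ) : MeasurableSet (sBall z ρ) := by
  have : IsOpen (sBall z ρ : Set (Sphere d)) := by
    have hc : Continuous fun w : Sphere d => ‖(w : E d) - z‖ := by fun_prop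
    exact isOpen_lt hc continuous_const
  exact this.measurableSet

/-- Two points on the sphere have the same caps. -/
lemma real_sBall_eq_of_sphere (hd : 0 < d) (z z' : Sphere d) (ρ : ℝ) :
    (σ d).real (sBall (z : E d) ρ) = (σ d).real (sBall (z' : E d) ρ) := by
  have hnorm : ‖(z' : E d)‖ = ‖(z : E d)‖ := by simp
  let g : E d ≃ₗᵢ[ℝ] E d := Submodule.reflection (ℝ ∙ ((z' : E d) - (z : E d)))ᗮ
  have hg : g (z' : E d) = (z : E d) := Submodule.reflection_sub hnorm
  have hmp := measurePreserving_sphereMap hd g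
  have hpre : sphereMap g ⁻¹' sBall (z : E d) ρ = sBall (z' : E d) ρ := by
    ext w
    simp only [Set.mem_preimage, sBall, Set.mem_setOf_eq, sphereMap]
    rw [← hg, ← map_sub, g.norm_map]
  have := hmp.measure_preimage (measurableSet_sBall (z : E d) ρ).nullMeasurableSet
  rw [hpre] at this
  simp only [Measure.real, this]

theorem real_sBall_eq_cap (hd : 0 < d) (z : Sphere d) (ρ : ℝ) :
    (σ d).real (sBall (z : E d) ρ) = cap d ρ := by
  unfold cap
  haveI : Nonempty (Sphere d) := ⟨z⟩
  have : (fun z' : Sphere d => (σ d).real (sBall (z' : E d) ρ)) =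
      fun _ => (σ d).real (sBall (z : E d) ρ) := by
    funext z'
    exact real_sBall_eq_of_sphere hd z' z ρ
  rw [this, ciSup_const]

theorem real_sBall_le_cap_two (hd : 0 < d) (z : E d) {ρ : ℝ} (hρ : 0 ≤ ρ) :
    (σ d).real (sBall z ρ) ≤ cap d (2 * ρ) := by
  haveI := isProb_σ hd
  by_cases he : (sBall z ρ : Set (Sphere d)).Nonempty
  · obtain ⟨w₀, hw₀⟩ := he
    rw [← real_sBall_eq_cap hd w₀ (2 * ρ)]
    refine measureReal_mono ?_ (measure_ne_top _ _)
    intro w hw
    have h1 : ‖(w : E d) - z‖ < ρ := hw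
    have h2 : ‖(w₀ : E d) - z‖ < ρ := hw₀
    show ‖(w : E d) - (w₀ : E d)‖ < 2 * ρ
    have h3 : ‖(w : E d) - (w₀ : E d)‖ ≤ ‖(w : E d) - z‖ + ‖(w₀ : E d) - z‖ := by
      have := norm_sub_le_norm_sub_add_norm_sub (w : E d) z (w₀ : E d)
      rwa [norm_sub_rev z (w₀ : E d)] at this
    linarith
  · rw [Set.not_nonempty_iff_eq_empty] at he
    rw [he]
    simp only [measureReal_empty]
    unfold cap
    exact Real.iSup_nonneg fun _ => measureReal_nonneg

theorem cap_nonneg (d : ℕ) (ρ : ℝ) : 0 ≤ cap d ρ := by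
  unfold cap
  exact Real.iSup_nonneg fun _ => measureReal_nonneg

theorem cap_le_one (hd : 0 < d) (ρ : ℝ) : cap d ρ ≤ 1 := by
  haveI := isProb_σ hd
  unfold cap
  exact Real.iSup_le (fun _ => measureReal_le_one) zero_le_one

theorem cap_mono (hd : 0 < d) {x y : ℝ} (h : x ≤ y) : cap d x ≤ cap d y := by
  haveI := isProb_σ hd
  rw [← real_sBall_eq_cap hd (CapBound.pole hd) x, ← real_sBall_eq_cap hd (CapBound.pole hd) y]
  refine measureReal_mono ?_ (measure_ne_top _ _)
  intro w hw
  have h1 : ‖(w : E d) - ((CapBound.pole hd : Sphere d) : E d)‖ < x := hw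
  show ‖(w : E d) - ((CapBound.pole hd : Sphere d) : E d)‖ < y
  linarith

theorem cap_pos (hd : 0 < d) {ρ : ℝ} (hρ : 0 < ρ) : 0 < cap d ρ := by
  haveI := isProb_σ hd
  rw [← real_sBall_eq_cap hd (CapBound.pole hd) ρ]
  have hopen : IsOpen (sBall ((CapBound.pole hd : Sphere d) : E d) ρ : Set (Sphere d)) := by
    have hc : Continuous fun w : Sphere d => ‖(w : E d) - ((CapBound.pole hd : Sphere d) : E d)‖ := by
      fun_prop
    exact isOpen_lt hc continuous_const
  have hne : (sBall ((CapBound.pole hd : Sphere d) : E d) ρ : Set (Sphere d)).Nonempty :=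
    ⟨CapBound.pole hd, by simp [sBall, hρ]⟩
  have h0 : (volume : Measure (E d)).toSphere (sBall ((CapBound.pole hd : Sphere d) : E d) ρ) ≠ 0 :=
    hopen.measure_ne_zero _ hne
  have h1 : (σ d) (sBall ((CapBound.pole hd : Sphere d) : E d) ρ) ≠ 0 := by
    simp only [σ, sphereUniform, Measure.smul_apply, smul_eq_mul]
    exact mul_ne_zero (ENNReal.inv_ne_zero.mpr (toSphere_univ_ne_top d)) h0
  exact ENNReal.toReal_pos h1 (measure_ne_top _ _)

theorem cap_eq_one (hd : 0 < d) {ρ : ℝ} (hρ : 2 < ρ) : cap d ρ = 1 := by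
  haveI := isProb_σ hd
  rw [← real_sBall_eq_cap hd (CapBound.pole hd) ρ]
  have : (sBall ((CapBound.pole hd : Sphere d) : E d) ρ : Set (Sphere d)) = Set.univ := by
    ext w
    simp only [sBall, Set.mem_setOf_eq, Set.mem_univ, iff_true]
    have h1 : ‖(w : E d) - ((CapBound.pole hd : Sphere d) : E d)‖ ≤
        ‖(w : E d)‖ + ‖((CapBound.pole hd : Sphere d) : E d)‖ := norm_sub_le _ _
    simp only [norm_eq_of_mem_sphere] at h1
    linarith
  rw [this]
  simp

section SecondMoment

lemma continuous_sq (v : E d) : Continuous (fun s : Sphere d => (inner ℝ (s : E d) v) ^ 2) := by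
  fun_prop

lemma integrable_sq (hd : 0 < d) (v : E d) :
    Integrable (fun s : Sphere d => (inner ℝ (s : E d) v) ^ 2) (σ d) := by
  haveI := isProb_σ hd
  exact (continuous_sq v).integrable_of_hasCompactSupport (HasCompactSupport.of_compactSpace _)

/-- The second moment in the direction `v`. -/
def m2 (d : ℕ) (v : E d) : ℝ := ∫ s, (inner ℝ (s : E d) v) ^ 2 ∂(σ d)

lemma m2_isometry (hd : 0 < d) (g : E d ≃ₗᵢ[ℝ] E d) (v : E d) : m2 d (g v) = m2 d v := by
  unfold m2
  have hmp := measurePreserving_sphereMap hd g.symm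
  have h := integral_map (μ := σ d) hmp.measurable.aemeasurable
    (f := fun t : Sphere d => (inner ℝ (t : E d) v) ^ 2) (continuous_sq v).aestronglyMeasurable
  rw [hmp.map_eq] at h
  rw [h]
  congr 1
  funext s
  have : inner ℝ (s : E d) (g v) = inner ℝ (g.symm (s : E d)) v := by
    rw [← g.symm.inner_map_map (s : E d) (g v)]
    simp
  rw [this]
  rfl

lemma m2_smul (a : ℝ) (v : E d) : m2 d (a • v) = a ^ 2 * m2 d v := by
  unfold m2
  rw [← integral_const_mul]
  congr 1
  funext s
  rw [inner_smul_right]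
  ring

lemma m2_eq_of_unit (hd : 0 < d) {u u' : E d} (hu : ‖u‖ = 1) (hu' : ‖u'‖ = 1) :
    m2 d u = m2 d u' := by
  have hnorm : ‖u‖ = ‖u'‖ := by rw [hu, hu']
  have hg : Submodule.reflection (ℝ ∙ (u - u'))ᗮ u = u' := Submodule.reflection_sub hnorm
  rw [← hg]
  exact (m2_isometry hd _ u).symm

lemma sum_m2 (hd : 0 < d) : ∑ i : Fin d, m2 d (EuclideanSpace.basisFun (Fin d) ℝ i) = 1 := by
  haveI := isProb_σ hd
  unfold m2
  rw [← integral_finset_sum _ (fun i _ => integrable_sq hd _)]
  have : ∀ s : Sphere d, ∑ i : Fin d, (inner ℝ (s : E d) (EuclideanSpace.basisFun (Fin d) ℝ i)) ^ 2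
      = 1 := by
    intro s
    have h1 := (EuclideanSpace.basisFun (Fin d) ℝ).sum_sq_norm_inner_left (s : E d)
    have h2 : ‖(s : E d)‖ = 1 := by simp
    rw [h2] at h1
    simpa [real_inner_comm] using h1
  simp only [this, integral_const, smul_eq_mul, mul_one]
  simp

/-- `∫ ⟪s, v⟫² dσ(s) = ‖v‖² / d`. -/
theorem second_moment (hd : 0 < d) (v : E d) :
    ∫ s, (inner ℝ (s : E d) v) ^ 2 ∂(σ d) = ‖v‖ ^ 2 / d := by
  have hd' : (d : ℝ) ≠ 0 := by positivity
  have hunit : ∀ u : E d, ‖u‖ = 1 → m2 d u = 1 / d := by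
    intro u hu
    have hs := sum_m2 hd
    have : ∀ i : Fin d, m2 d (EuclideanSpace.basisFun (Fin d) ℝ i) = m2 d u := by
      intro i
      exact m2_eq_of_unit hd (by simp) hu
    simp only [this, Finset.sum_const, Finset.card_univ, Fintype.card_fin, nsmul_eq_mul] at hs
    field_simp
    linarith
  by_cases hv : v = 0
  · subst hv
    simp
  · have hn : ‖v‖ ≠ 0 := by simpa using hv
    have hu : ‖(‖v‖⁻¹ • v : E d)‖ = 1 := by
      rw [norm_smul, norm_inv, norm_norm]
      field_simp
    have hv' : v = ‖v‖ • (‖v‖⁻¹ • v : E d) := by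
      rw [smul_smul, mul_inv_cancel₀ hn, one_smul]
    show m2 d v = _
    rw [hv', m2_smul, hunit _ hu]
    simp only [norm_smul, norm_inv, norm_norm]
    field_simp

end SecondMoment

section Net

/-- Separated sets are small. -/
lemma card_mul_cap_le (hd : 0 < d) {R : ℝ} (Z : Finset (Sphere d))
    (hsep : ∀ z ∈ Z, ∀ z' ∈ Z, z ≠ z' → R ≤ ‖(z : E d) - (z' : E d)‖) :
    (Z.card : ℝ) * cap d (R / 2) ≤ 1 := by
  haveI := isProb_σ hd
  have hdisj : (Z : Set (Sphere d)).PairwiseDisjoint (fun z => sBall (z : E d) (R / 2)) := by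
    intro z hz z' hz' hne
    rw [Function.onFun, Set.disjoint_left]
    intro w hw hw'
    have h1 : ‖(w : E d) - (z : E d)‖ < R / 2 := hw
    have h2 : ‖(w : E d) - (z' : E d)‖ < R / 2 := hw'
    have h3 := hsep z hz z' hz' hne
    have h4 : ‖(z : E d) - (z' : E d)‖ ≤ ‖(z : E d) - (w : E d)‖ + ‖(w : E d) - (z' : E d)‖ :=
      norm_sub_le_norm_sub_add_norm_sub _ _ _
    rw [norm_sub_rev (z : E d) (w : E d)] at h4
    linarith
  have hm := measureReal_biUnion_finset (μ := σ d) hdisj
    (fun z _ => measurableSet_sBall (z : E d) (R / 2))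
  have hle : (σ d).real (⋃ z ∈ Z, sBall (z : E d) (R / 2)) ≤ 1 := measureReal_le_one
  rw [hm] at hle
  simp only [real_sBall_eq_cap hd, Finset.sum_const, nsmul_eq_mul] at hle
  exact hle

/-- A maximal `R`-separated subset of the sphere: a finite `R`-net, of size at most
`1 / cap (R / 2)`. -/
theorem exists_sphere_net (hd : 0 < d) {R : ℝ} (hR : 0 < R) :
    ∃ Z : Finset (Sphere d), (Z.card : ℝ) * cap d (R / 2) ≤ 1 ∧
      ∀ s : Sphere d, ∃ z ∈ Z, ‖(s : E d) - (z : E d)‖ < R := by
  classical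
  have hcap : 0 < cap d (R / 2) := cap_pos hd (by positivity)
  let Sep : Finset (Sphere d) → Prop :=
    fun Z => ∀ z ∈ Z, ∀ z' ∈ Z, z ≠ z' → R ≤ ‖(z : E d) - (z' : E d)‖
  let B : ℕ := ⌈1 / cap d (R / 2)⌉₊
  have hbd : ∀ Z : Finset (Sphere d), Sep Z → Z.card ≤ B := by
    intro Z hZ
    have h := card_mul_cap_le hd Z hZ
    have h1 : (Z.card : ℝ) ≤ 1 / cap d (R / 2) := by
      rwa [le_div_iff₀ hcap]
    exact_mod_cast h1.trans (Nat.le_ceil _)
  -- pick a separated set of maximal cardinality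
  let P : ℕ → Prop := fun n => ∃ Z : Finset (Sphere d), Sep Z ∧ Z.card = n
  have hP0 : P 0 := ⟨∅, by simp [Sep], rfl⟩
  have hmax : ∃ n, P n ∧ ∀ m, P m → m ≤ n := by
    have hmem : P (Nat.findGreatest P B) := Nat.findGreatest_spec (P := P) (Nat.zero_le B) hP0
    refine ⟨Nat.findGreatest P B, hmem, ?_⟩
    intro m hm
    obtain ⟨Z, hZ, rfl⟩ := hm
    exact Nat.le_findGreatest (hbd Z hZ) ⟨Z, hZ, rfl⟩
  obtain ⟨n, ⟨Z, hZ, rfl⟩, hn⟩ := hmax
  refine ⟨Z, card_mul_cap_le hd Z hZ, ?_⟩
  intro s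
  by_contra hs
  push_neg at hs
  have hsZ : s ∉ Z := by
    intro hmem
    have := hs s hmem
    simp at this
    linarith
  have hsep' : Sep (insert s Z) := by
    intro z hz z' hz' hne
    rw [Finset.mem_insert] at hz hz'
    rcases hz with rfl | hz <;> rcases hz' with rfl | hz'
    · exact absurd rfl hne
    · exact hs z' hz'
    · rw [norm_sub_rev]; exact hs z hz
    · exact hZ z hz z' hz' hne
  have := hn _ ⟨insert s Z, hsep', rfl⟩
  rw [Finset.card_insert_of_notMem hsZ] at this
  omega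

end Net

/-- Comparison of caps at different radii, by comparing the volumes of the cones over the caps. -/
theorem cap_le_pow (hd : 2 ≤ d) {x y : ℝ} (hx : 0 < x) (hy : 0 < y) (hy4 : y ≤ 4) :
    cap d x ≤ 8 * (8 * x / y) ^ (d - 1) * cap d y := by
  have hd0 : 0 < d := by omega
  have := CapBound.real_sBall_pole_le hd hx hy hy4
  rw [show (CapBound.e0 hd0) = ((CapBound.pole hd0 : Sphere d) : E d) from rfl,
    real_sBall_eq_cap hd0, real_sBall_eq_cap hd0] at this
  exact this

end

end Crest.Agent.S0499Lib
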