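/-
S0499 package M: measurability of the data map, slabs, the exceptional sets and the pulled back
sets.
-/
import Crest.Agent.S0499Lib.SphereBasic

set_option autoImplicit false

namespace Crest.Agent.S0499Lib

open MeasureTheory ProbabilityTheory Crest.StreamLearn
open scoped ENNReal

noncomputable section

variable {d : ℕ} {ι : Type*} [Fintype ι]

set_option linter.unusedSectionVars false

private instance sFinite_σ_aux : SFinite (σ d) := by
  unfold σ sphereUniform
  infer_instance

private theorem measurable_cell (η : ℝ) : Measurable (cell η) := by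
  unfold cell
  exact (measurable_id.div_const η).floor

theorem measurable_dat (η : ℝ) :
    Measurable fun x : (ι → E d) × Sphere d => dat η x.1 x.2 := by
  refine measurable_pi_lambda _ fun i => ?_
  unfold dat
  refine (measurable_cell η).comp ?_
  refine Measurable.inner ((measurable_pi_apply i).comp measurable_fst)
    (measurable_subtype_coe.comp measurable_snd)

theorem measurableSet_flat (η : ℝ) (X : ι → E d) (c : ι → ℤ) : MeasurableSet (flat η X c) := by
  have h : Measurable fun w : Sphere d => dat η X w := by
    refine measurable_pi_lambda _ fun i => ?_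
    unfold dat
    exact (measurable_cell η).comp (Measurable.inner measurable_const measurable_subtype_coe)
  exact measurableSet_eq_fun h measurable_const

/-- Joint measurability of the slab. -/
private theorem measurableSet_slab_joint (η : ℝ) {V : Set (Sphere d)} (hV : MeasurableSet V)
    (r : ℝ) :
    MeasurableSet {x : ((ι → E d) × Sphere d) × Sphere d |
      x.2 ∈ V ∩ flat η x.1.1 (dat η x.1.1 x.1.2) ∩ sBall (x.1.2 : E d) r} := by
  have h1 : MeasurableSet {x : ((ι → E d) × Sphere d) × Sphere d | x.2 ∈ V} :=
    measurable_snd hV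
  have h2 : MeasurableSet {x : ((ι → E d) × Sphere d) × Sphere d |
      dat η x.1.1 x.2 = dat η x.1.1 x.1.2} := by
    have ha : Measurable fun x : ((ι → E d) × Sphere d) × Sphere d => dat η x.1.1 x.2 := by
      refine measurable_pi_lambda _ fun i => ?_
      unfold dat
      exact (measurable_cell η).comp (Measurable.inner
        ((measurable_pi_apply i).comp (measurable_fst.comp measurable_fst))
        (measurable_subtype_coe.comp measurable_snd))
    have hb : Measurable fun x : ((ι → E d) × Sphere d) × Sphere d => dat η x.1.1 x.1.2 := by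
      refine measurable_pi_lambda _ fun i => ?_
      unfold dat
      exact (measurable_cell η).comp (Measurable.inner
        ((measurable_pi_apply i).comp (measurable_fst.comp measurable_fst))
        (measurable_subtype_coe.comp (measurable_snd.comp measurable_fst)))
    exact measurableSet_eq_fun ha hb
  have h3 : MeasurableSet {x : ((ι → E d) × Sphere d) × Sphere d |
      ‖(x.2 : E d) - (x.1.2 : E d)‖ < r} := by
    refine measurableSet_lt ?_ measurable_const
    exact ((measurable_subtype_coe.comp measurable_snd).sub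
      (measurable_subtype_coe.comp (measurable_snd.comp measurable_fst))).norm
  exact (h1.inter h2).inter h3

/-- `(X, s) ↦ σ(V ∩ flat X (dat X s) ∩ B(s, r))` is measurable. -/
theorem measurable_real_slab (η : ℝ) {V : Set (Sphere d)} (hV : MeasurableSet V) (r : ℝ) :
    Measurable fun x : (ι → E d) × Sphere d =>
      (σ d).real (V ∩ flat η x.1 (dat η x.1 x.2) ∩ sBall (x.2 : E d) r) := by
  have h := measurable_measure_prodMk_left (ν := σ d)
    (measurableSet_slab_joint (ι := ι) (d := d) η hV r)
  exact h.ennreal_toReal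

/-- Measurability of the set of `(X, s)` where `LocSparseAt` holds. -/
private theorem measurableSet_locSparseAt (η : ℝ) (b : ℕ) (q p : ℤ) {U : Set (Sphere d)}
    (hU : MeasurableSet U) :
    MeasurableSet {x : (ι → E d) × Sphere d |
      LocSparseAt b q p U (flat η x.1 (dat η x.1 x.2)) x.2} := by
  unfold LocSparseAt
  refine measurableSet_le (measurable_real_slab η hU _) ?_
  have h := (measurable_real_slab (ι := ι) (d := d) η (V := Set.univ) MeasurableSet.univ
    ((2 : ℝ) ^ (p + 1))).const_mul (θ b q p)
  simpa only [Set.univ_inter] using h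

theorem measurableSet_excAt (η : ℝ) (b : ℕ) (q p : ℤ) {U : Set (Sphere d)} (hU : MeasurableSet U) :
    MeasurableSet (excAt (ι := ι) η b q U p) := by
  have h1 : MeasurableSet {x : Sphere d × (ι → E d) | x.1 ∈ U} := measurable_fst hU
  have h2 : MeasurableSet {x : Sphere d × (ι → E d) |
      LocSparseAt b q p U (flat η x.2 (dat η x.2 x.1)) x.1} :=
    measurable_swap (measurableSet_locSparseAt (ι := ι) (d := d) η b q p hU)
  exact h1.inter h2.compl

section
variable {St' : Type*} [Countable St']

theorem measurableSet_stepExc (η : ℝ) (b : ℕ) (q : ℤ) {U' : St' → Set (Sphere d)}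
    (hU' : ∀ a, MeasurableSet (U' a)) :
    MeasurableSet (stepExc (ι := ι) η b q U') := by
  have : stepExc (ι := ι) η b q U' =
      ⋃ a, ⋃ p : ℤ, ⋃ (_ : q ≤ p), ⋃ (_ : p ≤ 3), excAt (ι := ι) η b q (U' a) p := by
    ext x
    simp only [stepExc, Set.mem_iUnion, Set.mem_ofPred_eq, exists_prop]
  rw [this]
  exact MeasurableSet.iUnion fun a => MeasurableSet.iUnion fun p =>
    MeasurableSet.iUnion fun _ => MeasurableSet.iUnion fun _ => measurableSet_excAt η b q p (hU' a)

/-- The event "dat X w = c, F X c = a" is jointly measurable. -/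
private theorem measurableSet_cell_state (η : ℝ) {F : (ι → E d) → (ι → ℤ) → St'}
    (hF : ∀ c a, MeasurableSet {X | F X c = a}) (c : ι → ℤ) (a : St') :
    MeasurableSet {x : Sphere d × (ι → E d) | dat η x.2 x.1 = c ∧ F x.2 c = a} := by
  have h1 : MeasurableSet {x : Sphere d × (ι → E d) | dat η x.2 x.1 = c} := by
    have hm : Measurable fun x : Sphere d × (ι → E d) => dat η x.2 x.1 := by
      refine measurable_pi_lambda _ fun i => ?_
      unfold dat
      exact (measurable_cell η).comp (Measurable.inner
        ((measurable_pi_apply i).comp measurable_snd)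
        (measurable_subtype_coe.comp measurable_fst))
    exact measurableSet_eq_fun hm measurable_const
  have h2 : MeasurableSet {x : Sphere d × (ι → E d) | F x.2 c = a} :=
    measurable_snd (hF c a)
  exact h1.inter h2

/-- The joint event `{(w, X) : w ∈ U' (F X (dat X w))}` is measurable. -/
theorem measurableSet_transition_joint (η : ℝ) {U' : St' → Set (Sphere d)}
    (hU' : ∀ a, MeasurableSet (U' a)) {F : (ι → E d) → (ι → ℤ) → St'}
    (hF : ∀ c a, MeasurableSet {X | F X c = a}) :
    MeasurableSet {x : Sphere d × (ι → E d) | x.1 ∈ U' (F x.2 (dat η x.2 x.1))} := by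
  have : {x : Sphere d × (ι → E d) | x.1 ∈ U' (F x.2 (dat η x.2 x.1))} =
      ⋃ c : ι → ℤ, ⋃ a : St', {x : Sphere d × (ι → E d) | dat η x.2 x.1 = c ∧ F x.2 c = a} ∩
        {x | x.1 ∈ U' a} := by
    ext x
    simp only [Set.mem_ofPred_eq, Set.mem_iUnion, Set.mem_inter_iff]
    constructor
    · intro h
      exact ⟨_, _, ⟨rfl, rfl⟩, h⟩
    · rintro ⟨c, a, ⟨rfl, rfl⟩, h⟩
      exact h
  rw [this]
  exact MeasurableSet.iUnion fun c => MeasurableSet.iUnion fun a =>
    (measurableSet_cell_state η hF c a).inter (measurable_fst (hU' a))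

/-- The joint event of `stepEv` is measurable. -/
theorem measurableSet_stepEv_joint (η : ℝ) (b : ℕ) (q : ℤ) {U' : St' → Set (Sphere d)}
    (hU' : ∀ a, MeasurableSet (U' a)) {F : (ι → E d) → (ι → ℤ) → St'}
    (hF : ∀ c a, MeasurableSet {X | F X c = a}) :
    MeasurableSet {x : Sphere d × (ι → E d) | x.2 ∈ stepEv η b q U' F x.1} := by
  have : {x : Sphere d × (ι → E d) | x.2 ∈ stepEv η b q U' F x.1} =
      ⋃ c : ι → ℤ, ⋃ a : St', {x : Sphere d × (ι → E d) | dat η x.2 x.1 = c ∧ F x.2 c = a} ∩
        ({x | x.1 ∈ U' a} ∩ ⋂ p : ℤ, ⋂ (_ : q ≤ p), ⋂ (_ : p ≤ 3),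
          {x | LocSparseAt b q p (U' a) (flat η x.2 (dat η x.2 x.1)) x.1}) := by
    ext x
    simp only [Set.mem_ofPred_eq, Set.mem_iUnion, Set.mem_inter_iff, Set.mem_iInter, stepEv,
      LocSparse]
    constructor
    · intro h
      exact ⟨_, _, ⟨rfl, rfl⟩, h.1, fun p hp hp' => h.2 p hp hp'⟩
    · rintro ⟨c, a, ⟨rfl, rfl⟩, h, h'⟩
      exact ⟨h, fun p hp hp' => h' p hp hp'⟩
  rw [this]
  refine MeasurableSet.iUnion fun c => MeasurableSet.iUnion fun a =>
    (measurableSet_cell_state η hF c a).inter ((measurable_fst (hU' a)).inter ?_)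
  refine MeasurableSet.iInter fun p => MeasurableSet.iInter fun _ => MeasurableSet.iInter fun _ => ?_
  exact measurable_swap (measurableSet_locSparseAt (ι := ι) (d := d) η b q p (hU' a))

theorem measurableSet_stepU (η : ℝ) (b : ℕ) (q : ℤ) {U' : St' → Set (Sphere d)}
    (hU' : ∀ a, MeasurableSet (U' a)) {F : (ι → E d) → (ι → ℤ) → St'}
    (hF : ∀ c a, MeasurableSet {X | F X c = a}) (τ : ℝ) :
    MeasurableSet (stepU η b q U' F τ) := by
  have h := measurable_measure_prodMk_left (ν := γ d ι)
    (measurableSet_stepEv_joint (ι := ι) (d := d) η b q hU' hF)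
  exact measurableSet_le measurable_const h

end

end

end Crest.Agent.S0499Lib
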