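/-
S0499 package B: Gaussian estimates.
-/
import Crest.Agent.S0499Lib.Defs

set_option autoImplicit false

namespace Crest.Agent.S0499Lib

open MeasureTheory ProbabilityTheory Crest.StreamLearn
open scoped ENNReal

noncomputable section

variable {d : ℕ} {ι : Type*} [Fintype ι]

/-- The upper bound for the small ball probability along a list of vectors. -/
def pd (η : ℝ) : List (E d) → ℝ≥0∞
  | [] => 1
  | u :: us => ENNReal.ofReal η *
      (ENNReal.ofReal (Metric.infDist u ((Submodule.span ℝ {v | v ∈ us} : Submodule ℝ (E d)) : Set (E d))))⁻¹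
        * pd η us

theorem pd_ne_zero {η : ℝ} (hη : 0 < η) (us : List (E d)) : pd η us ≠ 0 := by
  induction us with
  | nil => simp [pd]
  | cons u us ih =>
    simp only [pd]
    refine mul_ne_zero (mul_ne_zero ?_ ?_) ih
    · simpa using hη
    · exact ENNReal.inv_ne_zero.mpr ENNReal.ofReal_ne_top

/-- Splitting a standard Gaussian vector along a unit vector `e`. -/
theorem stdGaussian_split {e : E d} (he : ‖e‖ = 1) :
    ((gaussianReal 0 1).prod (stdGaussian (E d))).map
      (fun p : ℝ × E d => p.2 + (p.1 - inner ℝ p.2 e) • e) = stdGaussian (E d) := by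
  have hm : Measurable (fun p : ℝ × E d => p.2 + (p.1 - inner ℝ p.2 e) • e) := by fun_prop
  apply Measure.ext_of_charFun
  ext t
  rw [charFun_stdGaussian, charFun_apply, integral_map hm.aemeasurable (by fun_prop)]
  have key : ∀ p : ℝ × E d, (Complex.exp (((inner ℝ (p.2 + (p.1 - inner ℝ p.2 e) • e) t : ℝ) : ℂ) * Complex.I))
      = Complex.exp (((inner ℝ p.1 (inner ℝ e t : ℝ) : ℝ) : ℂ) * Complex.I) *
        Complex.exp (((inner ℝ p.2 (t - (inner ℝ e t : ℝ) • e) : ℝ) : ℂ) * Complex.I) := by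
    intro p
    rw [← Complex.exp_add, ← add_mul, ← Complex.ofReal_add]
    congr 2
    congr 1
    simp only [inner_add_left, inner_smul_left, inner_sub_right, inner_smul_right, sub_mul,
      RCLike.conj_to_real, real_inner_comm]
    simp [mul_comm]
    ring
  simp_rw [key]
  rw [integral_prod_mul (fun τ : ℝ => Complex.exp (((inner ℝ τ (inner ℝ e t : ℝ) : ℝ) : ℂ) * Complex.I))
    (fun x : E d => Complex.exp (((inner ℝ x (t - (inner ℝ e t : ℝ) • e) : ℝ) : ℂ) * Complex.I))]
  rw [← charFun_apply, ← charFun_apply, charFun_stdGaussian, charFun_gaussianReal]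
  rw [← Complex.exp_add]
  congr 1
  have hn : ‖t - (inner ℝ e t : ℝ) • e‖ ^ 2 = ‖t‖ ^ 2 - (inner ℝ e t : ℝ) ^ 2 := by
    rw [norm_sub_sq_real, norm_smul, inner_smul_right, he, real_inner_comm]
    simp
    ring
  have hn' : ((‖t - (inner ℝ e t : ℝ) • e‖ : ℝ) : ℂ) ^ 2 =
      ((‖t‖ : ℝ) : ℂ) ^ 2 - ((inner ℝ e t : ℝ) : ℂ) ^ 2 := by
    exact_mod_cast hn
  rw [hn']
  simp
  ring

/-- The density bound for an interval. -/
theorem gaussian_interval_le {a δ η : ℝ} (hδ : 0 < δ) :
    gaussianReal 0 1 {t | |a + t * δ| < η} ≤ ENNReal.ofReal η * (ENNReal.ofReal δ)⁻¹ := by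
  have hS : {t : ℝ | |a + t * δ| < η} = Set.Ioo ((-η - a) / δ) ((η - a) / δ) := by
    ext t
    simp only [Set.mem_ofPred_eq, Set.mem_Ioo, abs_lt]
    rw [div_lt_iff₀ hδ, lt_div_iff₀ hδ]
    constructor
    · rintro ⟨h1, h2⟩; constructor <;> linarith
    · rintro ⟨h1, h2⟩; constructor <;> linarith
  rw [hS, gaussianReal_of_var_ne_zero _ one_ne_zero,
    withDensity_apply _ measurableSet_Ioo]
  have hbound : ∀ x : ℝ, gaussianPDF 0 1 x ≤ ENNReal.ofReal (1 / 2) := by
    intro x
    rw [gaussianPDF]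
    apply ENNReal.ofReal_le_ofReal
    rw [gaussianPDFReal]
    have h1 : Real.exp (-(x - 0) ^ 2 / (2 * ((1 : NNReal) : ℝ))) ≤ 1 := by
      rw [Real.exp_le_one_iff]
      have := sq_nonneg (x - 0)
      have h2 : (0 : ℝ) < 2 * ((1 : NNReal) : ℝ) := by norm_num
      exact div_nonpos_of_nonpos_of_nonneg (by linarith) h2.le
    have h2 : (2 : ℝ) ≤ Real.sqrt (2 * Real.pi * ((1 : NNReal) : ℝ)) := by
      apply Real.le_sqrt_of_sq_le
      have := Real.pi_gt_three
      norm_num
      linarith
    have h3 : (Real.sqrt (2 * Real.pi * ((1 : NNReal) : ℝ)))⁻¹ ≤ 1 / 2 := by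
      rw [one_div]
      exact inv_anti₀ (by norm_num) h2
    have h4 : 0 ≤ (Real.sqrt (2 * Real.pi * ((1 : NNReal) : ℝ)))⁻¹ := by positivity
    calc (Real.sqrt (2 * Real.pi * ((1 : NNReal) : ℝ)))⁻¹ * Real.exp (-(x - 0) ^ 2 / (2 * ((1 : NNReal) : ℝ)))
        ≤ (1 / 2) * 1 := by
          apply mul_le_mul h3 h1 (Real.exp_pos _).le (by norm_num)
      _ = 1 / 2 := by norm_num
  calc ∫⁻ x in Set.Ioo ((-η - a) / δ) ((η - a) / δ), gaussianPDF 0 1 x
      ≤ ∫⁻ _ in Set.Ioo ((-η - a) / δ) ((η - a) / δ), ENNReal.ofReal (1 / 2) :=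
        lintegral_mono fun x => hbound x
    _ = ENNReal.ofReal (1 / 2) * ENNReal.ofReal ((η - a) / δ - (-η - a) / δ) := by
        rw [setLIntegral_const, Real.volume_Ioo]
    _ = ENNReal.ofReal (η / δ) := by
        rw [← ENNReal.ofReal_mul (by norm_num)]
        congr 1
        field_simp
        ring
    _ = ENNReal.ofReal η * (ENNReal.ofReal δ)⁻¹ := by
        rw [ENNReal.ofReal_div_of_pos hδ, div_eq_mul_inv]

theorem measurableSet_row_small {η : ℝ} (us : List (E d)) :
    MeasurableSet {x : E d | ∀ u ∈ us, |inner ℝ x u| < η} := by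
  have : {x : E d | ∀ u ∈ us, |inner ℝ x u| < η} = ⋂ u ∈ {u | u ∈ us}, {x : E d | |inner ℝ x u| < η} := by
    ext x; simp
  rw [this]
  refine Set.Finite.measurableSet_biInter (List.finite_toSet us) fun u _ => ?_
  exact measurableSet_lt (by fun_prop) measurable_const

/-- Small ball estimate: each new vector contributes `η / dist(u, span previous)`.
Proof: induction on `us`; split the Gaussian along the unit normal `e` to `span us` in the direction
of `u`: `x = Qx + t e`, `t ~ N(0,1)` independent of `Qx`; given `Qx`, the constraint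
`|⟪x, u⟫| < η` confines `t` to an interval of length `2 η / dist`, of probability at most
`η / dist` (density `≤ 1/√(2π) ≤ 1/2`). -/
theorem row_small_ball {η : ℝ} (hη : 0 < η) (us : List (E d)) :
    stdGaussian (E d) {x | ∀ u ∈ us, |inner ℝ x u| < η} ≤ pd η us := by
  induction us with
  | nil => simp [pd]
  | cons u us ih =>
    set V : Submodule ℝ (E d) := Submodule.span ℝ {v | v ∈ us} with hV
    have hpd : pd η (u :: us) = ENNReal.ofReal η *
        (ENNReal.ofReal (Metric.infDist u (V : Set (E d))))⁻¹ * pd η us := rfl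
    rw [hpd]
    by_cases hδ0 : Metric.infDist u (V : Set (E d)) = 0
    · have h0 : pd η us ≠ 0 := pd_ne_zero hη us
      have h1 : ENNReal.ofReal η ≠ 0 := by simpa using hη
      rw [hδ0, ENNReal.ofReal_zero, ENNReal.inv_zero, ENNReal.mul_top h1, ENNReal.top_mul h0]
      exact le_top
    have hpos : 0 < Metric.infDist u (V : Set (E d)) :=
      lt_of_le_of_ne Metric.infDist_nonneg (Ne.symm hδ0)
    set p := V.starProjection u with hp
    set w := u - p with hw
    have hw_orth : w ∈ Vᗮ := V.sub_starProjection_mem_orthogonal u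
    have hpV : p ∈ V := V.starProjection_apply_mem u
    have hle : Metric.infDist u (V : Set (E d)) ≤ ‖w‖ := by
      have := Metric.infDist_le_dist_of_mem (x := u) (y := p) (s := (V : Set (E d))) hpV
      simpa [dist_eq_norm] using this
    set δ := ‖w‖ with hδ
    have hδpos : 0 < δ := lt_of_lt_of_le hpos hle
    set e := δ⁻¹ • w with he_def
    have he : ‖e‖ = 1 := by
      rw [he_def, norm_smul, norm_inv, Real.norm_of_nonneg hδpos.le, ← hδ]
      field_simp
    have he_perp : ∀ v ∈ us, inner ℝ e v = (0 : ℝ) := by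
      intro v hv
      have hvV : v ∈ V := Submodule.subset_span hv
      rw [he_def, inner_smul_left]
      have := (Submodule.mem_orthogonal' V w).mp hw_orth v hvV
      simp [this]
    have he_p : inner ℝ e p = (0 : ℝ) := by
      rw [he_def, inner_smul_left]
      have := (Submodule.mem_orthogonal' V w).mp hw_orth p hpV
      simp [this]
    have he_u : inner ℝ e u = δ := by
      have hu : u = w + p := by simp [hw]
      rw [hu, inner_add_right, he_p, add_zero, he_def, inner_smul_left]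
      simp [real_inner_self_eq_norm_sq, ← hδ]
      field_simp
    set B : Set (E d) := {x | ∀ v ∈ us, |inner ℝ x v| < η} with hB
    set S : Set (E d) := {x | ∀ v ∈ u :: us, |inner ℝ x v| < η} with hS
    have hSm : MeasurableSet S := measurableSet_row_small (u :: us)
    have hBm : MeasurableSet B := measurableSet_row_small us
    set f : ℝ × E d → E d := fun p => p.2 + (p.1 - inner ℝ p.2 e) • e with hf
    have hfm : Measurable f := by fun_prop
    have hsplit : stdGaussian (E d) S = ((gaussianReal 0 1).prod (stdGaussian (E d))) (f ⁻¹' S) := by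
      conv_lhs => rw [← stdGaussian_split he]
      rw [Measure.map_apply hfm hSm]
    rw [hsplit, Measure.prod_apply_symm (hfm hSm)]
    have hpoint : ∀ x : E d, gaussianReal 0 1 ((fun t => (t, x)) ⁻¹' (f ⁻¹' S)) ≤
        B.indicator (fun _ => ENNReal.ofReal η * (ENNReal.ofReal δ)⁻¹) x := by
      intro x
      have hinner : ∀ (t : ℝ) (v : E d), inner ℝ (f (t, x)) v =
          inner ℝ x v + (t - inner ℝ x e) * inner ℝ e v := by
        intro t v
        simp [hf, inner_add_left, inner_smul_left]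
      by_cases hx : x ∈ B
      · rw [Set.indicator_of_mem hx]
        refine le_trans (measure_mono ?_) (gaussian_interval_le (a := inner ℝ x u - inner ℝ x e * δ) hδpos)
        intro t ht
        have ht' : f (t, x) ∈ S := ht
        have := ht' u (by simp)
        rw [hinner, he_u] at this
        show |inner ℝ x u - inner ℝ x e * δ + t * δ| < η
        convert this using 2
        ring
      · rw [Set.indicator_of_notMem hx]
        have hempty : (fun t => (t, x)) ⁻¹' (f ⁻¹' S) = ∅ := by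
          ext t
          simp only [Set.mem_preimage, Set.mem_empty_iff_false, iff_false]
          intro ht
          apply hx
          intro v hv
          have := ht v (List.mem_cons_of_mem _ hv)
          rw [hinner, he_perp v hv] at this
          simpa using this
        rw [hempty]
        simp
    calc ∫⁻ x, gaussianReal 0 1 ((fun t => (t, x)) ⁻¹' (f ⁻¹' S)) ∂(stdGaussian (E d))
        ≤ ∫⁻ x, B.indicator (fun _ => ENNReal.ofReal η * (ENNReal.ofReal δ)⁻¹) x ∂(stdGaussian (E d)) :=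
          lintegral_mono hpoint
      _ = (ENNReal.ofReal η * (ENNReal.ofReal δ)⁻¹) * stdGaussian (E d) B := by
          rw [lintegral_indicator hBm, setLIntegral_const]
      _ ≤ _ := by
          gcongr

theorem abs_sub_lt_of_cell_eq {η y y' : ℝ} (hη : 0 < η) (h : cell η y = cell η y') :
    |y - y'| < η := by
  unfold cell at h
  have h1 := Int.floor_le (y / η)
  have h2 := Int.lt_floor_add_one (y / η)
  have h3 := Int.floor_le (y' / η)
  have h4 := Int.lt_floor_add_one (y' / η)
  rw [h] at h1 h2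
  have h5 : |y / η - y' / η| < 1 := by
    rw [abs_lt]; constructor <;> linarith
  have h6 : y - y' = (y / η - y' / η) * η := by field_simp
  rw [h6, abs_mul, abs_of_pos hη]
  calc |y / η - y' / η| * η < 1 * η := by gcongr
    _ = η := one_mul η

/-- `η * cell ≤ y < η * cell + η`. -/
theorem cell_spec {η : ℝ} (hη : 0 < η) (y : ℝ) :
    η * (cell η y : ℝ) ≤ y ∧ y < η * (cell η y : ℝ) + η := by
  unfold cell
  have h1 := Int.floor_le (y / η)
  have h2 := Int.lt_floor_add_one (y / η)
  constructor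
  · rw [le_div_iff₀ hη] at h1
    linarith
  · rw [div_lt_iff₀ hη] at h2
    linarith

/-- The probability that all the rows give the same cells to `w₀` and the points of `ws`. -/
theorem rows_same_cell {η : ℝ} (hη : 0 < η) (w₀ : E d) (ws : List (E d)) :
    γ d ι {X | ∀ i, ∀ v ∈ ws, cell η (inner ℝ (X i) v) = cell η (inner ℝ (X i) w₀)} ≤
      (pd η (ws.map (· - w₀))) ^ Fintype.card ι := by
  set S : Set (E d) := {x | ∀ u ∈ ws.map (· - w₀), |inner ℝ x u| < η} with hS
  have hsub : {X : ι → E d | ∀ i, ∀ v ∈ ws, cell η (inner ℝ (X i) v) = cell η (inner ℝ (X i) w₀)} ⊆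
      Set.univ.pi fun _ => S := by
    intro X hX i _ u hu
    obtain ⟨v, hv, rfl⟩ := List.mem_map.mp hu
    have := abs_sub_lt_of_cell_eq hη (hX i v hv)
    rwa [inner_sub_right]
  calc _ ≤ γ d ι (Set.univ.pi fun _ => S) := measure_mono hsub
    _ = ∏ _i : ι, stdGaussian (E d) S := Measure.pi_pi _ _
    _ = stdGaussian (E d) S ^ Fintype.card ι := by simp
    _ ≤ _ := by
        gcongr
        exact row_small_ball hη _

theorem lintegral_exp_inner_le {u : E d} (hu : ‖u‖ ≤ 1) :
    ∫⁻ x, ENNReal.ofReal (Real.exp (inner ℝ u x)) ∂(stdGaussian (E d)) ≤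
      ENNReal.ofReal (Real.exp (1 / 2)) := by
  set L : StrongDual ℝ (E d) := innerSL ℝ u with hL
  have hmap : (stdGaussian (E d)).map L = gaussianReal 0 (⟨‖u‖ ^ 2, by positivity⟩ : NNReal) := by
    rw [IsGaussian.map_eq_gaussianReal L, integral_strongDual_stdGaussian, variance_dual_stdGaussian]
    congr 1
    rw [hL, innerSL_apply_norm]
    ext
    exact Real.coe_toNNReal _ (by positivity)
  have hLm : Measurable (fun x : E d => inner ℝ u x) := by fun_prop
  have hLcoe : (fun x : E d => inner ℝ u x) = ⇑L := by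
    ext x; simp [hL]
  have hint : Integrable (fun x : E d => Real.exp (inner ℝ u x)) (stdGaussian (E d)) := by
    have h1 := integrable_exp_mul_gaussianReal (μ := 0) (v := (⟨‖u‖ ^ 2, by positivity⟩ : NNReal)) 1
    rw [← hmap, integrable_map_measure (by fun_prop) L.measurable.aemeasurable] at h1
    refine h1.congr (ae_of_all _ fun x => ?_)
    simp [hL]
  rw [← ofReal_integral_eq_lintegral_ofReal hint (ae_of_all _ fun x => (Real.exp_pos _).le)]
  apply ENNReal.ofReal_le_ofReal
  have h2 : mgf (⇑L) (stdGaussian (E d)) 1 = Real.exp (0 * 1 + ((⟨‖u‖ ^ 2, by positivity⟩ : NNReal) : ℝ) * 1 ^ 2 / 2) :=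
    mgf_gaussianReal hmap 1
  have h3 : ∫ x, Real.exp (inner ℝ u x) ∂(stdGaussian (E d)) = mgf (⇑L) (stdGaussian (E d)) 1 := by
    rw [mgf]
    refine integral_congr_ae (ae_of_all _ fun x => ?_)
    simp [hL]
  rw [h3, h2]
  apply Real.exp_le_exp.mpr
  simp only [NNReal.coe_mk]
  have : ‖u‖ ^ 2 ≤ 1 := by
    have := norm_nonneg u
    nlinarith
  linarith

theorem lintegral_exp_abs_inner_le {u : E d} (hu : ‖u‖ ≤ 1) :
    ∫⁻ x, ENNReal.ofReal (Real.exp |inner ℝ u x|) ∂(stdGaussian (E d)) ≤
      ENNReal.ofReal (2 * Real.exp (1 / 2)) := by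
  have h1 : ∀ x : E d, ENNReal.ofReal (Real.exp |inner ℝ u x|) ≤
      ENNReal.ofReal (Real.exp (inner ℝ u x)) + ENNReal.ofReal (Real.exp (inner ℝ (-u) x)) := by
    intro x
    rw [← ENNReal.ofReal_add (Real.exp_pos _).le (Real.exp_pos _).le]
    apply ENNReal.ofReal_le_ofReal
    rw [inner_neg_left]
    rcases abs_cases (inner ℝ u x : ℝ) with ⟨h, _⟩ | ⟨h, _⟩ <;> rw [h]
    · linarith [Real.exp_pos (-(inner ℝ u x : ℝ))]
    · linarith [Real.exp_pos ((inner ℝ u x : ℝ))]
  calc ∫⁻ x, ENNReal.ofReal (Real.exp |inner ℝ u x|) ∂(stdGaussian (E d))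
      ≤ ∫⁻ x, (ENNReal.ofReal (Real.exp (inner ℝ u x)) + ENNReal.ofReal (Real.exp (inner ℝ (-u) x))) ∂(stdGaussian (E d)) :=
        lintegral_mono h1
    _ = ∫⁻ x, ENNReal.ofReal (Real.exp (inner ℝ u x)) ∂(stdGaussian (E d)) +
        ∫⁻ x, ENNReal.ofReal (Real.exp (inner ℝ (-u) x)) ∂(stdGaussian (E d)) :=
        lintegral_add_left (by fun_prop) _
    _ ≤ ENNReal.ofReal (Real.exp (1 / 2)) + ENNReal.ofReal (Real.exp (1 / 2)) := by
        gcongr
        · exact lintegral_exp_inner_le hu
        · exact lintegral_exp_inner_le (by simpa using hu)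
    _ = _ := by
        rw [← ENNReal.ofReal_add (Real.exp_pos _).le (Real.exp_pos _).le]
        congr 1
        ring

/-- Chernoff for the `ℓ¹` norm of `X v`: with probability `≥ 1 - 2^{-k}` the sum of the
`|⟪X i, v⟫|` is at most `2 k R`, when `‖v‖ ≤ R`.  Uses `E exp |g| ≤ 2 e^{1/2}`, and
`2 e^{1/2} e^{-2} ≤ 1/2`. -/
theorem chernoff_rows {R : ℝ} (hR : 0 < R) {v : E d} (hv : ‖v‖ ≤ R) :
    γ d ι {X | 2 * (Fintype.card ι : ℝ) * R < ∑ i, |inner ℝ (X i) v|} ≤
      ((1 / 2 : ℝ≥0∞)) ^ Fintype.card ι := by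
  classical
  set k := Fintype.card ι with hk
  set u : E d := R⁻¹ • v with hu
  have hun : ‖u‖ ≤ 1 := by
    rw [hu, norm_smul, norm_inv, Real.norm_of_nonneg hR.le]
    rw [inv_mul_le_iff₀ hR]
    linarith
  set g : E d → ℝ≥0∞ := fun x => ENNReal.ofReal (Real.exp |inner ℝ u x|) with hg
  have hgm : Measurable g := by fun_prop
  set F : (ι → E d) → ℝ≥0∞ := fun X => ∏ i, g (X i) with hF
  have hFm : Measurable F := by
    apply Finset.measurable_prod
    intro i _
    exact hgm.comp (measurable_pi_apply i)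
  have hint : ∫⁻ X, F X ∂(γ d ι) = ∏ i : ι, ∫⁻ x, g x ∂(stdGaussian (E d)) := by
    have hind := iIndepFun_pi (μ := fun _ : ι => stdGaussian (E d)) (X := fun _ => g)
      (fun _ => hgm.aemeasurable)
    have := lintegral_prod_eq_prod_lintegral_of_indepFun Finset.univ
      (fun (i : ι) (X : ι → E d) => g (X i)) hind (fun i => hgm.comp (measurable_pi_apply i))
    rw [hF, this]
    refine Finset.prod_congr rfl fun i _ => ?_
    exact (measurePreserving_eval (fun _ : ι => stdGaussian (E d)) i).lintegral_comp hgm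
  have hint2 : ∫⁻ X, F X ∂(γ d ι) ≤ ENNReal.ofReal ((2 * Real.exp (1 / 2)) ^ k) := by
    rw [hint, ENNReal.ofReal_pow (by positivity)]
    calc ∏ i : ι, ∫⁻ x, g x ∂(stdGaussian (E d))
        ≤ ∏ _i : ι, ENNReal.ofReal (2 * Real.exp (1 / 2)) :=
          Finset.prod_le_prod' fun i _ => lintegral_exp_abs_inner_le hun
      _ = _ := by simp [hk]
  set E₀ : ℝ := Real.exp 2 ^ k with hE₀
  have hE₀pos : 0 < E₀ := by positivity
  have hsub : {X : ι → E d | 2 * (k : ℝ) * R < ∑ i, |inner ℝ (X i) v|} ⊆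
      {X | ENNReal.ofReal E₀ ≤ F X} := by
    intro X hX
    have hX' : 2 * (k : ℝ) * R < ∑ i, |inner ℝ (X i) v| := hX
    have hFX : F X = ENNReal.ofReal (Real.exp (∑ i, |inner ℝ u (X i)|)) := by
      rw [hF, Real.exp_sum, ENNReal.ofReal_prod_of_nonneg (fun i _ => (Real.exp_pos _).le)]
    show ENNReal.ofReal E₀ ≤ F X
    rw [hFX]
    apply ENNReal.ofReal_le_ofReal
    rw [hE₀, ← Real.exp_nat_mul]
    apply Real.exp_le_exp.mpr
    have h1 : ∑ i, |inner ℝ u (X i)| = R⁻¹ * ∑ i, |inner ℝ (X i) v| := by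
      rw [Finset.mul_sum]
      refine Finset.sum_congr rfl fun i _ => ?_
      rw [hu, inner_smul_left, abs_mul, real_inner_comm]
      simp [abs_of_pos hR]
    rw [h1]
    have h2 : (k : ℝ) * 2 = R⁻¹ * (2 * (k : ℝ) * R) := by
      field_simp
    rw [h2]
    gcongr
  have hMarkov := mul_meas_ge_le_lintegral (μ := γ d ι) hFm (ENNReal.ofReal E₀)
  have hnum : 2 * Real.exp (1 / 2) ≤ Real.exp 2 * (1 / 2) := by
    have h1 : Real.exp 2 = Real.exp (1 / 2) * Real.exp (3 / 2) := by
      rw [← Real.exp_add]; norm_num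
    have h2 : (4 : ℝ) ≤ Real.exp (3 / 2) := by
      have h3 : Real.exp (3 / 2) = Real.exp 1 * Real.exp (1 / 2) := by
        rw [← Real.exp_add]; norm_num
      have h4 := Real.exp_one_gt_d9
      have h5 := Real.add_one_le_exp (1 / 2 : ℝ)
      rw [h3]
      nlinarith
    rw [h1]
    have := Real.exp_pos (1 / 2 : ℝ)
    nlinarith
  have hfin : γ d ι {X | 2 * (k : ℝ) * R < ∑ i, |inner ℝ (X i) v|} ≤ (1 / 2 : ℝ≥0∞) ^ k := by
    have h1 : ENNReal.ofReal E₀ * γ d ι {X | 2 * (k : ℝ) * R < ∑ i, |inner ℝ (X i) v|} ≤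
        ENNReal.ofReal E₀ * (1 / 2 : ℝ≥0∞) ^ k := by
      calc _ ≤ ENNReal.ofReal E₀ * γ d ι {X | ENNReal.ofReal E₀ ≤ F X} := by
            gcongr
        _ ≤ ∫⁻ X, F X ∂(γ d ι) := hMarkov
        _ ≤ ENNReal.ofReal ((2 * Real.exp (1 / 2)) ^ k) := hint2
        _ ≤ ENNReal.ofReal ((Real.exp 2 * (1 / 2)) ^ k) := by
            apply ENNReal.ofReal_le_ofReal
            gcongr
        _ = ENNReal.ofReal E₀ * (1 / 2 : ℝ≥0∞) ^ k := by
            have h2 : ((Real.exp 2 * (1 / 2)) ^ k) = E₀ * (1 / 2) ^ k := by rw [mul_pow]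
            rw [h2, ENNReal.ofReal_mul hE₀pos.le]
            congr 1
            rw [ENNReal.ofReal_pow (by norm_num)]
            congr 1
            rw [one_div, ENNReal.ofReal_inv_of_pos (by norm_num)]
            simp
    exact (ENNReal.mul_le_mul_iff_right (by simpa using hE₀pos) ENNReal.ofReal_ne_top).mp h1
  exact hfin

end

end Crest.Agent.S0499Lib
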