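/-
S0499 package E: the moment bound for the mass of a set in a random slab.
-/
import Crest.Agent.S0499Lib.Gaussian
import Crest.Agent.S0499Lib.SphereBasic

set_option autoImplicit false

namespace Crest.Agent.S0499Lib

open MeasureTheory ProbabilityTheory Crest.StreamLearn
open scoped ENNReal

noncomputable section

variable {d : ℕ} {ι : Type*} [Fintype ι]

namespace MomentAux

omit [Fintype ι] in
theorem measurable_cell_of {α : Type*} [MeasurableSpace α] (η : ℝ) {f g : α → E d}
    (hf : Measurable f) (hg : Measurable g) :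
    Measurable fun a => cell η (inner ℝ (f a) (g a)) :=
  ((hf.inner hg).div_const η).floor

/-- The joint event `dat X w = dat X w₀`. -/
theorem measurableSet_same_of {α : Type*} [MeasurableSpace α] (η : ℝ) {F : α → ι → E d}
    {g h : α → E d} (hF : ∀ i, Measurable fun a => F a i) (hg : Measurable g) (hh : Measurable h) :
    MeasurableSet {a : α | ∀ i, cell η (inner ℝ (F a i) (g a)) = cell η (inner ℝ (F a i) (h a))} := by
  have : {a : α | ∀ i, cell η (inner ℝ (F a i) (g a)) = cell η (inner ℝ (F a i) (h a))} =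
      ⋂ i : ι, {a | cell η (inner ℝ (F a i) (g a)) = cell η (inner ℝ (F a i) (h a))} := by
    ext x; simp
  rw [this]
  exact MeasurableSet.iInter fun i =>
    measurableSet_eq_fun (measurable_cell_of η (hF i) hg) (measurable_cell_of η (hF i) hh)

omit [Fintype ι] in
theorem dat_eq_iff (η : ℝ) (X : ι → E d) (w w' : Sphere d) :
    dat η X w = dat η X w' ↔ ∀ i, cell η (inner ℝ (X i) (w : E d)) = cell η (inner ℝ (X i) (w' : E d)) :=
  funext_iff

/-- The joint event `dat X w = dat X w₀`, jointly in `(X, w₀)` and `w`. -/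
theorem measurableSet_same (η : ℝ) :
    MeasurableSet {x : ((ι → E d) × Sphere d) × Sphere d | dat η x.1.1 x.2 = dat η x.1.1 x.1.2} := by
  simp only [dat_eq_iff]
  exact measurableSet_same_of (F := fun x : ((ι → E d) × Sphere d) × Sphere d => x.1.1)
    (g := fun x => (x.2 : E d)) (h := fun x => (x.1.2 : E d)) η
    (fun i => (measurable_pi_apply i).comp (measurable_fst.comp measurable_fst))
    (measurable_subtype_coe.comp measurable_snd)
    (measurable_subtype_coe.comp (measurable_snd.comp measurable_fst))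

/-- `(X, w₀) ↦ σ(A ∩ flat X (dat X w₀))` is measurable. -/
theorem measurable_slabMass (hd : 0 < d) (η : ℝ) {A : Set (Sphere d)} (hA : MeasurableSet A) :
    Measurable fun x : (ι → E d) × Sphere d => σ d (A ∩ flat η x.1 (dat η x.1 x.2)) := by
  have := isProb_σ hd
  have hs : MeasurableSet {x : ((ι → E d) × Sphere d) × Sphere d |
      x.2 ∈ A ∧ dat η x.1.1 x.2 = dat η x.1.1 x.1.2} :=
    (measurable_snd hA).inter (measurableSet_same η)
  exact measurable_measure_prodMk_left hs

/-- The event "all of `ws` are in the cell of `w₀`". -/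
theorem measurableSet_one (η : ℝ) (w₀ a : Sphere d) :
    MeasurableSet {X : ι → E d | dat η X a = dat η X w₀} := by
  simp only [dat_eq_iff]
  exact measurableSet_same_of (F := fun X : ι → E d => X)
    (g := fun _ => (a : E d)) (h := fun _ => (w₀ : E d)) η
    (fun i => measurable_pi_apply i) measurable_const measurable_const

/-- The event "all of `ws` are in the cell of `w₀`". -/
theorem measurableSet_allSame (η : ℝ) (w₀ : Sphere d) (ws : List (Sphere d)) :
    MeasurableSet {X : ι → E d | ∀ v ∈ ws, dat η X v = dat η X w₀} := by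
  induction ws with
  | nil => simp
  | cons a l ih =>
    have : {X : ι → E d | ∀ v ∈ a :: l, dat η X v = dat η X w₀} =
        {X | dat η X a = dat η X w₀} ∩ {X | ∀ v ∈ l, dat η X v = dat η X w₀} := by
      ext X; simp
    rw [this]
    exact (measurableSet_one η w₀ a).inter ih

/-- `X ↦ σ(A ∩ slab)` is measurable. -/
theorem measurable_slabMass_left (hd : 0 < d) (η : ℝ) {A : Set (Sphere d)} (hA : MeasurableSet A)
    (w₀ : Sphere d) : Measurable fun X : ι → E d => σ d (A ∩ flat η X (dat η X w₀)) := by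
  have := isProb_σ hd
  have hs : MeasurableSet {x : (ι → E d) × Sphere d |
      x.2 ∈ A ∧ dat η x.1 x.2 = dat η x.1 w₀} := by
    refine (measurable_snd hA).inter ?_
    simp only [dat_eq_iff]
    exact measurableSet_same_of (F := fun x : (ι → E d) × Sphere d => x.1)
      (g := fun x => (x.2 : E d)) (h := fun _ => (w₀ : E d)) η
      (fun i => (measurable_pi_apply i).comp measurable_fst)
      (measurable_subtype_coe.comp measurable_snd) measurable_const
  exact measurable_measure_prodMk_left hs

/-- The `j`-th moment with constraints. -/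
def G (ι : Type*) [Fintype ι] (η : ℝ) (A : Set (Sphere d)) (w₀ : Sphere d) (j : ℕ)
    (ws : List (Sphere d)) : ℝ≥0∞ :=
  ∫⁻ X, Set.indicator {X : ι → E d | ∀ v ∈ ws, dat η X v = dat η X w₀} 1 X *
    (σ d (A ∩ flat η X (dat η X w₀))) ^ j ∂(γ d ι)

theorem slabMass_eq (η : ℝ) {A : Set (Sphere d)} (hA : MeasurableSet A)
    (w₀ : Sphere d) (X : ι → E d) :
    σ d (A ∩ flat η X (dat η X w₀)) =
      ∫⁻ w in A, Set.indicator {X : ι → E d | dat η X w = dat η X w₀} 1 X ∂(σ d) := by
  have hm : MeasurableSet {w : Sphere d | dat η X w = dat η X w₀} := by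
    simp only [dat_eq_iff]
    exact measurableSet_same_of (F := fun _ : Sphere d => X)
      (g := fun x => (x : E d)) (h := fun _ => (w₀ : E d)) η
      (fun _ => measurable_const) measurable_subtype_coe measurable_const
  have h1 : (fun w : Sphere d =>
      Set.indicator {X : ι → E d | dat η X w = dat η X w₀} (1 : (ι → E d) → ℝ≥0∞) X)
      = Set.indicator {w : Sphere d | dat η X w = dat η X w₀} 1 := by
    funext w
    by_cases h : dat η X w = dat η X w₀ <;> simp [Set.indicator, h]
  rw [h1, lintegral_indicator_one hm, Measure.restrict_apply hm, Set.inter_comm]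
  rfl

/-- Recursion for the moments. -/
theorem G_succ (hd : 0 < d) (η : ℝ) {A : Set (Sphere d)} (hA : MeasurableSet A)
    (w₀ : Sphere d) (j : ℕ) (ws : List (Sphere d)) :
    G ι η A w₀ (j + 1) ws = ∫⁻ w in A, G ι η A w₀ j (w :: ws) ∂(σ d) := by
  have := isProb_σ hd
  have hprob : IsProbabilityMeasure (γ d ι) := by unfold γ; infer_instance
  unfold G
  have hpt : ∀ X : ι → E d,
      Set.indicator {X : ι → E d | ∀ v ∈ ws, dat η X v = dat η X w₀} 1 X *
        (σ d (A ∩ flat η X (dat η X w₀))) ^ (j + 1) =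
      ∫⁻ w in A, Set.indicator {X : ι → E d | ∀ v ∈ w :: ws, dat η X v = dat η X w₀} 1 X *
        (σ d (A ∩ flat η X (dat η X w₀))) ^ j ∂(σ d) := by
    intro X
    have hm : Measurable fun w : Sphere d =>
        Set.indicator {X : ι → E d | dat η X w = dat η X w₀} (1 : (ι → E d) → ℝ≥0∞) X := by
      have hm : MeasurableSet {w : Sphere d | dat η X w = dat η X w₀} := by
        simp only [dat_eq_iff]
        exact measurableSet_same_of (F := fun _ : Sphere d => X)
          (g := fun x => (x : E d)) (h := fun _ => (w₀ : E d)) η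
          (fun _ => measurable_const) measurable_subtype_coe measurable_const
      have h1 : (fun w : Sphere d =>
          Set.indicator {X : ι → E d | dat η X w = dat η X w₀} (1 : (ι → E d) → ℝ≥0∞) X)
          = Set.indicator {w : Sphere d | dat η X w = dat η X w₀} 1 := by
        funext w
        by_cases h : dat η X w = dat η X w₀ <;> simp [Set.indicator, h]
      rw [h1]
      exact measurable_one.indicator hm
    have h2 : ∀ w : Sphere d,
        Set.indicator {X : ι → E d | ∀ v ∈ w :: ws, dat η X v = dat η X w₀} 1 X *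
          (σ d (A ∩ flat η X (dat η X w₀))) ^ j =
        (Set.indicator {X : ι → E d | ∀ v ∈ ws, dat η X v = dat η X w₀} 1 X *
          (σ d (A ∩ flat η X (dat η X w₀))) ^ j) *
          Set.indicator {X : ι → E d | dat η X w = dat η X w₀} (1 : (ι → E d) → ℝ≥0∞) X := by
      intro w
      have h5 : (∀ v ∈ w :: ws, dat η X v = dat η X w₀) ↔
          (dat η X w = dat η X w₀ ∧ ∀ v ∈ ws, dat η X v = dat η X w₀) := List.forall_mem_cons
      by_cases h1 : dat η X w = dat η X w₀ <;> by_cases h3 : ∀ v ∈ ws, dat η X v = dat η X w₀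
      · have h6 := h5.2 ⟨h1, h3⟩
        rw [Set.indicator_of_mem (show X ∈ {X : ι → E d | ∀ v ∈ w :: ws, dat η X v = dat η X w₀} from h6),
          Set.indicator_of_mem (show X ∈ {X : ι → E d | ∀ v ∈ ws, dat η X v = dat η X w₀} from h3),
          Set.indicator_of_mem (show X ∈ {X : ι → E d | dat η X w = dat η X w₀} from h1)]
        simp
      · have h6 : ¬ _ := fun h => h3 (h5.1 h).2
        rw [Set.indicator_of_notMem (show X ∉ {X : ι → E d | ∀ v ∈ w :: ws, dat η X v = dat η X w₀} from h6),
          Set.indicator_of_notMem (show X ∉ {X : ι → E d | ∀ v ∈ ws, dat η X v = dat η X w₀} from h3)]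
        simp
      · have h6 : ¬ _ := fun h => h1 (h5.1 h).1
        rw [Set.indicator_of_notMem (show X ∉ {X : ι → E d | ∀ v ∈ w :: ws, dat η X v = dat η X w₀} from h6),
          Set.indicator_of_notMem (show X ∉ {X : ι → E d | dat η X w = dat η X w₀} from h1)]
        simp
      · have h6 : ¬ _ := fun h => h3 (h5.1 h).2
        rw [Set.indicator_of_notMem (show X ∉ {X : ι → E d | ∀ v ∈ w :: ws, dat η X v = dat η X w₀} from h6),
          Set.indicator_of_notMem (show X ∉ {X : ι → E d | ∀ v ∈ ws, dat η X v = dat η X w₀} from h3)]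
        simp
    simp only [h2]
    rw [lintegral_const_mul _ hm, ← slabMass_eq η hA w₀ X, pow_succ, mul_assoc]
  simp only [hpt]
  refine lintegral_lintegral_swap ?_
  refine Measurable.aemeasurable ?_
  have hS : MeasurableSet {x : (ι → E d) × Sphere d |
      ∀ v ∈ x.2 :: ws, dat η x.1 v = dat η x.1 w₀} := by
    have : {x : (ι → E d) × Sphere d | ∀ v ∈ x.2 :: ws, dat η x.1 v = dat η x.1 w₀} =
        {x | dat η x.1 x.2 = dat η x.1 w₀} ∩
          Prod.fst ⁻¹' {X | ∀ v ∈ ws, dat η X v = dat η X w₀} := by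
      ext x; simp
    rw [this]
    refine MeasurableSet.inter ?_ (measurable_fst (measurableSet_allSame η w₀ ws))
    simp only [dat_eq_iff]
    exact measurableSet_same_of (F := fun x : (ι → E d) × Sphere d => x.1)
      (g := fun x => (x.2 : E d)) (h := fun _ => (w₀ : E d)) η
      (fun i => (measurable_pi_apply i).comp measurable_fst)
      (measurable_subtype_coe.comp measurable_snd) measurable_const
  have h3 : (Function.uncurry fun (X : ι → E d) (w : Sphere d) =>
      Set.indicator {X : ι → E d | ∀ v ∈ w :: ws, dat η X v = dat η X w₀} 1 X *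
        (σ d (A ∩ flat η X (dat η X w₀))) ^ j) =
      fun x : (ι → E d) × Sphere d =>
        Set.indicator {x : (ι → E d) × Sphere d | ∀ v ∈ x.2 :: ws, dat η x.1 v = dat η x.1 w₀}
          (1 : (ι → E d) × Sphere d → ℝ≥0∞) x *
        (fun X : ι → E d => (σ d (A ∩ flat η X (dat η X w₀))) ^ j) x.1 := by
    funext x
    rcases x with ⟨X, w⟩
    simp [Function.uncurry, Set.indicator]
  rw [h3]
  exact (measurable_one.indicator hS).mul
    (((measurable_slabMass_left hd η hA w₀).pow_const j).comp measurable_fst)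

theorem measurable_dInv (k : ℕ) (a : E d) (V : Submodule ℝ (E d)) :
    Measurable (dInv k a V) := by
  unfold dInv
  refine Measurable.pow_const (Measurable.inv (ENNReal.measurable_ofReal.comp ?_)) k
  exact ((Metric.continuous_infDist_pt _).comp
    (continuous_subtype_val.sub continuous_const)).measurable

theorem finrank_span_list_le (l : List (E d)) :
    Module.finrank ℝ (Submodule.span ℝ {v | v ∈ l}) ≤ l.length := by
  classical
  have h : ({v | v ∈ l} : Set (E d)) = (l.toFinset : Set (E d)) := by ext v; simp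
  rw [h]
  exact (finrank_span_finset_le_card l.toFinset).trans (List.toFinset_card_le l)

/-- Main induction. -/
theorem G_le {η : ℝ} (hη : 0 < η) (hd : 0 < d) {A : Set (Sphere d)} (hA : MeasurableSet A)
    (m : ℕ) (I : ℝ≥0∞)
    (hI : ∀ (a : E d) (V : Submodule ℝ (E d)), Module.finrank ℝ V ≤ m - 1 →
      ∫⁻ w in A, dInv (Fintype.card ι) a V w ∂(σ d) ≤ I) (w₀ : Sphere d) (j : ℕ) :
    ∀ ws : List (Sphere d), ws.length + j ≤ m →
    G ι η A w₀ j ws ≤ (pd η (ws.map fun v : Sphere d => (v : E d) - (w₀ : E d))) ^ Fintype.card ι *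
      (ENNReal.ofReal (η ^ Fintype.card ι) * I) ^ j := by
  induction j with
  | zero =>
    intro ws _
    simp only [pow_zero, mul_one]
    have h0 : G ι η A w₀ 0 ws =
        γ d ι {X : ι → E d | ∀ v ∈ ws, dat η X v = dat η X w₀} := by
      unfold G
      simp only [pow_zero, mul_one]
      exact lintegral_indicator_one (measurableSet_allSame η w₀ ws)
    rw [h0]
    have h1 := rows_same_cell (ι := ι) hη (w₀ : E d) (ws.map fun v : Sphere d => (v : E d))
    have h2 : ((ws.map fun v : Sphere d => (v : E d)).map (· - (w₀ : E d))) =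
        ws.map fun v : Sphere d => (v : E d) - (w₀ : E d) := by
      simp [List.map_map, Function.comp_def]
    rw [h2] at h1
    refine le_trans (measure_mono ?_) h1
    intro X hX i v hv
    simp only [List.mem_map] at hv
    obtain ⟨u, hu, rfl⟩ := hv
    exact congrFun (hX u hu) i
  | succ j ih =>
    intro ws hws
    rw [G_succ hd η hA]
    set k := Fintype.card ι
    set l : List (E d) := ws.map fun v : Sphere d => (v : E d) - (w₀ : E d) with hl
    set V : Submodule ℝ (E d) := Submodule.span ℝ {v | v ∈ l} with hV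
    set Q := (ENNReal.ofReal (η ^ k) * I) with hQ
    have h1 : ∀ w : Sphere d, G ι η A w₀ j (w :: ws) ≤
        (ENNReal.ofReal (η ^ k) * pd η l ^ k * Q ^ j) * dInv k (w₀ : E d) V w := by
      intro w
      refine (ih (w :: ws) (by simp only [List.length_cons]; omega)).trans (le_of_eq ?_)
      simp only [List.map_cons, pd, dInv, ENNReal.ofReal_pow hη.le]
      rw [mul_pow, mul_pow]
      ring
    calc ∫⁻ w in A, G ι η A w₀ j (w :: ws) ∂(σ d)
        ≤ ∫⁻ w in A, (ENNReal.ofReal (η ^ k) * pd η l ^ k * Q ^ j) * dInv k (w₀ : E d) V w ∂(σ d) :=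
          lintegral_mono h1
      _ = (ENNReal.ofReal (η ^ k) * pd η l ^ k * Q ^ j) * ∫⁻ w in A, dInv k (w₀ : E d) V w ∂(σ d) :=
          lintegral_const_mul _ (measurable_dInv k _ V)
      _ ≤ (ENNReal.ofReal (η ^ k) * pd η l ^ k * Q ^ j) * I := by
          gcongr
          refine hI _ V ((finrank_span_list_le l).trans ?_)
          simp only [hl, List.length_map]
          omega
      _ = pd η l ^ k * Q ^ (j + 1) := by
          rw [hQ]; ring

end MomentAux

/-- **Moment lemma.** -/
theorem moment_bound {η : ℝ} (hη : 0 < η) (hd : 0 < d) {A : Set (Sphere d)} (hA : MeasurableSet A)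
    (m : ℕ) (I : ℝ≥0∞)
    (hI : ∀ (a : E d) (V : Submodule ℝ (E d)), Module.finrank ℝ V ≤ m - 1 →
      ∫⁻ w in A, dInv (Fintype.card ι) a V w ∂(σ d) ≤ I) :
    ∫⁻ X, ∫⁻ w₀ in A, (σ d (A ∩ flat η X (dat η X w₀))) ^ m ∂(σ d) ∂(γ d ι) ≤
      σ d A * (ENNReal.ofReal (η ^ Fintype.card ι) * I) ^ m := by
  have := MomentAux.measurable_slabMass (ι := ι) hd η hA
  have hσ := isProb_σ hd
  have hprob : IsProbabilityMeasure (γ d ι) := by unfold γ; infer_instance
  set Q := (ENNReal.ofReal (η ^ Fintype.card ι) * I) with hQ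
  have h1 : ∫⁻ X, ∫⁻ w₀ in A, (σ d (A ∩ flat η X (dat η X w₀))) ^ m ∂(σ d) ∂(γ d ι) =
      ∫⁻ w₀ in A, ∫⁻ X, (σ d (A ∩ flat η X (dat η X w₀))) ^ m ∂(γ d ι) ∂(σ d) := by
    refine lintegral_lintegral_swap ?_
    exact Measurable.aemeasurable (this.pow_const m)
  rw [h1]
  have h2 : ∀ w₀ : Sphere d, ∫⁻ X, (σ d (A ∩ flat η X (dat η X w₀))) ^ m ∂(γ d ι) ≤ Q ^ m := by
    intro w₀
    have h3 := MomentAux.G_le (ι := ι) hη hd hA m I hI w₀ m [] (by simp)
    simpa [MomentAux.G, pd] using h3
  calc ∫⁻ w₀ in A, ∫⁻ X, (σ d (A ∩ flat η X (dat η X w₀))) ^ m ∂(γ d ι) ∂(σ d)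
      ≤ ∫⁻ _ in A, Q ^ m ∂(σ d) := lintegral_mono h2
    _ = σ d A * Q ^ m := by
      rw [lintegral_const, Measure.restrict_apply_univ, mul_comm]

end

end Crest.Agent.S0499Lib
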