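/-
S0499 package D: the integral of the inverse distance to an affine subspace over a set with a
profile ("shell lemma").
-/
import Crest.Agent.S0499Lib.SphereBasic

set_option autoImplicit false

namespace Crest.Agent.S0499Lib

open MeasureTheory ProbabilityTheory Crest.StreamLearn
open scoped ENNReal

noncomputable section

variable {d : ℕ}

/-- Greedy: if every `r`-separated finite subset of `A` has at most `N` points then `A` has an
`r`-net with at most `N` points in `A`. -/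
theorem exists_net_of_card_bound {X : Type*} [PseudoMetricSpace X] (A : Set X) {r : ℝ} (hr : 0 < r)
    (N : ℕ)
    (h : ∀ Z : Finset X, (↑Z : Set X) ⊆ A →
      (∀ z ∈ Z, ∀ z' ∈ Z, z ≠ z' → r ≤ dist z z') → Z.card ≤ N) :
    ∃ Z : Finset X, (↑Z : Set X) ⊆ A ∧ Z.card ≤ N ∧ ∀ x ∈ A, ∃ z ∈ Z, dist x z < r := by
  classical
  let P : ℕ → Prop := fun n => ∃ Z : Finset X, (↑Z : Set X) ⊆ A ∧
    (∀ z ∈ Z, ∀ z' ∈ Z, z ≠ z' → r ≤ dist z z') ∧ Z.card = n
  have hP0 : P 0 := ⟨∅, by simp, by simp, rfl⟩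
  have hfind : P (Nat.findGreatest P N) := Nat.findGreatest_spec (Nat.zero_le N) hP0
  obtain ⟨Z, hZA, hZsep, hZcard⟩ := hfind
  refine ⟨Z, hZA, h Z hZA hZsep, ?_⟩
  intro x hx
  by_contra hcon
  push Not at hcon
  have hxZ : x ∉ Z := by
    intro hxZ
    have := hcon x hxZ
    simp only [dist_self] at this
    linarith
  have hP : P (Z.card + 1) := by
    refine ⟨insert x Z, ?_, ?_, Finset.card_insert_of_notMem hxZ⟩
    · intro y hy
      rcases Finset.mem_insert.mp (by simpa using hy) with rfl | hy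
      · exact hx
      · exact hZA hy
    · intro y hy y' hy' hne
      rcases Finset.mem_insert.mp hy with h1 | h1 <;> rcases Finset.mem_insert.mp hy' with h2 | h2
      · exact absurd (h1.trans h2.symm) hne
      · rw [h1]; exact hcon _ h2
      · rw [h2, dist_comm]; exact hcon _ h1
      · exact hZsep _ h1 _ h2 hne
  have hle : Z.card + 1 ≤ N := by
    obtain ⟨Z', h1, h2, h3⟩ := hP
    rw [← h3]; exact h Z' h1 h2
  have := Nat.le_findGreatest hle hP
  omega

/-- Packing in a subspace `V` of dimension `≤ j`: an `r`-separated subset of `V ∩ B(c, ρ)`, `c ∈ V`,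
has at most `(1 + 2 ρ / r)^j` points.  (Disjoint balls of radius `r/2` in `V`, Haar measure of `V`.) -/
theorem packing_subspace {V : Submodule ℝ (E d)} {j : ℕ} (hV : Module.finrank ℝ V ≤ j) {c : E d}
    (hc : c ∈ V) {r ρ : ℝ} (hr : 0 < r) (hρ : 0 ≤ ρ) (Y : Finset (E d)) (hYV : ∀ y ∈ Y, y ∈ V)
    (hYb : ∀ y ∈ Y, ‖y - c‖ < ρ) (hsep : ∀ y ∈ Y, ∀ y' ∈ Y, y ≠ y' → r ≤ ‖y - y'‖) :
    (Y.card : ℝ) ≤ (1 + 2 * ρ / r) ^ j := by
  classical
  let μ : Measure V := Measure.addHaar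
  let f : E d → V := fun y => if h : y - c ∈ V then ⟨y - c, h⟩ else 0
  have hf : ∀ y ∈ Y, ((f y : V) : E d) = y - c := by
    intro y hy
    have h : y - c ∈ V := V.sub_mem (hYV y hy) hc
    simp [f, h]
  set n := Module.finrank ℝ V with hn
  have hr2 : 0 < r / 2 := by positivity
  have hρ2 : 0 < ρ + r / 2 := by positivity
  have hball : ∀ (x : V) (s : ℝ), 0 < s →
      μ (Metric.ball x s) = ENNReal.ofReal (s ^ n) * μ (Metric.ball 0 1) := fun x s hs =>
    Measure.addHaar_ball_of_pos μ x hs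
  have hdisj : (↑Y : Set (E d)).PairwiseDisjoint (fun y => Metric.ball (f y) (r / 2)) := by
    intro y hy y' hy' hne
    refine Metric.ball_disjoint_ball ?_
    have h1 : dist (f y) (f y') = ‖y - y'‖ := by
      rw [dist_eq_norm, Submodule.coe_norm, Submodule.coe_sub, hf y hy, hf y' hy']
      congr 1; abel
    rw [h1]
    have := hsep y hy y' hy' hne
    linarith
  have hsub : (⋃ y ∈ Y, Metric.ball (f y) (r / 2)) ⊆ Metric.ball (0 : V) (ρ + r / 2) := by
    intro x hx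
    simp only [Set.mem_iUnion, exists_prop] at hx
    obtain ⟨y, hy, hxy⟩ := hx
    rw [Metric.mem_ball] at hxy ⊢
    have h1 : ‖(f y : V)‖ < ρ := by
      rw [Submodule.coe_norm, hf y hy]; exact hYb y hy
    have h2 : dist x 0 ≤ dist x (f y) + dist (f y) 0 := dist_triangle _ _ _
    rw [dist_zero_right (f y)] at h2
    linarith
  have hmeas := measure_biUnion_finset (μ := μ) (s := Y)
    (f := fun y => Metric.ball (f y) (r / 2)) hdisj (fun y _ => Metric.isOpen_ball.measurableSet)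
  have hle : ∑ y ∈ Y, μ (Metric.ball (f y) (r / 2)) ≤ μ (Metric.ball (0 : V) (ρ + r / 2)) := by
    rw [← hmeas]; exact measure_mono hsub
  have hB0 : μ (Metric.ball (0 : V) 1) ≠ 0 := (Metric.measure_ball_pos μ 0 one_pos).ne'
  have hB1 : μ (Metric.ball (0 : V) 1) ≠ ∞ := measure_ball_lt_top.ne
  rw [Finset.sum_congr rfl (fun y _ => hball (f y) (r / 2) hr2), hball 0 _ hρ2,
    Finset.sum_const, nsmul_eq_mul, ← mul_assoc] at hle
  have hle2 := (ENNReal.mul_le_mul_iff_left hB0 hB1).mp hle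
  have hle3 : (Y.card : ℝ) * (r / 2) ^ n ≤ (ρ + r / 2) ^ n := by
    rw [← ENNReal.ofReal_natCast, ← ENNReal.ofReal_mul (by positivity)] at hle2
    exact (ENNReal.ofReal_le_ofReal_iff (by positivity)).mp hle2
  have hbase : 1 ≤ 1 + 2 * ρ / r := by
    have : 0 ≤ 2 * ρ / r := by positivity
    linarith
  have hkey : (1 + 2 * ρ / r) ^ n * (r / 2) ^ n = (ρ + r / 2) ^ n := by
    rw [← mul_pow]; congr 1; field_simp; ring
  have hcard : (Y.card : ℝ) ≤ (1 + 2 * ρ / r) ^ n := by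
    have hpos : 0 < (r / 2) ^ n := by positivity
    rw [← hkey] at hle3
    exact le_of_mul_le_mul_right hle3 hpos
  exact hcard.trans (pow_le_pow_right₀ hbase hV)

/-- Covering of the `r`-tube around `a + V` inside `B(z₀, 2R)`, by `(5 + 8 R / r)^j` balls of
radius `2 r`.  (Take a maximal `r`-separated subset of `{a + v : ‖a + v - z₀‖ < 2R + r}`.) -/
theorem exists_tube_cover {V : Submodule ℝ (E d)} {j : ℕ} (hV : Module.finrank ℝ V ≤ j) (a z₀ : E d)
    {R r : ℝ} (hR : 0 < R) (hr : 0 < r) :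
    ∃ Z : Finset (E d), (Z.card : ℝ) ≤ (5 + 8 * R / r) ^ j ∧
      ∀ w : E d, Metric.infDist (w - a) (V : Set (E d)) < r → ‖w - z₀‖ < 2 * R →
        ∃ z ∈ Z, ‖w - z‖ < 2 * r := by
  classical
  set A : Set (E d) := {y | y - a ∈ V ∧ ‖y - z₀‖ < 2 * R + r} with hA
  have hbase : (0 : ℝ) ≤ (5 + 8 * R / r) ^ j := by positivity
  have hcard : ∀ Y : Finset (E d), (↑Y : Set (E d)) ⊆ A →
      (∀ z ∈ Y, ∀ z' ∈ Y, z ≠ z' → r ≤ dist z z') → (Y.card : ℝ) ≤ (5 + 8 * R / r) ^ j := by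
    intro Y hYA hYsep
    rcases Y.eq_empty_or_nonempty with rfl | ⟨y₀, hy₀⟩
    · simpa using hbase
    · have hinj : Set.InjOn (fun y : E d => y - a) (↑Y : Set (E d)) := by
        intro y _ y' _ h
        simpa using h
      have := packing_subspace hV (c := y₀ - a) (hYA hy₀).1 hr (ρ := 2 * (2 * R + r)) (by positivity)
        (Y.image (fun y => y - a))
        (by
          intro y hy
          obtain ⟨y', hy', rfl⟩ := Finset.mem_image.mp hy
          exact (hYA hy').1)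
        (by
          intro y hy
          obtain ⟨y', hy', rfl⟩ := Finset.mem_image.mp hy
          have h1 : ‖y' - z₀‖ < 2 * R + r := (hYA hy').2
          have h2 : ‖y₀ - z₀‖ < 2 * R + r := (hYA hy₀).2
          have h3 : y' - a - (y₀ - a) = (y' - z₀) - (y₀ - z₀) := by abel
          rw [h3]
          calc _ ≤ ‖y' - z₀‖ + ‖y₀ - z₀‖ := norm_sub_le _ _
            _ < _ := by linarith)
        (by
          intro y hy y' hy' hne
          obtain ⟨u, hu, rfl⟩ := Finset.mem_image.mp hy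
          obtain ⟨u', hu', rfl⟩ := Finset.mem_image.mp hy'
          have hne' : u ≠ u' := fun h => hne (by rw [h])
          have := hYsep u hu u' hu' hne'
          rw [dist_eq_norm] at this
          have h3 : u - a - (u' - a) = u - u' := by abel
          rw [h3]; exact this)
      rw [Finset.card_image_of_injOn hinj] at this
      have h4 : 1 + 2 * (2 * (2 * R + r)) / r = 5 + 8 * R / r := by field_simp; ring
      rwa [h4] at this
  obtain ⟨Z, hZA, hZcard, hZnet⟩ := exists_net_of_card_bound A hr ⌊(5 + 8 * R / r) ^ j⌋₊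
    (fun Y h1 h2 => Nat.le_floor (hcard Y h1 h2))
  refine ⟨Z, (Nat.le_floor_iff hbase).mp hZcard, ?_⟩
  intro w hw1 hw2
  obtain ⟨v, hv, hvw⟩ := (Metric.infDist_lt_iff ⟨0, V.zero_mem⟩).mp hw1
  have hv' : v ∈ V := hv
  rw [dist_eq_norm] at hvw
  have hyA : a + v ∈ A := by
    refine ⟨by simpa using hv', ?_⟩
    have h3 : a + v - z₀ = -(w - a - v) + (w - z₀) := by abel
    rw [h3]
    calc _ ≤ ‖-(w - a - v)‖ + ‖w - z₀‖ := norm_add_le _ _
      _ < _ := by rw [norm_neg]; linarith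
  obtain ⟨z, hz, hdist⟩ := hZnet _ hyA
  refine ⟨z, hz, ?_⟩
  rw [dist_eq_norm] at hdist
  have h3 : w - z = (w - a - v) + (a + v - z) := by abel
  rw [h3]
  calc _ ≤ ‖w - a - v‖ + ‖a + v - z‖ := norm_add_le _ _
    _ < _ := by linarith

/-- The profile at any scale: a clean form of `Profile.bound` valid also for large radii. For
`p ≤ 3`, `s : ℕ`, and `r = 2^(p+4-s)` (the radius of the balls in the shell `s`). -/
theorem Profile.bound_shell {b : ℕ} {q' : ℤ} {Λ' : ℝ} (hΛ : 0 ≤ Λ') {U : Set (Sphere d)} (hd : 0 < d)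
    (hU : Profile b q' Λ' U) (z : E d) {p : ℤ} (hp : p ≤ 3) (s : ℕ) :
    (σ d).real (U ∩ sBall z ((2 : ℝ) ^ (p + 4 - (s : ℤ)))) ≤
      Λ' * ((2 : ℝ) ^ ((q' - p + s) * (b : ℤ))) * cap d (12 * (2 : ℝ) ^ (p + 4 - (s : ℤ))) := by
  have := isProb_σ hd
  have hbmono : ∀ u v : ℤ, u ≤ v → (2 : ℝ) ^ (u * (b : ℤ)) ≤ (2 : ℝ) ^ (v * (b : ℤ)) := by
    intro u v huv
    apply zpow_le_zpow_right₀ (by norm_num)
    exact mul_le_mul_of_nonneg_right huv (by positivity)
  by_cases hs : p + 4 - (s : ℤ) ≤ 2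
  · have h1 := hU.bound z (p + 4 - (s : ℤ)) hs
    refine h1.trans ?_
    have hcap := cap_nonneg d (12 * (2 : ℝ) ^ (p + 4 - (s : ℤ)))
    refine mul_le_mul_of_nonneg_right (mul_le_mul_of_nonneg_left ?_ hΛ) hcap
    refine (min_le_right _ _).trans (hbmono _ _ ?_)
    have : (0 : ℤ) ≤ s := by positivity
    omega
  · push Not at hs
    have h0 : U ⊆ sBall (0 : E d) ((2 : ℝ) ^ (2 : ℤ)) := by
      intro w _
      show ‖(w : E d) - 0‖ < _
      rw [sub_zero]
      have : ‖(w : E d)‖ = 1 := by simp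
      rw [this]; norm_num
    have h1 := hU.bound 0 2 le_rfl
    have h2 : U ∩ sBall z ((2 : ℝ) ^ (p + 4 - (s : ℤ))) ⊆ U ∩ sBall (0 : E d) ((2 : ℝ) ^ (2 : ℤ)) :=
      fun w hw => ⟨hw.1, h0 hw.1⟩
    have h3 := (measureReal_mono h2).trans h1
    refine h3.trans ?_
    have hcap1 : cap d (12 * (2 : ℝ) ^ (2 : ℤ)) = 1 := cap_eq_one hd (by norm_num)
    have hcap2 : cap d (12 * (2 : ℝ) ^ (p + 4 - (s : ℤ))) = 1 := by
      apply cap_eq_one hd
      have : (2 : ℝ) ^ (2 : ℤ) ≤ (2 : ℝ) ^ (p + 4 - (s : ℤ)) :=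
        zpow_le_zpow_right₀ (by norm_num) (by omega)
      norm_num at this ⊢
      linarith
    rw [hcap1, hcap2, mul_one, mul_one]
    refine mul_le_mul_of_nonneg_left ?_ hΛ
    refine (min_le_right _ _).trans (hbmono _ _ ?_)
    have : (0 : ℤ) ≤ s := by positivity
    omega

/-- Pointwise dyadic bound for the inverse power. -/
theorem inv_pow_le_tsum {k : ℕ} {A δ : ℝ} (hA : 0 < A) (hδ : 0 ≤ δ) :
    (ENNReal.ofReal δ)⁻¹ ^ k ≤ ENNReal.ofReal ((A⁻¹) ^ k) +
      ∑' s : ℕ, Set.indicator {x : ℝ | x < A * (1 / 2) ^ s}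
        (fun _ => ENNReal.ofReal (((A * (1 / 2) ^ (s + 1))⁻¹) ^ k)) δ := by
  rcases hδ.eq_or_lt with h0 | hpos
  · subst h0
    have h1 : ∀ s : ℕ, ENNReal.ofReal ((A⁻¹) ^ k) ≤ Set.indicator {x : ℝ | x < A * (1 / 2) ^ s}
        (fun _ => ENNReal.ofReal (((A * (1 / 2) ^ (s + 1))⁻¹) ^ k)) (0 : ℝ) := by
      intro s
      have hmem : (0 : ℝ) ∈ {x : ℝ | x < A * (1 / 2) ^ s} := by
        show (0 : ℝ) < A * (1 / 2) ^ s
        positivity
      rw [Set.indicator_of_mem hmem]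
      apply ENNReal.ofReal_le_ofReal
      apply pow_le_pow_left₀ (by positivity)
      apply inv_anti₀ (by positivity)
      have : ((1 : ℝ) / 2) ^ (s + 1) ≤ 1 := pow_le_one₀ (by norm_num) (by norm_num)
      nlinarith
    have h2 : ENNReal.ofReal ((A⁻¹) ^ k) ≠ 0 := by
      simp only [ne_eq, ENNReal.ofReal_eq_zero, not_le]
      positivity
    have h3 : ∑' s : ℕ, Set.indicator {x : ℝ | x < A * (1 / 2) ^ s}
        (fun _ => ENNReal.ofReal (((A * (1 / 2) ^ (s + 1))⁻¹) ^ k)) (0 : ℝ) = ∞ := by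
      apply top_unique
      rw [← ENNReal.tsum_const_eq_top_of_ne_zero (α := ℕ) h2]
      exact ENNReal.tsum_le_tsum h1
    rw [h3]
    simp
  · by_cases hAδ : A ≤ δ
    · refine le_trans ?_ le_self_add
      rw [← ENNReal.ofReal_inv_of_pos hpos, ← ENNReal.ofReal_pow (by positivity)]
      exact ENNReal.ofReal_le_ofReal (pow_le_pow_left₀ (by positivity) (inv_anti₀ hA hAδ) k)
    · push Not at hAδ
      have hex : ∃ s : ℕ, A * (1 / 2) ^ (s + 1) ≤ δ := by
        obtain ⟨n, hn⟩ := exists_pow_lt_of_lt_one (div_pos hpos hA) (by norm_num : (1 / 2 : ℝ) < 1)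
        refine ⟨n, ?_⟩
        rw [lt_div_iff₀ hA] at hn
        have : ((1 : ℝ) / 2) ^ (n + 1) ≤ (1 / 2) ^ n :=
          pow_le_pow_of_le_one (by norm_num) (by norm_num) (by omega)
        nlinarith
      classical
      set s := Nat.find hex with hs
      have hs1 : A * (1 / 2) ^ (s + 1) ≤ δ := Nat.find_spec hex
      have hs2 : δ < A * (1 / 2) ^ s := by
        rcases Nat.eq_zero_or_pos s with h | h
        · rw [h]; simpa using hAδ
        · have := Nat.find_min hex (m := s - 1) (by omega)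
          push Not at this
          rwa [Nat.sub_add_cancel h] at this
      refine le_trans ?_ le_add_self
      refine le_trans ?_ (ENNReal.le_tsum s)
      rw [Set.indicator_of_mem (show δ ∈ {x : ℝ | x < A * (1 / 2) ^ s} from hs2),
        ← ENNReal.ofReal_inv_of_pos hpos, ← ENNReal.ofReal_pow (by positivity)]
      apply ENNReal.ofReal_le_ofReal
      exact pow_le_pow_left₀ (by positivity) (inv_anti₀ (by positivity) hs1) k

/-- `cap` at the scale of the shell `s`, relative to the cap of radius `2^p / 2`. -/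
theorem cap_shell_le (hd : 2 ≤ d) {p : ℤ} (hp : p ≤ 3) (s : ℕ) :
    cap d (12 * (2 : ℝ) ^ (p + 4 - (s : ℤ))) ≤
      8 * (3072 * (1 / 2) ^ s) ^ (d - 1) * cap d ((2 : ℝ) ^ p / 2) := by
  have h2p : (0 : ℝ) < (2 : ℝ) ^ p := by positivity
  have hy4 : (2 : ℝ) ^ p / 2 ≤ 4 := by
    have : (2 : ℝ) ^ p ≤ (2 : ℝ) ^ (3 : ℤ) := zpow_le_zpow_right₀ (by norm_num) hp
    norm_num at this ⊢
    linarith
  have h := cap_le_pow hd (x := 12 * (2 : ℝ) ^ (p + 4 - (s : ℤ))) (y := (2 : ℝ) ^ p / 2)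
    (by positivity) (by positivity) hy4
  have h1 : (2 : ℝ) ^ (p + 4 - (s : ℤ)) = (2 : ℝ) ^ p * 16 * (1 / 2) ^ s := by
    rw [zpow_sub₀ (by norm_num), zpow_add₀ (by norm_num), zpow_natCast]
    have : (2 : ℝ) ^ (4 : ℤ) = 16 := by norm_num
    rw [this, one_div, inv_pow]
    rfl
  have h2 : 8 * (12 * (2 : ℝ) ^ (p + 4 - (s : ℤ))) / ((2 : ℝ) ^ p / 2) = 3072 * (1 / 2) ^ s := by
    rw [h1]; field_simp; ring
  rwa [h2] at h

theorem shell_num1 {b : ℕ} (hbd : b + 3 ≤ d) :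
    (8 : ℝ) ^ b * 8 * (3072 * (1 / 2) ^ 3) ^ (d - 1) * 2 ≤ 2 ^ (15 * d) := by
  have h1 : (8 : ℝ) ^ b * 16 ≤ 2 ^ (3 * d) := by
    have : (8 : ℝ) ^ b * 16 = 2 ^ (3 * b + 4) := by
      rw [pow_add, pow_mul]; norm_num
    rw [this]
    exact pow_le_pow_right₀ (by norm_num) (by omega)
  have h2 : ((3072 : ℝ) * (1 / 2) ^ 3) ^ (d - 1) ≤ 2 ^ (12 * d) := by
    calc ((3072 : ℝ) * (1 / 2) ^ 3) ^ (d - 1) ≤ (2 ^ 12) ^ (d - 1) :=
          pow_le_pow_left₀ (by positivity) (by norm_num) _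
      _ = 2 ^ (12 * (d - 1)) := by rw [pow_mul]
      _ ≤ _ := pow_le_pow_right₀ (by norm_num) (by omega)
  calc (8 : ℝ) ^ b * 8 * (3072 * (1 / 2) ^ 3) ^ (d - 1) * 2
      = ((8 : ℝ) ^ b * 16) * (3072 * (1 / 2) ^ 3) ^ (d - 1) := by ring
    _ ≤ 2 ^ (3 * d) * 2 ^ (12 * d) := by gcongr
    _ = 2 ^ (15 * d) := by rw [← pow_add]; congr 1; ring

theorem shell_num2 {k j : ℕ} (hjd : j + 3 ≤ d) :
    (1 / 4 : ℝ) ^ k * 6 ^ j * 8 * 3072 ^ (d - 1) * 4 ≤ 2 ^ (15 * d) := by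
  have h0 : (1 / 4 : ℝ) ^ k ≤ 1 := pow_le_one₀ (by norm_num) (by norm_num)
  have h1 : (6 : ℝ) ^ j * 32 ≤ 2 ^ (3 * d) := by
    have h6 : (6 : ℝ) ^ j ≤ 8 ^ j := pow_le_pow_left₀ (by norm_num) (by norm_num) _
    have : (8 : ℝ) ^ j * 32 = 2 ^ (3 * j + 5) := by
      rw [pow_add, pow_mul]; norm_num
    calc (6 : ℝ) ^ j * 32 ≤ 8 ^ j * 32 := by gcongr
      _ = 2 ^ (3 * j + 5) := this
      _ ≤ _ := pow_le_pow_right₀ (by norm_num) (by omega)
  have h2 : ((3072 : ℝ)) ^ (d - 1) ≤ 2 ^ (12 * d) := by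
    calc (3072 : ℝ) ^ (d - 1) ≤ (2 ^ 12) ^ (d - 1) :=
          pow_le_pow_left₀ (by positivity) (by norm_num) _
      _ = 2 ^ (12 * (d - 1)) := by rw [pow_mul]
      _ ≤ _ := pow_le_pow_right₀ (by norm_num) (by omega)
  calc (1 / 4 : ℝ) ^ k * 6 ^ j * 8 * 3072 ^ (d - 1) * 4
      = (1 / 4 : ℝ) ^ k * (((6 : ℝ) ^ j * 32) * 3072 ^ (d - 1)) := by ring
    _ ≤ 1 * (2 ^ (3 * d) * 2 ^ (12 * d)) := by gcongr
    _ = 2 ^ (15 * d) := by rw [one_mul, ← pow_add]; congr 1; ring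

/-- The power bookkeeping in the shell `s`. -/
theorem shell_powers {k j b : ℕ} (hkjb : k + j + b + 2 ≤ d) {t u : ℝ} (ht : 1 ≤ t) (hu0 : 0 ≤ u)
    (hu : t * u = 1) :
    t ^ k * t ^ j * t ^ b * u ^ (d - 1) ≤ u := by
  obtain ⟨e, he⟩ : ∃ e, d - 1 = (k + j + b) + 1 + e := ⟨d - 1 - (k + j + b + 1), by omega⟩
  have hu1 : u ≤ 1 := by nlinarith
  rw [he]
  calc t ^ k * t ^ j * t ^ b * u ^ ((k + j + b) + 1 + e)
      = (t * u) ^ (k + j + b) * u * u ^ e := by
        rw [mul_pow]; ring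
    _ = u * u ^ e := by rw [hu]; simp
    _ ≤ u * 1 := by
        gcongr
        exact pow_le_one₀ hu0 hu1
    _ = u := mul_one _

/-- **Shell lemma.**  With `R = 2^p`: the integral of `dist(w, a + V)^{-k}` over `U ∩ B(z₀, 2R)` is at
most `R^{-k} Λ' 2^{(q'-p) b} 2^{15 d} cap(R/2)`.

Proof: with `r_s = 8 R 2^{-s}` we have pointwise
`dInv k a V w ≤ (8R)^{-k} + ∑_s r_{s+1}^{-k} 1[dist(w, a+V) < r_s]` (when `dist = 0` the sum is `∞`, as
`k ≥ 1`).  By `exists_tube_cover` with `r = r_s` (`(5 + 8R/r_s)^j ≤ (6 * 2^s)^j` balls of radius `2 r_s`)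
and `Profile.bound_shell`,
`σ(U ∩ {dist < r_s} ∩ B(z₀, 2R)) ≤ (6 * 2^s)^j Λ' 2^{(q'-p+s) b} cap(24 r_s)`, and by `cap_le_pow`,
`cap(24 r_s) = cap(192 R 2^{-s}) ≤ 8 (3072 * 2^{-s})^{d-1} cap(R/2)`.  The powers of `2^s` multiply to
`2^{s (k + j + b - d + 1)} ≤ 2^{-s}`. -/
theorem shell_bound {b k j : ℕ} (hk : 1 ≤ k) (hkjb : k + j + b + 2 ≤ d) {p q' : ℤ} (hp : p ≤ 3)
    {Λ' : ℝ} (hΛ : 0 ≤ Λ') {U : Set (Sphere d)} (hU : Profile b q' Λ' U) (z₀ a : E d)
    (V : Submodule ℝ (E d)) (hV : Module.finrank ℝ V ≤ j) :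
    ∫⁻ w in U ∩ sBall z₀ (2 * (2 : ℝ) ^ p), dInv k a V w ∂(σ d) ≤
      ENNReal.ofReal (((2 : ℝ) ^ p)⁻¹ ^ k * Λ' * (2 : ℝ) ^ ((q' - p) * (b : ℤ)) * 2 ^ (15 * d) *
        cap d ((2 : ℝ) ^ p / 2)) := by
  have hd : 2 ≤ d := by omega
  have hd0 : 0 < d := by omega
  have := isProb_σ hd0
  set R : ℝ := (2 : ℝ) ^ p with hR
  have hRpos : 0 < R := by positivity
  set A : ℝ := 8 * R with hA
  have hApos : 0 < A := by positivity
  set Y : ℝ := cap d (R / 2) with hY
  have hY0 : 0 ≤ Y := cap_nonneg _ _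
  set W : Set (Sphere d) := U ∩ sBall z₀ (2 * R) with hW
  let δ : Sphere d → ℝ := fun w => Metric.infDist ((w : E d) - a) (V : Set (E d))
  have hδc : Continuous δ :=
    (Metric.continuous_infDist_pt _).comp (continuous_subtype_val.sub continuous_const)
  let S : ℕ → Set (Sphere d) := fun s => {w | δ w < A * (1 / 2) ^ s}
  have hSm : ∀ s, MeasurableSet (S s) := fun s =>
    (isOpen_lt hδc continuous_const).measurableSet
  let c : ℕ → ℝ≥0∞ := fun s => ENNReal.ofReal (((A * (1 / 2) ^ (s + 1))⁻¹) ^ k)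
  have hpt : ∀ w, dInv k a V w ≤
      ENNReal.ofReal ((A⁻¹) ^ k) + ∑' s, (S s).indicator (fun _ => c s) w := by
    intro w
    exact inv_pow_le_tsum hApos Metric.infDist_nonneg
  have hint : ∫⁻ w in W, dInv k a V w ∂(σ d) ≤
      ENNReal.ofReal ((A⁻¹) ^ k) * σ d W + ∑' s, c s * σ d (S s ∩ W) := by
    calc ∫⁻ w in W, dInv k a V w ∂(σ d)
        ≤ ∫⁻ w in W, (ENNReal.ofReal ((A⁻¹) ^ k) + ∑' s, (S s).indicator (fun _ => c s) w) ∂(σ d) :=
          lintegral_mono hpt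
      _ = _ := by
          rw [lintegral_add_left measurable_const, lintegral_const,
            Measure.restrict_apply MeasurableSet.univ, Set.univ_inter,
            lintegral_tsum (fun s => (measurable_const.indicator (hSm s)).aemeasurable)]
          congr 1
          refine tsum_congr fun s => ?_
          rw [lintegral_indicator_const (hSm s), Measure.restrict_apply (hSm s)]
  set Q : ℝ := (2 : ℝ) ^ ((q' - p) * (b : ℤ)) with hQ
  have hQ0 : 0 ≤ Q := by positivity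
  set X : ℝ := (R⁻¹) ^ k * Λ' * Q * Y with hX
  have hX0 : 0 ≤ X := by positivity
  set M : ℝ := 2 ^ (15 * d) with hM
  have hM0 : 0 ≤ M := by positivity
  have hQs : ∀ s : ℕ, (2 : ℝ) ^ ((q' - p + s) * (b : ℤ)) = Q * ((2 : ℝ) ^ s) ^ b := by
    intro s
    rw [hQ, add_mul, zpow_add₀ (by norm_num)]
    congr 1
    rw [zpow_mul, zpow_natCast, zpow_natCast]
  -- the first term
  have hfirst : ENNReal.ofReal ((A⁻¹) ^ k) * σ d W ≤ ENNReal.ofReal (X * M / 2) := by
    have h1 := Profile.bound_shell hΛ hd0 hU z₀ hp 3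
    have h2 : (2 : ℝ) ^ (p + 4 - ((3 : ℕ) : ℤ)) = 2 * R := by
      have : p + 4 - ((3 : ℕ) : ℤ) = p + 1 := by push_cast; ring
      rw [this, zpow_add_one₀ (by norm_num), hR]; ring
    have h3 := cap_shell_le hd hp 3
    rw [h2] at h1 h3
    rw [hQs 3] at h1
    rw [← ofReal_measureReal (μ := σ d) (s := W), ← ENNReal.ofReal_mul (by positivity)]
    apply ENNReal.ofReal_le_ofReal
    have h4 : (A⁻¹) ^ k ≤ (R⁻¹) ^ k := by
      apply pow_le_pow_left₀ (by positivity)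
      apply inv_anti₀ hRpos
      rw [hA]; linarith
    have h5 := shell_num1 (d := d) (b := b) (by omega)
    have h6 : ((2 : ℝ) ^ 3) ^ b = 8 ^ b := by norm_num
    rw [h6] at h1
    calc (A⁻¹) ^ k * (σ d).real W
        ≤ (R⁻¹) ^ k * (Λ' * (Q * 8 ^ b) * (8 * (3072 * (1 / 2) ^ 3) ^ (d - 1) * Y)) := by
          apply mul_le_mul h4 _ measureReal_nonneg (by positivity)
          refine h1.trans ?_
          exact mul_le_mul_of_nonneg_left h3 (by positivity)
      _ = X * ((8 : ℝ) ^ b * 8 * (3072 * (1 / 2) ^ 3) ^ (d - 1) * 2) / 2 := by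
          rw [hX]; ring
      _ ≤ X * M / 2 := by gcongr
  -- the shells
  have hshell : ∀ s, c s * σ d (S s ∩ W) ≤ ENNReal.ofReal (X * M / 4 * (1 / 2) ^ s) := by
    intro s
    set t : ℝ := (2 : ℝ) ^ s with ht
    set u : ℝ := (1 / 2 : ℝ) ^ s with hu
    have ht1 : 1 ≤ t := one_le_pow₀ (by norm_num)
    have hu0 : 0 < u := by positivity
    have htu : t * u = 1 := by
      rw [ht, hu, ← mul_pow]; norm_num
    set r : ℝ := A * u with hr
    have hrpos : 0 < r := by positivity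
    have h2r : (2 : ℝ) ^ (p + 4 - (s : ℤ)) = 2 * r := by
      rw [zpow_sub₀ (by norm_num), zpow_add₀ (by norm_num), zpow_natCast, hr, hA, hu, ← hR]
      have : (2 : ℝ) ^ (4 : ℤ) = 16 := by norm_num
      rw [this, one_div, inv_pow]
      field_simp
      ring
    obtain ⟨Z, hZcard, hZ⟩ := exists_tube_cover hV a z₀ hRpos hrpos
    have h8 : 8 * R / r = t := by
      rw [hr, hA]
      field_simp
      linarith
    rw [h8] at hZcard
    have hbnd := fun z : E d => Profile.bound_shell hΛ hd0 hU z hp s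
    have hcap := cap_shell_le hd hp s
    rw [h2r] at hcap
    simp only [h2r, hQs s] at hbnd
    rw [← hR] at hcap
    rw [← hu] at hcap
    rw [← ht] at hbnd
    -- the measure of the shell
    set B : ℝ := Λ' * (Q * t ^ b) * (8 * (3072 * u) ^ (d - 1) * Y) with hB
    have hB0 : 0 ≤ B := by positivity
    have hsub : S s ∩ W ⊆ ⋃ z ∈ Z, U ∩ sBall z (2 * r) := by
      intro w hw
      obtain ⟨hw1, hw2, hw3⟩ := hw
      obtain ⟨z, hz, hwz⟩ := hZ (w : E d) hw1 hw3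
      simp only [Set.mem_iUnion, exists_prop]
      exact ⟨z, hz, hw2, hwz⟩
    have hmeas : (σ d).real (S s ∩ W) ≤ (6 * t) ^ j * B := by
      calc (σ d).real (S s ∩ W) ≤ (σ d).real (⋃ z ∈ Z, U ∩ sBall z (2 * r)) :=
            measureReal_mono hsub (measure_ne_top _ _)
        _ ≤ ∑ z ∈ Z, (σ d).real (U ∩ sBall z (2 * r)) := measureReal_biUnion_finset_le _ _
        _ ≤ ∑ _z ∈ Z, B := by
            refine Finset.sum_le_sum fun z _ => (hbnd z).trans ?_
            exact mul_le_mul_of_nonneg_left hcap (by positivity)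
        _ = (Z.card : ℝ) * B := by simp
        _ ≤ (5 + t) ^ j * B := by gcongr
        _ ≤ (6 * t) ^ j * B := by
            gcongr
            linarith
    have hc : (A * (1 / 2) ^ (s + 1))⁻¹ = R⁻¹ * (1 / 4) * t := by
      have h1 : A * (1 / 2) ^ (s + 1) = R * 4 * u := by
        rw [hA, hu, pow_succ]; ring
      have h2 : u⁻¹ = t := by
        field_simp
        linarith
      rw [h1, mul_inv, mul_inv, h2]
      norm_num
    show ENNReal.ofReal (((A * (1 / 2) ^ (s + 1))⁻¹) ^ k) * σ d (S s ∩ W) ≤ _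
    rw [hc, ← ofReal_measureReal (μ := σ d) (s := S s ∩ W), ← ENNReal.ofReal_mul (by positivity)]
    apply ENNReal.ofReal_le_ofReal
    have hnum := shell_num2 (d := d) (k := k) (j := j) (by omega)
    have hpow := shell_powers (d := d) hkjb ht1 hu0.le htu
    calc (R⁻¹ * (1 / 4) * t) ^ k * (σ d).real (S s ∩ W)
        ≤ (R⁻¹ * (1 / 4) * t) ^ k * ((6 * t) ^ j * B) := by gcongr
      _ = X * ((1 / 4 : ℝ) ^ k * 6 ^ j * 8 * 3072 ^ (d - 1)) *
            (t ^ k * t ^ j * t ^ b * u ^ (d - 1)) := by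
          rw [hB, hX, mul_pow, mul_pow, mul_pow, mul_pow]
          ring
      _ ≤ X * ((1 / 4 : ℝ) ^ k * 6 ^ j * 8 * 3072 ^ (d - 1)) * u := by gcongr
      _ = X * ((1 / 4 : ℝ) ^ k * 6 ^ j * 8 * 3072 ^ (d - 1) * 4) / 4 * u := by ring
      _ ≤ X * M / 4 * u := by gcongr
  have hsum : ∑' s, c s * σ d (S s ∩ W) ≤ ENNReal.ofReal (X * M / 2) := by
    have hs : HasSum (fun s : ℕ => X * M / 4 * (1 / 2 : ℝ) ^ s) (X * M / 4 * 2) :=
      hasSum_geometric_two.mul_left _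
    calc ∑' s, c s * σ d (S s ∩ W) ≤ ∑' s : ℕ, ENNReal.ofReal (X * M / 4 * (1 / 2) ^ s) :=
          ENNReal.tsum_le_tsum hshell
      _ = ENNReal.ofReal (∑' s : ℕ, X * M / 4 * (1 / 2 : ℝ) ^ s) :=
          (ENNReal.ofReal_tsum_of_nonneg (fun s => by positivity) hs.summable).symm
      _ = _ := by
          rw [hs.tsum_eq]; congr 1; ring
  calc ∫⁻ w in W, dInv k a V w ∂(σ d) ≤ _ := hint
    _ ≤ ENNReal.ofReal (X * M / 2) + ENNReal.ofReal (X * M / 2) := add_le_add hfirst hsum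
    _ = ENNReal.ofReal (X * M) := by
        rw [← ENNReal.ofReal_add (by positivity) (by positivity)]; congr 1; ring
    _ = _ := by
        congr 1
        rw [hX]; ring

end

end Crest.Agent.S0499Lib
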