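/-
S0499 package F: the measure of the exceptional pairs at one scale.
-/
import Crest.Agent.S0499Lib.Shell
import Crest.Agent.S0499Lib.Moment
import Crest.Agent.S0499Lib.CellCount
import Crest.Agent.S0499Lib.Measurability

set_option autoImplicit false

namespace Crest.Agent.S0499Lib

open MeasureTheory ProbabilityTheory Crest.StreamLearn
open scoped ENNReal

noncomputable section

variable {d : ℕ} {ι : Type*} [Fintype ι]

namespace ExceptionAux

/-- A measurable disjointification of a finite cover. -/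
theorem exists_partition {α J : Type*} [MeasurableSpace α] (Z : Finset J) (B : J → Set α)
    (hB : ∀ z, MeasurableSet (B z)) :
    ∃ P : J → Set α, (∀ z, MeasurableSet (P z)) ∧ (∀ z, P z ⊆ B z) ∧
      (∀ z ∈ Z, ∀ z' ∈ Z, z ≠ z' → Disjoint (P z) (P z')) ∧
      (∀ x, (∃ z ∈ Z, x ∈ B z) → ∃ z ∈ Z, x ∈ P z) := by
  classical
  induction Z using Finset.induction_on with
  | empty => exact ⟨fun _ => ∅, by simp, by simp, by simp, by simp⟩
  | insert a Z ha ih =>
    obtain ⟨P, hPm, hPB, hPd, hPc⟩ := ih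
    have hU : MeasurableSet (⋃ z' ∈ Z, P z') :=
      Finset.measurableSet_biUnion Z (fun z _ => hPm z)
    refine ⟨fun z => if z = a then B a \ ⋃ z' ∈ Z, P z' else P z, ?_, ?_, ?_, ?_⟩
    · intro z
      by_cases h : z = a
      · simp only [h, if_true]; exact (hB a).diff hU
      · simpa [h] using hPm z
    · intro z
      by_cases h : z = a
      · subst h
        simpa using Set.diff_subset
      · simpa [h] using hPB z
    · intro z hz z' hz' hne
      have key : ∀ w ∈ Z, Disjoint (B a \ ⋃ z' ∈ Z, P z') (P w) := by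
        intro w hw
        refine Set.disjoint_left.mpr ?_
        rintro x ⟨_, hx⟩ hxw
        exact hx (Set.mem_biUnion hw hxw)
      by_cases hza : z = a
      · subst hza
        have hz'Z : z' ∈ Z := by
          rcases Finset.mem_insert.mp hz' with h | h
          · exact absurd h.symm hne
          · exact h
        have h' : z' ≠ z := fun h => hne h.symm
        simpa [h'] using key z' hz'Z
      · have hzZ : z ∈ Z := by
          rcases Finset.mem_insert.mp hz with h | h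
          · exact absurd h hza
          · exact h
        by_cases hza' : z' = a
        · subst hza'
          simpa [hza] using (key z hzZ).symm
        · have hz'Z : z' ∈ Z := by
            rcases Finset.mem_insert.mp hz' with h | h
            · exact absurd h hza'
            · exact h
          simpa [hza, hza'] using hPd z hzZ z' hz'Z hne
    · rintro x ⟨z, hz, hxz⟩
      by_cases hxU : x ∈ ⋃ z' ∈ Z, P z'
      · obtain ⟨w, hw, hxw⟩ := Set.mem_iUnion₂.mp hxU
        have hwa : w ≠ a := fun h => ha (h ▸ hw)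
        exact ⟨w, Finset.mem_insert_of_mem hw, by simpa [hwa] using hxw⟩
      · rcases Finset.mem_insert.mp hz with rfl | hz
        · exact ⟨z, Finset.mem_insert_self _ _, by simpa using ⟨hxz, by simpa using hxU⟩⟩
        · obtain ⟨w, hw, hxw⟩ := hPc x ⟨z, hz, hxz⟩
          exact absurd (Set.mem_biUnion hw hxw) hxU

theorem massGeneral {α β C : Type*} [MeasurableSpace α] [MeasurableSpace β] [MeasurableSpace C]
    [Countable C] [MeasurableSingletonClass C] (μ : Measure β) [SFinite μ]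
    (f : α × β → C) (hf : Measurable f) {V : Set β} (hV : MeasurableSet V) :
    Measurable fun x : β × α => μ (V ∩ {w | f (x.2, w) = f (x.2, x.1)}) := by
  have h1 : ∀ c : C, Measurable fun a : α => μ (V ∩ {w | f (a, w) = c}) := by
    intro c
    have hm : MeasurableSet {y : α × β | y.2 ∈ V ∧ f y = c} :=
      (measurable_snd hV).inter (hf (measurableSet_singleton c))
    exact measurable_measure_prodMk_left hm
  have h2 : Measurable fun y : α × C => μ (V ∩ {w | f (y.1, w) = y.2}) :=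
    measurable_from_prod_countable_left h1
  exact h2.comp (measurable_snd.prodMk (hf.comp measurable_swap))

/-- `(s, X) ↦ σ(V ∩ flat X (dat X s))` is measurable. -/
theorem measurable_mass (hd : 0 < d) (η : ℝ) {V : Set (Sphere d)} (hV : MeasurableSet V) :
    Measurable fun x : Sphere d × (ι → E d) => σ d (V ∩ flat η x.2 (dat η x.2 x.1)) := by
  have := isProb_σ hd
  have := massGeneral (σ d) (fun x : (ι → E d) × Sphere d => dat η x.1 x.2) (measurable_dat η) hV
  exact this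

theorem measurable_sumAbs (z : E d) :
    Measurable fun x : Sphere d × (ι → E d) =>
      ∑ i, |inner ℝ (x.2 i) ((x.1 : E d) - z)| := by
  refine Finset.measurable_sum _ (fun i _ => ?_)
  refine Measurable.abs ?_
  refine Measurable.inner ?_ ?_
  · exact (measurable_pi_apply i).comp measurable_snd
  · exact (measurable_subtype_coe.comp measurable_fst).sub_const z

/-- The first kind of bad pairs: the Chernoff bound, integrated. -/
theorem bad1_le (hd : 0 < d) {R : ℝ} (hR : 0 < R) (z : E d) {P : Set (Sphere d)}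
    (hPm : MeasurableSet P) (hP : P ⊆ sBall z R) :
    ((σ d).prod (γ d ι)) {x | x.1 ∈ P ∧ 2 * (Fintype.card ι : ℝ) * R <
        ∑ i, |inner ℝ (x.2 i) ((x.1 : E d) - z)|} ≤
      σ d P * (1 / 2 : ℝ≥0∞) ^ Fintype.card ι := by
  have := isProb_σ hd
  have hm : MeasurableSet {x : Sphere d × (ι → E d) | x.1 ∈ P ∧ 2 * (Fintype.card ι : ℝ) * R <
        ∑ i, |inner ℝ (x.2 i) ((x.1 : E d) - z)|} :=
    (measurable_fst hPm).inter (measurableSet_lt measurable_const (measurable_sumAbs z))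
  rw [Measure.prod_apply hm]
  calc ∫⁻ s, γ d ι (Prod.mk s ⁻¹' {x : Sphere d × (ι → E d) | x.1 ∈ P ∧
        2 * (Fintype.card ι : ℝ) * R < ∑ i, |inner ℝ (x.2 i) ((x.1 : E d) - z)|}) ∂(σ d)
      ≤ ∫⁻ s, P.indicator (fun _ => (1 / 2 : ℝ≥0∞) ^ Fintype.card ι) s ∂(σ d) := by
        refine lintegral_mono (fun s => ?_)
        by_cases hs : s ∈ P
        · rw [Set.indicator_of_mem hs]
          have hv : ‖(s : E d) - z‖ ≤ R := le_of_lt (hP hs)
          refine le_trans (measure_mono ?_) (chernoff_rows hR hv)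
          rintro X ⟨_, hX⟩
          exact hX
        · rw [Set.indicator_of_notMem hs]
          have : Prod.mk s ⁻¹' {x : Sphere d × (ι → E d) | x.1 ∈ P ∧
              2 * (Fintype.card ι : ℝ) * R < ∑ i, |inner ℝ (x.2 i) ((x.1 : E d) - z)|} = ∅ := by
            ext X; simp [hs]
          simp [this]
    _ = σ d P * (1 / 2 : ℝ≥0∞) ^ Fintype.card ι := by
        rw [lintegral_indicator hPm, setLIntegral_const, mul_comm]

/-- The second kind of bad pairs: a typical slab with little mass around `z`. -/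
theorem bad2_le (hd : 0 < d) {η R t : ℝ} (hη : 0 < η) (hηR : η ≤ R) (z : E d) {P : Set (Sphere d)}
    (hPm : MeasurableSet P) (hP : P ⊆ sBall z R) (ht : 0 ≤ t) :
    ((σ d).prod (γ d ι)) {x | x.1 ∈ P ∧ ∑ i, |inner ℝ (x.2 i) ((x.1 : E d) - z)| ≤
        2 * (Fintype.card ι : ℝ) * R ∧
        σ d (sBall z R ∩ flat η x.2 (dat η x.2 x.1)) < ENNReal.ofReal t} ≤
      ENNReal.ofReal ((128 * R / η) ^ Fintype.card ι * t) := by
  classical
  have := isProb_σ hd
  have hm : MeasurableSet {x : Sphere d × (ι → E d) | x.1 ∈ P ∧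
      ∑ i, |inner ℝ (x.2 i) ((x.1 : E d) - z)| ≤ 2 * (Fintype.card ι : ℝ) * R ∧
        σ d (sBall z R ∩ flat η x.2 (dat η x.2 x.1)) < ENNReal.ofReal t} := by
    refine (measurable_fst hPm).inter (MeasurableSet.inter ?_ ?_)
    · exact measurableSet_le (measurable_sumAbs z) measurable_const
    · exact measurableSet_lt (measurable_mass hd η (measurableSet_sBall z R)) measurable_const
  rw [Measure.prod_apply_symm hm]
  have hR : 0 < R := lt_of_lt_of_le hη hηR
  have hbound : ∀ X : ι → E d, (σ d) ((fun s => (s, X)) ⁻¹' {x : Sphere d × (ι → E d) | x.1 ∈ P ∧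
      ∑ i, |inner ℝ (x.2 i) ((x.1 : E d) - z)| ≤ 2 * (Fintype.card ι : ℝ) * R ∧
        σ d (sBall z R ∩ flat η x.2 (dat η x.2 x.1)) < ENNReal.ofReal t}) ≤
      ENNReal.ofReal ((128 * R / η) ^ Fintype.card ι * t) := by
    intro X
    set a : ι → ℝ := fun i => inner ℝ (X i) z
    set C : Finset (ι → ℤ) := (finite_typical (R := R) hη a).toFinset
    have hCcard : (C.card : ℝ) ≤ (128 * R / η) ^ Fintype.card ι :=
      card_typical_le hη hηR a C (fun c hc => by simpa [C] using hc)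
    set C' : Finset (ι → ℤ) := C.filter (fun c => σ d (sBall z R ∩ flat η X c) < ENNReal.ofReal t)
    have hsub : ((fun s => (s, X)) ⁻¹' {x : Sphere d × (ι → E d) | x.1 ∈ P ∧
        ∑ i, |inner ℝ (x.2 i) ((x.1 : E d) - z)| ≤ 2 * (Fintype.card ι : ℝ) * R ∧
          σ d (sBall z R ∩ flat η x.2 (dat η x.2 x.1)) < ENNReal.ofReal t}) ⊆
        ⋃ c ∈ C', sBall z R ∩ flat η X c := by
      rintro s ⟨hsP, hsum, hlt⟩
      simp only at hsum hlt
      have hCmem : dat η X s ∈ C' := by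
        refine Finset.mem_filter.mpr ⟨?_, hlt⟩
        have hty : ∑ i, |η * ((dat η X s i : ℤ) : ℝ) - a i| ≤ 3 * (Fintype.card ι : ℝ) * R := by
          have hi : ∀ i, |η * ((dat η X s i : ℤ) : ℝ) - a i| ≤
              η + |inner ℝ (X i) ((s : E d) - z)| := by
            intro i
            have hc := cell_spec hη (inner ℝ (X i) (s : E d))
            have hinner : inner ℝ (X i) ((s : E d) - z) =
                inner ℝ (X i) (s : E d) - a i := by
              simp [a, inner_sub_right]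
            rw [hinner]
            have hdat : ((dat η X s i : ℤ) : ℝ) = (cell η (inner ℝ (X i) (s : E d)) : ℝ) := rfl
            rw [hdat]
            rcases hc with ⟨hc1, hc2⟩
            rw [abs_le]
            have h3 := le_abs_self (inner ℝ (X i) (s : E d) - a i)
            have h4 := neg_abs_le (inner ℝ (X i) (s : E d) - a i)
            constructor <;> linarith
          calc ∑ i, |η * ((dat η X s i : ℤ) : ℝ) - a i|
              ≤ ∑ i, (η + |inner ℝ (X i) ((s : E d) - z)|) := Finset.sum_le_sum (fun i _ => hi i)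
            _ = (Fintype.card ι : ℝ) * η + ∑ i, |inner ℝ (X i) ((s : E d) - z)| := by
                rw [Finset.sum_add_distrib]; simp
            _ ≤ 3 * (Fintype.card ι : ℝ) * R := by
                have hk : (0 : ℝ) ≤ Fintype.card ι := Nat.cast_nonneg _
                nlinarith [mul_le_mul_of_nonneg_left hηR hk]
        simpa [C] using hty
      refine Set.mem_biUnion hCmem ⟨hP hsP, rfl⟩
    calc (σ d) _ ≤ σ d (⋃ c ∈ C', sBall z R ∩ flat η X c) := measure_mono hsub
      _ ≤ ∑ c ∈ C', σ d (sBall z R ∩ flat η X c) := measure_biUnion_finset_le _ _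
      _ ≤ ∑ c ∈ C', ENNReal.ofReal t :=
          Finset.sum_le_sum (fun c hc => le_of_lt (Finset.mem_filter.mp hc).2)
      _ = (C'.card : ℝ≥0∞) * ENNReal.ofReal t := by simp
      _ ≤ ENNReal.ofReal ((128 * R / η) ^ Fintype.card ι * t) := by
          rw [ENNReal.ofReal_mul (by positivity)]
          refine mul_le_mul_left ?_ _
          rw [← ENNReal.ofReal_natCast]
          refine ENNReal.ofReal_le_ofReal ?_
          exact le_trans (by exact_mod_cast Finset.card_filter_le _ _) hCcard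
  calc ∫⁻ X, (σ d) _ ∂(γ d ι) ≤ ∫⁻ _, ENNReal.ofReal ((128 * R / η) ^ Fintype.card ι * t) ∂(γ d ι) :=
        lintegral_mono hbound
    _ = _ := by simp

theorem markovGeneral {α β : Type*} [MeasurableSpace α] [MeasurableSpace β] (μ : Measure α)
    (ν : Measure β) [SFinite μ] [SFinite ν] {A : Set α} (hA : MeasurableSet A)
    (h : α × β → ℝ≥0∞) (hh : Measurable h) (m : ℕ) {y : ℝ≥0∞} (hy0 : y ≠ 0) (hytop : y ≠ ∞) :
    (μ.prod ν) {x | x.1 ∈ A ∧ y < h x} ≤ (y ^ m)⁻¹ * ∫⁻ X, ∫⁻ s in A, (h (s, X)) ^ m ∂μ ∂ν := by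
  have hm : MeasurableSet {x : α × β | x.1 ∈ A ∧ y < h x} :=
    (measurable_fst hA).inter (measurableSet_lt measurable_const hh)
  rw [Measure.prod_apply_symm hm]
  have hym0 : y ^ m ≠ 0 := pow_ne_zero _ hy0
  have hymt : y ^ m ≠ ∞ := ENNReal.pow_ne_top hytop
  have hbound : ∀ X : β, μ ((fun s => (s, X)) ⁻¹' {x : α × β | x.1 ∈ A ∧ y < h x}) ≤
      (y ^ m)⁻¹ * ∫⁻ s in A, (h (s, X)) ^ m ∂μ := by
    intro X
    have hmX : Measurable fun s : α => (h (s, X)) ^ m :=
      (hh.comp (measurable_id.prodMk measurable_const)).pow_const m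
    have h1 := meas_ge_le_lintegral_div (μ := μ.restrict A) hmX.aemeasurable hym0 hymt
    have hsubset : ((fun s => (s, X)) ⁻¹' {x : α × β | x.1 ∈ A ∧ y < h x}) ⊆
        A ∩ {s | y ^ m ≤ (h (s, X)) ^ m} := by
      rintro s ⟨hsA, hs⟩
      exact ⟨hsA, pow_le_pow_left' (le_of_lt hs) m⟩
    calc μ _ ≤ μ (A ∩ {s | y ^ m ≤ (h (s, X)) ^ m}) := measure_mono hsubset
      _ ≤ (μ.restrict A) {s | y ^ m ≤ (h (s, X)) ^ m} := by
          rw [Measure.restrict_apply' hA, Set.inter_comm]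
      _ ≤ _ := h1
      _ = _ := by rw [ENNReal.div_eq_inv_mul]
  calc ∫⁻ X, μ _ ∂ν
      ≤ ∫⁻ X, (y ^ m)⁻¹ * ∫⁻ s in A, (h (s, X)) ^ m ∂μ ∂ν := lintegral_mono hbound
    _ = _ := lintegral_const_mul' _ _ (ENNReal.inv_ne_top.mpr hym0)

/-- Markov's inequality with the moment bound. -/
theorem markov_slab (hd : 0 < d) {η : ℝ} (hη : 0 < η) {A : Set (Sphere d)} (hA : MeasurableSet A)
    (m : ℕ) (I : ℝ≥0∞)
    (hI : ∀ (a : E d) (V : Submodule ℝ (E d)), Module.finrank ℝ V ≤ m - 1 →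
      ∫⁻ w in A, dInv (Fintype.card ι) a V w ∂(σ d) ≤ I)
    {y : ℝ≥0∞} (hy0 : y ≠ 0) (hytop : y ≠ ∞) :
    ((σ d).prod (γ d ι)) {x | x.1 ∈ A ∧ y < σ d (A ∩ flat η x.2 (dat η x.2 x.1))} ≤
      (y ^ m)⁻¹ * (σ d A * (ENNReal.ofReal (η ^ Fintype.card ι) * I) ^ m) := by
  have := isProb_σ hd
  have hmeas := measurable_mass (ι := ι) hd η hA
  refine le_trans (markovGeneral (σ d) (γ d ι) hA
    (fun x : Sphere d × (ι → E d) => σ d (A ∩ flat η x.2 (dat η x.2 x.1))) hmeas m hy0 hytop) ?_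
  gcongr
  exact moment_bound hη hd hA m I hI

end ExceptionAux

open ExceptionAux in
/-- **Exception at one scale.**  Let `R = 2^p`, `k = card ι`. There is a set `Bad` of pairs (not depending on
`U`!) of measure at most `2^{-k} + ε₁` such that for each `U` with a profile,
the part of `excAt U p` outside `Bad` has small measure.

Proof. `Z` : the `R`-net of `exists_sphere_net`, `P_z ⊆ B(z, R)` a measurable partition of the sphere.
`t = ε₁ / (#Z * N)`, `N = (128 R / η)^k`.  `a_z(X, c) = σ(U ∩ flat X c ∩ B(z, 2R))`,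
`b_z(X, c) = σ(flat X c ∩ B(z, R))`.
`Bad = ⋃_z {(s, X) : s ∈ P_z, ∑_i |⟪X i, s - z⟫| > 2 k R} ∪
        ⋃_z {(s, X) : s ∈ P_z, ∑_i |⟪X i, s - z⟫| ≤ 2 k R, b_z(X, dat X s) < t}`.
The first: `chernoff_rows` (`≤ ∑_z σ(P_z) 2^{-k} = 2^{-k}`).  The second: for fixed `X`, `c = dat X s` is
typical: `∑_i |η c_i - ⟪X i, z⟫| ≤ 2 k R + k η ≤ 3 k R` (`cell_spec`, `η ≤ R`), so by `card_typical_le`
there are at most `N` possible `c`, and each contributes `σ(P_z ∩ flat X c ∩ {b < t}) ≤ t`. Total: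
`#Z * N * t = ε₁`.
Outside `Bad`, for `(s, X) ∈ excAt U p`, `s ∈ P_z`: `θ b_z ≤ θ σ(T ∩ B(s, 2R)) < σ(U ∩ T ∩ B(s, R)) ≤ a_z`,
so `h_z(s) := a_z(X, dat X s) > θ t`, where `θ = θ b q p = 2^{(q-p) b}`.  By Markov
`(σ ⊗ γ){s ∈ A_z, h_z(s) > θ t} ≤ (θ t)^{-m} ∫γ ∫_{A_z} h_z^m`, `A_z = U ∩ B(z, 2R)`, and `moment_bound` with
`I` from `shell_bound` (`j = m - 1`, `z₀ = z`) gives `≤ (θ t)^{-m} σ(A_z) (η^k I)^m`. Sum over `z`:
`∑_z σ(A_z) ≤ #Z cap(2R) ≤ cap(2R) / cap(R/2) ≤ 8 * 32^{d-1} ≤ 2^{5d}` (`cap_le_pow`; `R / 2 ≤ 4`), and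
`η^k I / (θ t) = η^k R^{-k} Λ' 2^{(q'-p) b} 2^{15 d} cap(R/2) #Z (128 R / η)^k / (2^{(q-p) b} ε₁)
   ≤ 128^k 2^{15 d} Λ' 2^{(q'-q) b} / ε₁ ≤ 2^{22 d} Λ' 2^{(q'-q) b} / ε₁`. -/
theorem exception_at_scale (hι : 1 ≤ Fintype.card ι) (hd : 2 ≤ d) {η : ℝ} (hη : 0 < η) {p : ℤ}
    (hp : p ≤ 3) (hηR : η ≤ (2 : ℝ) ^ p) {ε₁ : ℝ} (hε₁ : 0 < ε₁) :
    ∃ Bad : Set (Sphere d × (ι → E d)), MeasurableSet Bad ∧
      ((σ d).prod (γ d ι)).real Bad ≤ (1 / 2 : ℝ) ^ Fintype.card ι + ε₁ ∧
      ∀ (b m : ℕ) (q q' : ℤ) (Λ' : ℝ) (U : Set (Sphere d)), 1 ≤ m →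
        Fintype.card ι + b + m + 1 ≤ d → q ≤ p → 0 ≤ Λ' → Profile b q' Λ' U →
        ((σ d).prod (γ d ι)).real (excAt η b q U p \ Bad) ≤
          2 ^ (5 * d) * (2 ^ (22 * d) * Λ' * (2 : ℝ) ^ ((q' - q) * (b : ℤ)) / ε₁) ^ m := by
  classical
  have hd0 : 0 < d := by omega
  have := isProb_σ hd0
  have hR : (0 : ℝ) < (2 : ℝ) ^ p := zpow_pos (by norm_num) p
  set R : ℝ := (2 : ℝ) ^ p with hRdef
  obtain ⟨Z, hZcard, hZnet⟩ := exists_sphere_net hd0 hR
  obtain ⟨P, hPm, hPB, hPd, hPc⟩ :=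
    exists_partition Z (fun z : Sphere d => sBall (z : E d) R) (fun z => measurableSet_sBall _ _)
  have hNpos : 0 < (128 * R / η) ^ Fintype.card ι := by positivity
  set N : ℝ := (128 * R / η) ^ Fintype.card ι with hNdef
  have hne : Nonempty (Sphere d) := nonempty_of_isProbabilityMeasure (σ d)
  have hZpos : 0 < (Z.card : ℝ) := by
    obtain ⟨s⟩ := hne
    obtain ⟨z, hz, _⟩ := hZnet s
    exact_mod_cast Finset.card_pos.mpr ⟨z, hz⟩
  set t : ℝ := ε₁ / (Z.card * N) with htdef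
  have ht : 0 < t := by positivity
  let B1 : Sphere d → Set (Sphere d × (ι → E d)) := fun z =>
    {x | x.1 ∈ P z ∧ 2 * (Fintype.card ι : ℝ) * R < ∑ i, |inner ℝ (x.2 i) ((x.1 : E d) - (z : E d))|}
  let B2 : Sphere d → Set (Sphere d × (ι → E d)) := fun z =>
    {x | x.1 ∈ P z ∧ ∑ i, |inner ℝ (x.2 i) ((x.1 : E d) - (z : E d))| ≤
        2 * (Fintype.card ι : ℝ) * R ∧
        σ d (sBall (z : E d) R ∩ flat η x.2 (dat η x.2 x.1)) < ENNReal.ofReal t}
  have hB1m : ∀ z, MeasurableSet (B1 z) := fun z =>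
    (measurable_fst (hPm z)).inter (measurableSet_lt measurable_const (measurable_sumAbs (z : E d)))
  have hB2m : ∀ z, MeasurableSet (B2 z) := fun z =>
    (measurable_fst (hPm z)).inter (MeasurableSet.inter
      (measurableSet_le (measurable_sumAbs (z : E d)) measurable_const)
      (measurableSet_lt (measurable_mass hd0 η (measurableSet_sBall (z : E d) R)) measurable_const))
  refine ⟨(⋃ z ∈ Z, B1 z) ∪ (⋃ z ∈ Z, B2 z), ?_, ?_, ?_⟩
  · exact (Finset.measurableSet_biUnion Z (fun z _ => hB1m z)).union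
      (Finset.measurableSet_biUnion Z (fun z _ => hB2m z))
  · -- the measure of `Bad`
    have h1 : ((σ d).prod (γ d ι)) (⋃ z ∈ Z, B1 z) ≤ (1 / 2 : ℝ≥0∞) ^ Fintype.card ι := by
      calc ((σ d).prod (γ d ι)) (⋃ z ∈ Z, B1 z)
          ≤ ∑ z ∈ Z, ((σ d).prod (γ d ι)) (B1 z) := measure_biUnion_finset_le _ _
        _ ≤ ∑ z ∈ Z, σ d (P z) * (1 / 2 : ℝ≥0∞) ^ Fintype.card ι :=
            Finset.sum_le_sum (fun z _ => bad1_le hd0 hR (z : E d) (hPm z) (hPB z))
        _ = (∑ z ∈ Z, σ d (P z)) * (1 / 2 : ℝ≥0∞) ^ Fintype.card ι := by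
            rw [Finset.sum_mul]
        _ = σ d (⋃ z ∈ Z, P z) * (1 / 2 : ℝ≥0∞) ^ Fintype.card ι := by
            rw [measure_biUnion_finset (fun z hz z' hz' hne => hPd z hz z' hz' hne)
              (fun z _ => hPm z)]
        _ ≤ 1 * (1 / 2 : ℝ≥0∞) ^ Fintype.card ι := by
            gcongr
            exact prob_le_one
        _ = _ := one_mul _
    have h2 : ((σ d).prod (γ d ι)) (⋃ z ∈ Z, B2 z) ≤ ENNReal.ofReal ε₁ := by
      calc ((σ d).prod (γ d ι)) (⋃ z ∈ Z, B2 z)
          ≤ ∑ z ∈ Z, ((σ d).prod (γ d ι)) (B2 z) := measure_biUnion_finset_le _ _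
        _ ≤ ∑ _z ∈ Z, ENNReal.ofReal (N * t) :=
            Finset.sum_le_sum (fun z _ =>
              bad2_le hd0 hη hηR (z : E d) (hPm z) (hPB z) ht.le)
        _ = (Z.card : ℝ≥0∞) * ENNReal.ofReal (N * t) := by simp
        _ = ENNReal.ofReal (Z.card * (N * t)) := by
            rw [ENNReal.ofReal_mul (by positivity : (0 : ℝ) ≤ (Z.card : ℝ)), ENNReal.ofReal_natCast]
        _ = ENNReal.ofReal ε₁ := by
            congr 1
            rw [htdef]
            field_simp
    have h3 : ((σ d).prod (γ d ι)) ((⋃ z ∈ Z, B1 z) ∪ (⋃ z ∈ Z, B2 z)) ≤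
        ENNReal.ofReal ((1 / 2 : ℝ) ^ Fintype.card ι + ε₁) := by
      refine le_trans (measure_union_le _ _) ?_
      rw [ENNReal.ofReal_add (by positivity) hε₁.le]
      refine add_le_add ?_ h2
      rw [ENNReal.ofReal_pow (by norm_num)]
      refine le_trans h1 (le_of_eq ?_)
      congr 1
      rw [ENNReal.ofReal_div_of_pos (by norm_num)]
      simp
    exact ENNReal.toReal_le_of_le_ofReal (by positivity) h3
  · intro b m q q' Λ' U hm hdim hqp hΛ hU
    have hθeq : θ b q p = (2 : ℝ) ^ ((q - p) * (b : ℤ)) := by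
      unfold θ
      refine min_eq_right ?_
      refine zpow_le_one_of_nonpos₀ (by norm_num) ?_
      exact mul_nonpos_of_nonpos_of_nonneg (by omega) (by positivity)
    have hθpos : 0 < (2 : ℝ) ^ ((q - p) * (b : ℤ)) := zpow_pos (by norm_num) _
    set θv : ℝ := (2 : ℝ) ^ ((q - p) * (b : ℤ)) with hθv
    set y : ℝ := θv * t with hydef
    have hy : 0 < y := by positivity
    let A : Sphere d → Set (Sphere d) := fun z => U ∩ sBall (z : E d) (2 * R)
    have hAm : ∀ z, MeasurableSet (A z) := fun z => hU.meas.inter (measurableSet_sBall _ _)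
    let G : Sphere d → Set (Sphere d × (ι → E d)) := fun z =>
      {x | x.1 ∈ A z ∧ ENNReal.ofReal y < σ d (A z ∩ flat η x.2 (dat η x.2 x.1))}
    have hsub : excAt η b q U p \ ((⋃ z ∈ Z, B1 z) ∪ (⋃ z ∈ Z, B2 z)) ⊆ ⋃ z ∈ Z, G z := by
      rintro ⟨s, X⟩ ⟨⟨hsU, hns⟩, hnb⟩
      obtain ⟨z, hz, hsP⟩ := hPc s (by
        obtain ⟨z, hz, h⟩ := hZnet s
        exact ⟨z, hz, h⟩)
      refine Set.mem_biUnion hz ?_
      have hsz : ‖(s : E d) - (z : E d)‖ < R := hPB z hsP
      have hn1 : ¬ (2 * (Fintype.card ι : ℝ) * R <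
          ∑ i, |inner ℝ (X i) ((s : E d) - (z : E d))|) :=
        fun h => hnb (Or.inl (Set.mem_biUnion hz ⟨hsP, h⟩))
      have hn2 : ENNReal.ofReal t ≤ σ d (sBall (z : E d) R ∩ flat η X (dat η X s)) := by
        by_contra h
        exact hnb (Or.inr (Set.mem_biUnion hz ⟨hsP, not_lt.mp hn1, not_le.mp h⟩))
      have ht1 : t ≤ (σ d).real (sBall (z : E d) R ∩ flat η X (dat η X s)) :=
        (ENNReal.ofReal_le_iff_le_toReal (measure_ne_top _ _)).mp hn2
      have hmono1 : (σ d).real (sBall (z : E d) R ∩ flat η X (dat η X s)) ≤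
          (σ d).real (flat η X (dat η X s) ∩ sBall (s : E d) ((2 : ℝ) ^ (p + 1))) := by
        refine measureReal_mono ?_ (measure_ne_top _ _)
        rintro w ⟨hw1, hw2⟩
        refine ⟨hw2, ?_⟩
        have hw1' : ‖(w : E d) - (z : E d)‖ < R := hw1
        show ‖(w : E d) - (s : E d)‖ < (2 : ℝ) ^ (p + 1)
        rw [zpow_add_one₀ (by norm_num : (2 : ℝ) ≠ 0)]
        have : ‖(w : E d) - (s : E d)‖ ≤ ‖(w : E d) - (z : E d)‖ + ‖(s : E d) - (z : E d)‖ := by
          have h0 := norm_sub_le_norm_sub_add_norm_sub (w : E d) (z : E d) (s : E d)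
          rwa [norm_sub_rev (z : E d) (s : E d)] at h0
        rw [← hRdef]
        linarith
      have hmono2 : (σ d).real (U ∩ flat η X (dat η X s) ∩ sBall (s : E d) ((2 : ℝ) ^ p)) ≤
          (σ d).real (A z ∩ flat η X (dat η X s)) := by
        refine measureReal_mono ?_ (measure_ne_top _ _)
        rintro w ⟨⟨hw1, hw2⟩, hw3⟩
        refine ⟨⟨hw1, ?_⟩, hw2⟩
        have hw3' : ‖(w : E d) - (s : E d)‖ < R := hw3
        show ‖(w : E d) - (z : E d)‖ < 2 * R
        have : ‖(w : E d) - (z : E d)‖ ≤ ‖(w : E d) - (s : E d)‖ + ‖(s : E d) - (z : E d)‖ :=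
          norm_sub_le_norm_sub_add_norm_sub (w : E d) (s : E d) (z : E d)
        linarith
      have hnot : θv * (σ d).real (flat η X (dat η X s) ∩ sBall (s : E d) ((2 : ℝ) ^ (p + 1))) <
          (σ d).real (U ∩ flat η X (dat η X s) ∩ sBall (s : E d) ((2 : ℝ) ^ p)) := by
        have := not_le.mp hns
        rwa [hθeq] at this
      have hlt : y < (σ d).real (A z ∩ flat η X (dat η X s)) := by
        calc y = θv * t := rfl
          _ ≤ θv * (σ d).real (flat η X (dat η X s) ∩ sBall (s : E d) ((2 : ℝ) ^ (p + 1))) :=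
              mul_le_mul_of_nonneg_left (le_trans ht1 hmono1) hθpos.le
          _ < _ := hnot
          _ ≤ _ := hmono2
      refine ⟨⟨hsU, ?_⟩, ?_⟩
      · show ‖(s : E d) - (z : E d)‖ < 2 * R
        linarith
      · exact (ENNReal.ofReal_lt_iff_lt_toReal hy.le (measure_ne_top _ _)).mpr hlt
    -- the integrals
    set Ir : ℝ := R⁻¹ ^ Fintype.card ι * Λ' * (2 : ℝ) ^ ((q' - p) * (b : ℤ)) * 2 ^ (15 * d) *
        cap d (R / 2) with hIr
    have hI : ∀ (z : Sphere d) (a : E d) (V : Submodule ℝ (E d)), Module.finrank ℝ V ≤ m - 1 →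
        ∫⁻ w in A z, dInv (Fintype.card ι) a V w ∂(σ d) ≤ ENNReal.ofReal Ir := fun z a V hV =>
      shell_bound (b := b) (k := Fintype.card ι) (j := m - 1) hι (by omega) hp hΛ hU (z : E d) a V hV
    have hG : ∀ z, ((σ d).prod (γ d ι)) (G z) ≤ ENNReal.ofReal
        (cap d (2 * R) * (η ^ Fintype.card ι * Ir / y) ^ m) := by
      intro z
      have h1 := markov_slab hd0 hη (hAm z) m (ENNReal.ofReal Ir) (hI z)
        (y := ENNReal.ofReal y) (by simpa using hy) ENNReal.ofReal_ne_top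
      refine le_trans h1 ?_
      have hcap : σ d (A z) ≤ ENNReal.ofReal (cap d (2 * R)) := by
        calc σ d (A z) ≤ σ d (sBall (z : E d) (2 * R)) := measure_mono Set.inter_subset_right
          _ = ENNReal.ofReal ((σ d).real (sBall (z : E d) (2 * R))) :=
              (ofReal_measureReal (measure_ne_top _ _)).symm
          _ = _ := by rw [real_sBall_eq_cap hd0]
      have hcapnn : 0 ≤ cap d (2 * R) := cap_nonneg _ _
      have hIrnn : 0 ≤ Ir := by
        have := cap_nonneg d (R / 2)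
        positivity
      calc (ENNReal.ofReal y ^ m)⁻¹ * (σ d (A z) * (ENNReal.ofReal (η ^ Fintype.card ι) *
              ENNReal.ofReal Ir) ^ m)
          ≤ (ENNReal.ofReal y ^ m)⁻¹ * (ENNReal.ofReal (cap d (2 * R)) *
              (ENNReal.ofReal (η ^ Fintype.card ι) * ENNReal.ofReal Ir) ^ m) := by
            gcongr
        _ = ENNReal.ofReal (cap d (2 * R) * (η ^ Fintype.card ι * Ir / y) ^ m) := by
            have a1 : (ENNReal.ofReal y ^ m)⁻¹ = ENNReal.ofReal ((y ^ m)⁻¹) := by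
              rw [← ENNReal.ofReal_pow hy.le, ENNReal.ofReal_inv_of_pos (by positivity)]
            have a2 : (ENNReal.ofReal (η ^ Fintype.card ι) * ENNReal.ofReal Ir) ^ m =
                ENNReal.ofReal ((η ^ Fintype.card ι * Ir) ^ m) := by
              rw [← ENNReal.ofReal_mul (by positivity), ENNReal.ofReal_pow (by positivity)]
            rw [a1, a2, ← ENNReal.ofReal_mul (by positivity), ← ENNReal.ofReal_mul (by positivity)]
            congr 1
            rw [div_pow]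
            field_simp
    have hcapnn : 0 ≤ cap d (2 * R) := cap_nonneg _ _
    have hWnn : 0 ≤ η ^ Fintype.card ι * Ir / y := by
      have := cap_nonneg d (R / 2)
      positivity
    have hm1 : ((σ d).prod (γ d ι)) (excAt η b q U p \ ((⋃ z ∈ Z, B1 z) ∪ (⋃ z ∈ Z, B2 z))) ≤
        ENNReal.ofReal ((Z.card : ℝ) * (cap d (2 * R) * (η ^ Fintype.card ι * Ir / y) ^ m)) := by
      calc _ ≤ ((σ d).prod (γ d ι)) (⋃ z ∈ Z, G z) := measure_mono hsub
        _ ≤ ∑ z ∈ Z, ((σ d).prod (γ d ι)) (G z) := measure_biUnion_finset_le _ _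
        _ ≤ ∑ _z ∈ Z, ENNReal.ofReal (cap d (2 * R) * (η ^ Fintype.card ι * Ir / y) ^ m) :=
            Finset.sum_le_sum (fun z _ => hG z)
        _ = (Z.card : ℝ≥0∞) * ENNReal.ofReal (cap d (2 * R) * (η ^ Fintype.card ι * Ir / y) ^ m) := by
            simp
        _ = _ := by
            rw [ENNReal.ofReal_mul (by positivity : (0 : ℝ) ≤ (Z.card : ℝ)), ENNReal.ofReal_natCast]
    -- the arithmetic
    have hR8 : R / 2 ≤ 4 := by
      have : R ≤ (2 : ℝ) ^ (3 : ℤ) := zpow_le_zpow_right₀ (by norm_num) hp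
      norm_num at this
      linarith
    have hcapbound : (Z.card : ℝ) * cap d (2 * R) ≤ 2 ^ (5 * d) := by
      have h1 := cap_le_pow hd (x := 2 * R) (y := R / 2) (by positivity) (by positivity) hR8
      have h32 : 8 * (2 * R) / (R / 2) = 32 := by field_simp; norm_num
      rw [h32] at h1
      have h2 : (8 : ℝ) * 32 ^ (d - 1) ≤ 2 ^ (5 * d) := by
        obtain ⟨e, rfl⟩ : ∃ e, d = e + 1 := ⟨d - 1, by omega⟩
        have h3 : (2 : ℝ) ^ (5 * (e + 1)) = 32 * 32 ^ e := by
          rw [mul_add, pow_add, pow_mul]; norm_num; ring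
        rw [h3, Nat.add_sub_cancel]
        have : (0 : ℝ) < 32 ^ e := by positivity
        nlinarith
      have hcp := cap_nonneg d (R / 2)
      calc (Z.card : ℝ) * cap d (2 * R)
          ≤ (Z.card : ℝ) * (8 * 32 ^ (d - 1) * cap d (R / 2)) :=
            mul_le_mul_of_nonneg_left h1 (by positivity)
        _ = 8 * 32 ^ (d - 1) * ((Z.card : ℝ) * cap d (R / 2)) := by ring
        _ ≤ 8 * 32 ^ (d - 1) * 1 := mul_le_mul_of_nonneg_left hZcard (by positivity)
        _ ≤ _ := by rw [mul_one]; exact h2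
    have hWle : η ^ Fintype.card ι * Ir / y ≤
        2 ^ (22 * d) * Λ' * (2 : ℝ) ^ ((q' - q) * (b : ℤ)) / ε₁ := by
      have e1 : (2 : ℝ) ^ ((q' - p) * (b : ℤ)) = (2 : ℝ) ^ ((q' - q) * (b : ℤ)) * θv := by
        rw [hθv, ← zpow_add₀ (by norm_num : (2 : ℝ) ≠ 0)]
        congr 1
        ring
      have e2 : η ^ Fintype.card ι * R⁻¹ ^ Fintype.card ι * N = 128 ^ Fintype.card ι := by
        rw [hNdef, ← mul_pow, ← mul_pow]
        congr 1
        field_simp
      have e3 : η ^ Fintype.card ι * Ir / y =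
          (η ^ Fintype.card ι * R⁻¹ ^ Fintype.card ι * N) * Λ' * (2 : ℝ) ^ ((q' - q) * (b : ℤ)) *
            2 ^ (15 * d) * ((Z.card : ℝ) * cap d (R / 2)) / ε₁ := by
        rw [hIr, e1, hydef, htdef]
        field_simp
      rw [e3, e2]
      have hk128 : (128 : ℝ) ^ Fintype.card ι ≤ 2 ^ (7 * d) := by
        have : (128 : ℝ) = 2 ^ 7 := by norm_num
        rw [this, ← pow_mul]
        exact pow_le_pow_right₀ (by norm_num) (by omega)
      have hP2 : 0 < (2 : ℝ) ^ ((q' - q) * (b : ℤ)) := zpow_pos (by norm_num) _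
      have hcp := cap_nonneg d (R / 2)
      have hsplit : (2 : ℝ) ^ (22 * d) = 2 ^ (7 * d) * 2 ^ (15 * d) := by
        rw [← pow_add]; congr 1; ring
      rw [hsplit]
      gcongr ?_ / _
      calc (128 : ℝ) ^ Fintype.card ι * Λ' * (2 : ℝ) ^ ((q' - q) * (b : ℤ)) * 2 ^ (15 * d) *
            ((Z.card : ℝ) * cap d (R / 2))
          ≤ (128 : ℝ) ^ Fintype.card ι * Λ' * (2 : ℝ) ^ ((q' - q) * (b : ℤ)) * 2 ^ (15 * d) * 1 :=
            mul_le_mul_of_nonneg_left hZcard (by positivity)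
        _ ≤ 2 ^ (7 * d) * Λ' * (2 : ℝ) ^ ((q' - q) * (b : ℤ)) * 2 ^ (15 * d) * 1 := by
            gcongr
        _ = _ := by ring
    have hfinal : (Z.card : ℝ) * (cap d (2 * R) * (η ^ Fintype.card ι * Ir / y) ^ m) ≤
        2 ^ (5 * d) * (2 ^ (22 * d) * Λ' * (2 : ℝ) ^ ((q' - q) * (b : ℤ)) / ε₁) ^ m := by
      rw [← mul_assoc]
      exact mul_le_mul hcapbound (pow_le_pow_left₀ hWnn hWle m) (by positivity) (by positivity)
    refine ENNReal.toReal_le_of_le_ofReal ?_ (le_trans hm1 (ENNReal.ofReal_le_ofReal hfinal))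
    have hP2 : 0 < (2 : ℝ) ^ ((q' - q) * (b : ℤ)) := zpow_pos (by norm_num) _
    positivity

end

end Crest.Agent.S0499Lib
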