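/-
S0499 package G: the step lemma.
-/
import Crest.Agent.S0499Lib.Exception

set_option autoImplicit false

namespace Crest.Agent.S0499Lib

open MeasureTheory ProbabilityTheory Crest.StreamLearn
open scoped ENNReal

noncomputable section

variable {d : ℕ} {ι : Type*} [Fintype ι] {St' : Type*} [Fintype St']

theorem θ_nonneg (b : ℕ) (q p : ℤ) : 0 ≤ θ b q p := by
  unfold θ
  exact le_min zero_le_one (zpow_nonneg (by norm_num) _)

theorem θ_eq_one_of_le {b : ℕ} {q p : ℤ} (h : p ≤ q) : θ b q p = 1 := by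
  unfold θ
  refine min_eq_left ?_
  apply one_le_zpow₀ (by norm_num)
  exact mul_nonneg (by omega) (by positivity)

/-- Fixing the rows, the part of the ball `B(z, 2^p)` where the rows are good, within one slab, is small. -/
theorem slab_piece_le (hd : 0 < d) {η : ℝ} (b : ℕ) (q : ℤ) {p : ℤ} (hp : p ≤ 2)
    (U' : St' → Set (Sphere d)) (F : (ι → E d) → (ι → ℤ) → St') (z : E d) (X : ι → E d)
    (c : ι → ℤ) :
    (σ d) ({w | w ∈ sBall z ((2 : ℝ) ^ p) ∧ X ∈ stepEv η b q U' F w} ∩ flat η X c) ≤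
      ENNReal.ofReal (θ b q (p + 1)) * (σ d) (flat η X c ∩ sBall z (6 * (2 : ℝ) ^ p)) := by
  haveI := isProb_σ hd
  have hR : (0 : ℝ) < (2 : ℝ) ^ p := zpow_pos (by norm_num) _
  have h2R : (2 : ℝ) ^ (p + 1) = 2 * (2 : ℝ) ^ p := by
    rw [zpow_add_one₀ (by norm_num)]; ring
  have h4R : (2 : ℝ) ^ (p + 1 + 1) = 4 * (2 : ℝ) ^ p := by
    rw [zpow_add_one₀ (by norm_num), h2R]; ring
  by_cases hq : q ≤ p + 1
  · -- the genuine case
    rcases Set.eq_empty_or_nonempty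
      ({w | w ∈ sBall z ((2 : ℝ) ^ p) ∧ X ∈ stepEv η b q U' F w} ∩ flat η X c) with he | ⟨w₀, hw₀, hw₀c⟩
    · rw [he]; simp
    · obtain ⟨hw₀B, hw₀X⟩ := hw₀
      have hc₀ : dat η X w₀ = c := hw₀c
      have hw₀U : w₀ ∈ U' (F X c) := by
        have := hw₀X.1; rwa [hc₀] at this
      have hsp : LocSparse b q (U' (F X c)) (flat η X c) w₀ := by
        have := hw₀X.2; rwa [hc₀] at this
      have hsp' := hsp (p + 1) hq (by omega)
      unfold LocSparseAt at hsp'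
      -- the set on the left is inside `U' ∩ T ∩ B(w₀, 2R)`
      have hsub1 : ({w | w ∈ sBall z ((2 : ℝ) ^ p) ∧ X ∈ stepEv η b q U' F w} ∩ flat η X c) ⊆
          U' (F X c) ∩ flat η X c ∩ sBall (w₀ : E d) ((2 : ℝ) ^ (p + 1)) := by
        rintro w ⟨⟨hwB, hwX⟩, hwc⟩
        have hc : dat η X w = c := hwc
        have hwU : w ∈ U' (F X c) := by
          have := hwX.1; rwa [hc] at this
        refine ⟨⟨hwU, hwc⟩, ?_⟩
        have h1 : ‖(w : E d) - z‖ < (2 : ℝ) ^ p := hwB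
        have h2 : ‖(w₀ : E d) - z‖ < (2 : ℝ) ^ p := hw₀B
        show ‖(w : E d) - (w₀ : E d)‖ < (2 : ℝ) ^ (p + 1)
        rw [h2R]
        calc ‖(w : E d) - (w₀ : E d)‖ = ‖((w : E d) - z) - ((w₀ : E d) - z)‖ := by
              congr 1; abel
          _ ≤ ‖(w : E d) - z‖ + ‖(w₀ : E d) - z‖ := norm_sub_le _ _
          _ < 2 * (2 : ℝ) ^ p := by linarith
      have hsub2 : flat η X c ∩ sBall (w₀ : E d) ((2 : ℝ) ^ (p + 1 + 1)) ⊆
          flat η X c ∩ sBall z (6 * (2 : ℝ) ^ p) := by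
        rintro w ⟨hwc, hwB⟩
        refine ⟨hwc, ?_⟩
        have h1 : ‖(w : E d) - (w₀ : E d)‖ < (2 : ℝ) ^ (p + 1 + 1) := hwB
        have h2 : ‖(w₀ : E d) - z‖ < (2 : ℝ) ^ p := hw₀B
        rw [h4R] at h1
        show ‖(w : E d) - z‖ < 6 * (2 : ℝ) ^ p
        calc ‖(w : E d) - z‖ = ‖((w : E d) - (w₀ : E d)) + ((w₀ : E d) - z)‖ := by
              congr 1; abel
          _ ≤ ‖(w : E d) - (w₀ : E d)‖ + ‖(w₀ : E d) - z‖ := norm_add_le _ _
          _ < 6 * (2 : ℝ) ^ p := by linarith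
      calc (σ d) ({w | w ∈ sBall z ((2 : ℝ) ^ p) ∧ X ∈ stepEv η b q U' F w} ∩ flat η X c)
          ≤ (σ d) (U' (F X c) ∩ flat η X c ∩ sBall (w₀ : E d) ((2 : ℝ) ^ (p + 1))) :=
            measure_mono hsub1
        _ = ENNReal.ofReal ((σ d).real
              (U' (F X c) ∩ flat η X c ∩ sBall (w₀ : E d) ((2 : ℝ) ^ (p + 1)))) :=
            (ofReal_measureReal).symm
        _ ≤ ENNReal.ofReal (θ b q (p + 1) *
              (σ d).real (flat η X c ∩ sBall (w₀ : E d) ((2 : ℝ) ^ (p + 1 + 1)))) :=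
            ENNReal.ofReal_le_ofReal hsp'
        _ = ENNReal.ofReal (θ b q (p + 1)) *
              (σ d) (flat η X c ∩ sBall (w₀ : E d) ((2 : ℝ) ^ (p + 1 + 1))) := by
            rw [ENNReal.ofReal_mul (θ_nonneg _ _ _), ofReal_measureReal]
        _ ≤ ENNReal.ofReal (θ b q (p + 1)) * (σ d) (flat η X c ∩ sBall z (6 * (2 : ℝ) ^ p)) := by
            gcongr
  · -- the trivial case: `θ = 1`
    have hθ : θ b q (p + 1) = 1 := θ_eq_one_of_le (by omega)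
    rw [hθ, ENNReal.ofReal_one, one_mul]
    apply measure_mono
    rintro w ⟨⟨hwB, _⟩, hwc⟩
    refine ⟨hwc, ?_⟩
    have h1 : ‖(w : E d) - z‖ < (2 : ℝ) ^ p := hwB
    show ‖(w : E d) - z‖ < 6 * (2 : ℝ) ^ p
    linarith

/-- The slabs partition the sphere. -/
theorem sum_flat_inter (hd : 0 < d) {η : ℝ} (X : ι → E d) {S : Set (Sphere d)}
    (hS : MeasurableSet S) :
    ∑' c : ι → ℤ, (σ d) (flat η X c ∩ S) = (σ d) S := by
  haveI := isProb_σ hd
  have hdisj : Pairwise (Function.onFun Disjoint fun c : ι → ℤ => flat η X c ∩ S) := by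
    intro c c' hcc
    refine Set.disjoint_left.mpr ?_
    rintro w ⟨hw, _⟩ ⟨hw', _⟩
    exact hcc ((hw : dat η X w = c).symm.trans hw')
  rw [← measure_iUnion hdisj (fun c => (measurableSet_flat η X c).inter hS)]
  congr 1
  ext w
  simp only [Set.mem_iUnion, Set.mem_inter_iff, exists_and_right]
  constructor
  · rintro ⟨_, h⟩; exact h
  · intro h; exact ⟨⟨dat η X w, rfl⟩, h⟩

/-- Fixing the rows, the part of the ball where the rows are good is small. -/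
theorem rows_fixed_le (hd : 0 < d) {η : ℝ} (b : ℕ) (q : ℤ) {p : ℤ} (hp : p ≤ 2)
    (U' : St' → Set (Sphere d)) (F : (ι → E d) → (ι → ℤ) → St') (z : E d) (X : ι → E d) :
    (σ d) {w | w ∈ sBall z ((2 : ℝ) ^ p) ∧ X ∈ stepEv η b q U' F w} ≤
      ENNReal.ofReal (θ b q (p + 1) * cap d (12 * (2 : ℝ) ^ p)) := by
  haveI := isProb_σ hd
  have hcover : {w | w ∈ sBall z ((2 : ℝ) ^ p) ∧ X ∈ stepEv η b q U' F w} ⊆
      ⋃ c : ι → ℤ, ({w | w ∈ sBall z ((2 : ℝ) ^ p) ∧ X ∈ stepEv η b q U' F w} ∩ flat η X c) := by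
    intro w hw
    exact Set.mem_iUnion.mpr ⟨dat η X w, hw, rfl⟩
  have hR : (0 : ℝ) ≤ 6 * (2 : ℝ) ^ p := by positivity
  calc (σ d) {w | w ∈ sBall z ((2 : ℝ) ^ p) ∧ X ∈ stepEv η b q U' F w}
      ≤ (σ d) (⋃ c : ι → ℤ, ({w | w ∈ sBall z ((2 : ℝ) ^ p) ∧ X ∈ stepEv η b q U' F w} ∩ flat η X c)) :=
        measure_mono hcover
    _ ≤ ∑' c : ι → ℤ, (σ d) ({w | w ∈ sBall z ((2 : ℝ) ^ p) ∧ X ∈ stepEv η b q U' F w} ∩ flat η X c) :=
        measure_iUnion_le _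
    _ ≤ ∑' c : ι → ℤ, ENNReal.ofReal (θ b q (p + 1)) * (σ d) (flat η X c ∩ sBall z (6 * (2 : ℝ) ^ p)) :=
        ENNReal.tsum_le_tsum fun c => slab_piece_le hd b q hp U' F z X c
    _ = ENNReal.ofReal (θ b q (p + 1)) * (σ d) (sBall z (6 * (2 : ℝ) ^ p)) := by
        rw [ENNReal.tsum_mul_left, sum_flat_inter hd X (measurableSet_sBall _ _)]
    _ = ENNReal.ofReal (θ b q (p + 1)) * ENNReal.ofReal ((σ d).real (sBall z (6 * (2 : ℝ) ^ p))) := by
        rw [ofReal_measureReal]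
    _ ≤ ENNReal.ofReal (θ b q (p + 1)) * ENNReal.ofReal (cap d (12 * (2 : ℝ) ^ p)) := by
        gcongr
        have := real_sBall_le_cap_two hd z hR
        rwa [show 2 * (6 * (2 : ℝ) ^ p) = 12 * (2 : ℝ) ^ p by ring] at this
    _ = ENNReal.ofReal (θ b q (p + 1) * cap d (12 * (2 : ℝ) ^ p)) := by
        rw [ENNReal.ofReal_mul (θ_nonneg _ _ _)]

/-- **The pulled back set has a profile, with the constant reset to `1/τ`.**
`τ σ(U_a ∩ B_R(z)) ≤ ∫_{B_R(z)} γ(stepEv w) dσ(w) = ∫ γ(dX) σ{w ∈ B_R(z) : X ∈ stepEv w}`, and for each `X`: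
`σ{w ∈ B_R(z) : X ∈ stepEv w} = ∑_c σ(B_R(z) ∩ W_c)` where `W_c` are the `w` in the slab `c` with `X ∈ stepEv w`.
If `w₀ ∈ B_R(z) ∩ W_c` then by the sparsity at `w₀` at scale `2R`,
`σ(B_R(z) ∩ W_c) ≤ σ(U' ∩ T_c ∩ B_{2R}(w₀)) ≤ θ(q, p+1) σ(T_c ∩ B_{4R}(w₀)) ≤ θ(q, p+1) σ(T_c ∩ B_{6R}(z))`
(if `q > p + 1` the bound `≤ σ(T_c ∩ B_{6R}(z))` is trivial, `θ = 1`).
The slabs partition: `∑_c σ(T_c ∩ B_{6R}(z)) = σ(B_{6R}(z)) ≤ cap(12 R)`. -/
theorem stepU_profile (hd : 0 < d) {η : ℝ} (hη : 0 < η) (b : ℕ) (q : ℤ) {τ : ℝ} (hτ : 0 < τ)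
    {U' : St' → Set (Sphere d)} (hU' : ∀ a, MeasurableSet (U' a))
    {F : (ι → E d) → (ι → ℤ) → St'} (hF : ∀ c a, MeasurableSet {X | F X c = a}) :
    Profile b q (1 / τ) (stepU η b q U' F τ) := by
  haveI := isProb_σ hd
  have hUm : MeasurableSet (stepU η b q U' F τ) := measurableSet_stepU η b q hU' hF τ
  refine ⟨hUm, ?_⟩
  intro z p hp
  set B := sBall z ((2 : ℝ) ^ p) with hB
  have hBm : MeasurableSet B := measurableSet_sBall _ _
  set S : Set (Sphere d × (ι → E d)) :=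
    {x | x.1 ∈ B} ∩ {x | x.2 ∈ stepEv η b q U' F x.1} with hS
  have hSm : MeasurableSet S :=
    (hBm.preimage measurable_fst).inter (measurableSet_stepEv_joint η b q hU' hF)
  -- the two sides of Tonelli
  have h1 : ENNReal.ofReal τ * (σ d) (stepU η b q U' F τ ∩ B) ≤ ((σ d).prod (γ d ι)) S := by
    rw [Measure.prod_apply hSm]
    calc ENNReal.ofReal τ * (σ d) (stepU η b q U' F τ ∩ B)
        = ∫⁻ _ in stepU η b q U' F τ ∩ B, ENNReal.ofReal τ ∂(σ d) := by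
          rw [setLIntegral_const]
      _ ≤ ∫⁻ w in stepU η b q U' F τ ∩ B, (γ d ι) (Prod.mk w ⁻¹' S) ∂(σ d) := by
          refine setLIntegral_mono' (hUm.inter hBm) ?_
          rintro w ⟨hw, hwB⟩
          refine le_trans hw (measure_mono ?_)
          intro X hX
          exact ⟨hwB, hX⟩
      _ ≤ ∫⁻ w, (γ d ι) (Prod.mk w ⁻¹' S) ∂(σ d) := setLIntegral_le_lintegral _ _
  have h2 : ((σ d).prod (γ d ι)) S ≤ ENNReal.ofReal (θ b q (p + 1) * cap d (12 * (2 : ℝ) ^ p)) := by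
    rw [Measure.prod_apply_symm hSm]
    calc ∫⁻ X, (σ d) ((fun w => (w, X)) ⁻¹' S) ∂(γ d ι)
        ≤ ∫⁻ _, ENNReal.ofReal (θ b q (p + 1) * cap d (12 * (2 : ℝ) ^ p)) ∂(γ d ι) := by
          refine lintegral_mono fun X => ?_
          exact rows_fixed_le hd b q hp U' F z X
      _ = ENNReal.ofReal (θ b q (p + 1) * cap d (12 * (2 : ℝ) ^ p)) := by
          rw [lintegral_const, measure_univ, mul_one]
  have h3 := h1.trans h2
  have hθc : 0 ≤ θ b q (p + 1) * cap d (12 * (2 : ℝ) ^ p) :=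
    mul_nonneg (θ_nonneg _ _ _) (cap_nonneg _ _)
  have h4 : τ * (σ d).real (stepU η b q U' F τ ∩ B) ≤ θ b q (p + 1) * cap d (12 * (2 : ℝ) ^ p) := by
    have := ENNReal.toReal_mono ENNReal.ofReal_ne_top h3
    rwa [ENNReal.toReal_mul, ENNReal.toReal_ofReal hτ.le, ENNReal.toReal_ofReal hθc] at this
  calc (σ d).real (stepU η b q U' F τ ∩ B)
      = (1 / τ) * (τ * (σ d).real (stepU η b q U' F τ ∩ B)) := by
        field_simp
    _ ≤ (1 / τ) * (θ b q (p + 1) * cap d (12 * (2 : ℝ) ^ p)) := by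
        gcongr
    _ = 1 / τ * θ b q (p + 1) * cap d (12 * (2 : ℝ) ^ p) := by ring

/-- The pointwise inequality: a signal survives the pull back, or the rows are exceptional. -/
theorem step_pointwise (hd : 0 < d) (η : ℝ) (b : ℕ) (q : ℤ) (τ : ℝ) (U' : St' → Set (Sphere d))
    (F : (ι → E d) → (ι → ℤ) → St') (w : Sphere d) :
    γ d ι {X | w ∈ U' (F X (dat η X w))} ≤
      ENNReal.ofReal τ + (stepU η b q U' F τ).indicator 1 w + γ d ι {X | (w, X) ∈ stepExc η b q U'} := by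
  have hsub : {X | w ∈ U' (F X (dat η X w))} ⊆
      stepEv η b q U' F w ∪ {X | (w, X) ∈ stepExc η b q U'} := by
    intro X hX
    by_cases hs : LocSparse b q (U' (F X (dat η X w))) (flat η X (dat η X w)) w
    · exact Or.inl ⟨hX, hs⟩
    · right
      unfold LocSparse at hs
      push Not at hs
      obtain ⟨p, hqp, hp3, hnot⟩ := hs
      exact ⟨F X (dat η X w), p, hqp, hp3, hX, hnot⟩
  have h1 : γ d ι (stepEv η b q U' F w) ≤
      ENNReal.ofReal τ + (stepU η b q U' F τ).indicator 1 w := by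
    by_cases hw : w ∈ stepU η b q U' F τ
    · rw [Set.indicator_of_mem hw]
      calc γ d ι (stepEv η b q U' F w) ≤ 1 := prob_le_one
        _ = (1 : Sphere d → ℝ≥0∞) w := rfl
        _ ≤ _ := le_add_self
    · rw [Set.indicator_of_notMem hw, add_zero]
      exact (not_le.mp hw).le
  calc γ d ι {X | w ∈ U' (F X (dat η X w))}
      ≤ γ d ι (stepEv η b q U' F w ∪ {X | (w, X) ∈ stepExc η b q U'}) := measure_mono hsub
    _ ≤ γ d ι (stepEv η b q U' F w) + γ d ι {X | (w, X) ∈ stepExc η b q U'} := measure_union_le _ _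
    _ ≤ _ := by gcongr

/-- The total measure of the exceptional pairs: union over the scales `q ≤ p ≤ 3` and the states. -/
theorem stepExc_real_le (hι : 1 ≤ Fintype.card ι) (hd : 2 ≤ d) {η : ℝ} (hη : 0 < η) {q q' : ℤ}
    (hηq : η ≤ (2 : ℝ) ^ q) {ε₁ : ℝ} (hε₁ : 0 < ε₁) {b m : ℕ} (hm : 1 ≤ m)
    (hdim : Fintype.card ι + b + m + 1 ≤ d) {Λ' : ℝ} (hΛ : 0 ≤ Λ')
    {U' : St' → Set (Sphere d)} (hU' : ∀ a, Profile b q' Λ' (U' a)) :
    ((σ d).prod (γ d ι)).real (stepExc η b q U') ≤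
      ((Finset.Icc q 3).card : ℝ) * ((1 / 2 : ℝ) ^ Fintype.card ι + ε₁ +
        (Fintype.card St' : ℝ) * (2 ^ (5 * d) *
          (2 ^ (22 * d) * Λ' * (2 : ℝ) ^ ((q' - q) * (b : ℤ)) / ε₁) ^ m)) := by
  classical
  haveI := isProb_σ (show 0 < d by omega)
  set C : ℝ := 2 ^ (5 * d) * (2 ^ (22 * d) * Λ' * (2 : ℝ) ^ ((q' - q) * (b : ℤ)) / ε₁) ^ m with hC
  -- a `Bad` set for each scale
  have hBad : ∀ p : ℤ, p ∈ Finset.Icc q 3 → ∃ Bad : Set (Sphere d × (ι → E d)),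
      ((σ d).prod (γ d ι)).real Bad ≤ (1 / 2 : ℝ) ^ Fintype.card ι + ε₁ ∧
      ∀ a, ((σ d).prod (γ d ι)).real (excAt η b q (U' a) p \ Bad) ≤ C := by
    intro p hp
    obtain ⟨hqp, hp3⟩ := Finset.mem_Icc.mp hp
    have hηp : η ≤ (2 : ℝ) ^ p :=
      hηq.trans (zpow_le_zpow_right₀ (by norm_num) hqp)
    obtain ⟨Bad, _, hB1, hB2⟩ := exception_at_scale (ι := ι) hι hd hη hp3 hηp hε₁
    exact ⟨Bad, hB1, fun a => hB2 b m q q' Λ' (U' a) hm hdim hqp hΛ (hU' a)⟩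
  choose! Bad hBad1 hBad2 using hBad
  have hsub : stepExc (ι := ι) η b q U' ⊆ ⋃ p ∈ Finset.Icc q 3,
      (Bad p ∪ ⋃ a ∈ (Finset.univ : Finset St'), (excAt η b q (U' a) p \ Bad p)) := by
    rintro x ⟨a, p, hqp, hp3, hx⟩
    refine Set.mem_iUnion₂.mpr ⟨p, Finset.mem_Icc.mpr ⟨hqp, hp3⟩, ?_⟩
    by_cases hxB : x ∈ Bad p
    · exact Or.inl hxB
    · exact Or.inr (Set.mem_iUnion₂.mpr ⟨a, Finset.mem_univ a, hx, hxB⟩)
  calc ((σ d).prod (γ d ι)).real (stepExc η b q U')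
      ≤ ((σ d).prod (γ d ι)).real (⋃ p ∈ Finset.Icc q 3,
          (Bad p ∪ ⋃ a ∈ (Finset.univ : Finset St'), (excAt η b q (U' a) p \ Bad p))) :=
        measureReal_mono hsub (measure_ne_top _ _)
    _ ≤ ∑ p ∈ Finset.Icc q 3, ((σ d).prod (γ d ι)).real
          (Bad p ∪ ⋃ a ∈ (Finset.univ : Finset St'), (excAt η b q (U' a) p \ Bad p)) :=
        measureReal_biUnion_finset_le _ _
    _ ≤ ∑ _p ∈ Finset.Icc q 3, ((1 / 2 : ℝ) ^ Fintype.card ι + ε₁ + (Fintype.card St' : ℝ) * C) := by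
        refine Finset.sum_le_sum fun p hp => ?_
        refine (measureReal_union_le _ _).trans (add_le_add (hBad1 p hp) ?_)
        refine (measureReal_biUnion_finset_le _ _).trans ?_
        calc ∑ a ∈ (Finset.univ : Finset St'), ((σ d).prod (γ d ι)).real (excAt η b q (U' a) p \ Bad p)
            ≤ ∑ _a ∈ (Finset.univ : Finset St'), C := Finset.sum_le_sum fun a _ => hBad2 p hp a
          _ = (Fintype.card St' : ℝ) * C := by simp [Finset.card_univ]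
    _ = _ := by
        rw [Finset.sum_const, nsmul_eq_mul]

end

end Crest.Agent.S0499Lib
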