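/-
S0499 package H2: the chain. A discretized machine reaching a profile set at the end
forces the accuracy scale to be coarse.  (Proved, modulo the packages it imports.)
-/
import Crest.Agent.S0499Lib.Step

set_option autoImplicit false

namespace Crest.Agent.S0499Lib

open MeasureTheory ProbabilityTheory Crest.StreamLearn
open scoped ENNReal

noncomputable section

variable {d : ℕ} {T : ℕ} {St' : Type}

/-- The rows of the block that starts at time `n₀`, of length `l`. -/
abbrev blockIdx (T n₀ l : ℕ) : Type := {t : Fin T // n₀ ≤ t.val ∧ t.val < n₀ + l}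

/-- Extend a function on the block by `0`. -/
def blockExt {α : Type*} [Zero α] {n₀ l : ℕ} (f : blockIdx T n₀ l → α) (t : Fin T) : α :=
  if h : n₀ ≤ t.val ∧ t.val < n₀ + l then f ⟨t, h⟩ else 0

/-- The transition of a block, as a function of the rows and the cells of that block. -/
def blockF (tr : Fin T → St' → E d → ℤ → St') (n₀ l : ℕ) (a : St') (X : blockIdx T n₀ l → E d)
    (c : blockIdx T n₀ l → ℤ) : St' :=
  seg tr n₀ l a (blockExt X) (blockExt c)

/-- `seg` only reads the rows and cells inside its block. -/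
theorem seg_congr (tr : Fin T → St' → E d → ℤ → St') (n₀ l : ℕ) (a : St') {X X' : Fin T → E d}
    {c c' : Fin T → ℤ} (hX : ∀ t : Fin T, n₀ ≤ t.val → t.val < n₀ + l → X t = X' t)
    (hc : ∀ t : Fin T, n₀ ≤ t.val → t.val < n₀ + l → c t = c' t) :
    seg tr n₀ l a X c = seg tr n₀ l a X' c' := by
  induction l with
  | zero => rfl
  | succ l ih =>
    simp only [seg]
    rw [ih (fun t h1 h2 => hX t h1 (by omega)) (fun t h1 h2 => hc t h1 (by omega))]
    unfold stepAt
    split_ifs with h
    · rw [hX ⟨n₀ + l, h⟩ (by simp) (by simp), hc ⟨n₀ + l, h⟩ (by simp) (by simp)]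
    · rfl

theorem seg_add (tr : Fin T → St' → E d → ℤ → St') (n₀ l₁ l₂ : ℕ) (a : St') (X : Fin T → E d)
    (c : Fin T → ℤ) :
    seg tr n₀ (l₁ + l₂) a X c = seg tr (n₀ + l₁) l₂ (seg tr n₀ l₁ a X c) X c := by
  induction l₂ with
  | zero => rfl
  | succ l₂ ih =>
    rw [← add_assoc]
    simp only [seg]
    rw [ih, add_assoc]

/-- measurability of `seg` in the rows, cells fixed. -/
theorem measurableSet_seg [Countable St'] (tr : Fin T → St' → E d → ℤ → St')
    (htr : ∀ t q c q', MeasurableSet {x | tr t q x c = q'}) (n₀ l : ℕ) (a : St')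
    (c : Fin T → ℤ) (a' : St') :
    MeasurableSet {X : Fin T → E d | seg tr n₀ l a X c = a'} := by
  induction l generalizing a' with
  | zero =>
    by_cases h : a = a'
    · simp [seg, h]
    · simp [seg, h]
  | succ l ih =>
    have : {X : Fin T → E d | seg tr n₀ (l + 1) a X c = a'} =
        ⋃ a'' : St', {X | seg tr n₀ l a X c = a''} ∩
          {X | stepAt tr (n₀ + l) a'' X c = a'} := by
      ext X
      simp [seg]
    rw [this]
    refine MeasurableSet.iUnion fun a'' => (ih a'').inter ?_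
    unfold stepAt
    by_cases h : n₀ + l < T
    · simp only [h, dif_pos]
      have h1 : Measurable fun X : Fin T → E d => X ⟨n₀ + l, h⟩ := measurable_pi_apply _
      exact h1 (htr _ _ _ _)
    · by_cases h' : a'' = a'
      · simp [h, h']
      · simp [h, h']

theorem measurable_blockExt {n₀ l : ℕ} :
    Measurable (blockExt (T := T) (n₀ := n₀) (l := l) (α := E d)) := by
  refine measurable_pi_iff.mpr fun t => ?_
  unfold blockExt
  by_cases h : n₀ ≤ t.val ∧ t.val < n₀ + l
  · simp only [h, and_self, dif_pos]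
    exact measurable_pi_apply _
  · simp only [h, dif_neg, not_false_eq_true]
    exact measurable_const

theorem blockF_measurable [Countable St'] (tr : Fin T → St' → E d → ℤ → St')
    (htr : ∀ t q c q', MeasurableSet {x | tr t q x c = q'}) (n₀ l : ℕ) (a : St')
    (c : blockIdx T n₀ l → ℤ) (a' : St') :
    MeasurableSet {X : blockIdx T n₀ l → E d | blockF tr n₀ l a X c = a'} :=
  measurable_blockExt (measurableSet_seg tr htr n₀ l a (blockExt c) a')

/-- `dRun` is measurable jointly. -/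
theorem measurableSet_dRun [Countable St'] (tr : Fin T → St' → E d → ℤ → St')
    (htr : ∀ t q c q', MeasurableSet {x | tr t q x c = q'}) (init : St') (η : ℝ) (n : ℕ) (a : St') :
    MeasurableSet {x : Sphere d × (Fin T → E d) | dRun tr init η n x.1 x.2 = a} := by
  induction n generalizing a with
  | zero =>
    by_cases h : init = a
    · simp [dRun, seg, h]
    · simp [dRun, seg, h]
  | succ n ih =>
    have : {x : Sphere d × (Fin T → E d) | dRun tr init η (n + 1) x.1 x.2 = a} =
        ⋃ a'' : St', {x | dRun tr init η n x.1 x.2 = a''} ∩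
          {x | stepAt tr n a'' x.2 (dat η x.2 x.1) = a} := by
      ext x
      simp [dRun, seg]
    rw [this]
    refine MeasurableSet.iUnion fun a'' => (ih a'').inter ?_
    unfold stepAt
    by_cases h : n < T
    · simp only [h, dif_pos]
      have : {x : Sphere d × (Fin T → E d) |
            tr ⟨n, h⟩ a'' (x.2 ⟨n, h⟩) (dat η x.2 x.1 ⟨n, h⟩) = a} =
          ⋃ c : ℤ, {x | dat η x.2 x.1 ⟨n, h⟩ = c} ∩ {x | tr ⟨n, h⟩ a'' (x.2 ⟨n, h⟩) c = a} := by
        ext x
        simp
      rw [this]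
      refine MeasurableSet.iUnion fun c => MeasurableSet.inter ?_ ?_
      · have hm : Measurable fun x : Sphere d × (Fin T → E d) => dat η x.2 x.1 ⟨n, h⟩ := by
          unfold dat cell
          refine Int.measurable_floor.comp (Measurable.div_const ?_ _)
          have h1 : Measurable fun x : Sphere d × (Fin T → E d) => x.2 ⟨n, h⟩ :=
            (measurable_pi_apply _).comp measurable_snd
          have h2 : Measurable fun x : Sphere d × (Fin T → E d) => ((x.1 : Sphere d) : E d) :=
            measurable_subtype_coe.comp measurable_fst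
          exact h1.inner h2
        exact hm (measurableSet_singleton c)
      · have h1 : Measurable fun x : Sphere d × (Fin T → E d) => x.2 ⟨n, h⟩ :=
            (measurable_pi_apply _).comp measurable_snd
        exact h1 (htr _ _ _ _)
    · by_cases h' : a'' = a
      · simp [h, h']
      · simp [h, h']

/-- Splitting the rows in the rows of a block and the other ones. -/
theorem gamma_split (p : Fin T → Prop) [DecidablePred p] {S : Set (Fin T → E d)}
    (hS : MeasurableSet S) :
    γ d (Fin T) S = ∫⁻ Y, γ d {t // p t}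
        {Xb | (MeasurableEquiv.piEquivPiSubtypeProd (fun _ : Fin T => E d) p).symm (Xb, Y) ∈ S}
        ∂(γ d {t // ¬ p t}) := by
  have hmp := measurePreserving_piEquivPiSubtypeProd (fun _ : Fin T => stdGaussian (E d)) p
  have h1 : γ d (Fin T) S = ((γ d {t // p t}).prod (γ d {t // ¬ p t}))
      ((MeasurableEquiv.piEquivPiSubtypeProd (fun _ : Fin T => E d) p).symm ⁻¹' S) := by
    rw [← hmp.measure_preimage_equiv]
    congr 1
    ext X
    simp
  rw [h1, Measure.prod_apply_symm ((MeasurableEquiv.piEquivPiSubtypeProd _ p).symm.measurable hS)]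
  rfl

theorem card_blockIdx {n₀ l : ℕ} (h : n₀ + l ≤ T) : Fintype.card (blockIdx T n₀ l) = l := by
  have : Fintype.card (blockIdx T n₀ l) =
      (Finset.univ.filter fun t : Fin T => n₀ ≤ t.val ∧ t.val < n₀ + l).card :=
    Fintype.card_subtype _
  rw [this]
  have : (Finset.univ.filter fun t : Fin T => n₀ ≤ t.val ∧ t.val < n₀ + l).card =
      (Finset.Ico n₀ (n₀ + l)).card := by
    refine Finset.card_bij (fun t _ => t.val) ?_ ?_ ?_
    · intro t ht
      simpa using ht
    · intro t _ t' _ h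
      exact Fin.ext h
    · intro j hj
      simp only [Finset.mem_Ico] at hj
      exact ⟨⟨j, by omega⟩, by simpa using hj, rfl⟩
  rw [this]
  simp

/-- **Integrated step.** Let `Ub` be the pull back, by the block `[n₀, n₀ + l)`, of the family `U'`.
Then the probability of being in `U'` after the block is at most `τ` + the probability of being in
the pull back before the block + the probability of an exception in the block. -/
theorem integrated_step [Fintype St'] (hd : 0 < d) (tr : Fin T → St' → E d → ℤ → St')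
    (htr : ∀ t q c q', MeasurableSet {x | tr t q x c = q'}) (init : St') (η : ℝ) (n₀ l : ℕ)
    (b : ℕ) (q : ℤ) {τ : ℝ} (hτ : 0 ≤ τ) {U' : St' → Set (Sphere d)} (hU' : ∀ a, MeasurableSet (U' a)) :
    ((σ d).prod (γ d (Fin T))).real {x | x.1 ∈ U' (dRun tr init η (n₀ + l) x.1 x.2)} ≤
      τ + ((σ d).prod (γ d (Fin T))).real
          {x | x.1 ∈ stepU η b q U' (blockF tr n₀ l (dRun tr init η n₀ x.1 x.2)) τ} +
        ((σ d).prod (γ d (blockIdx T n₀ l))).real (stepExc η b q U') := by
  have := isProb_σ hd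
  set p : Fin T → Prop := fun t => n₀ ≤ t.val ∧ t.val < n₀ + l with hp
  let glue : (blockIdx T n₀ l → E d) → ({t // ¬ p t} → E d) → (Fin T → E d) := fun Xb Y =>
    (MeasurableEquiv.piEquivPiSubtypeProd (fun _ : Fin T => E d) p).symm (Xb, Y)
  have hglue_in : ∀ Xb Y (t : Fin T) (h : p t), glue Xb Y t = Xb ⟨t, h⟩ := by
    intro Xb Y t h
    simp [glue, MeasurableEquiv.piEquivPiSubtypeProd, Equiv.piEquivPiSubtypeProd, h]
  have hglue_out : ∀ Xb Y (t : Fin T) (h : ¬ p t), glue Xb Y t = Y ⟨t, h⟩ := by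
    intro Xb Y t h
    simp [glue, MeasurableEquiv.piEquivPiSubtypeProd, Equiv.piEquivPiSubtypeProd, h]
  have hrun0 : ∀ (s : Sphere d) Xb Y, dRun tr init η n₀ s (glue Xb Y) =
      dRun tr init η n₀ s (glue 0 Y) := by
    intro s Xb Y
    unfold dRun
    refine seg_congr tr 0 n₀ init ?_ ?_
    · intro t _ h2
      have : ¬ p t := by
        simp only [hp, not_and]
        intro h3
        omega
      rw [hglue_out _ _ _ this, hglue_out _ _ _ this]
    · intro t _ h2
      have : ¬ p t := by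
        simp only [hp, not_and]
        intro h3
        omega
      simp only [dat]
      rw [hglue_out _ _ _ this, hglue_out _ _ _ this]
  have hrun : ∀ (s : Sphere d) Xb Y, dRun tr init η (n₀ + l) s (glue Xb Y) =
      blockF tr n₀ l (dRun tr init η n₀ s (glue 0 Y)) Xb (dat η Xb s) := by
    intro s Xb Y
    rw [← hrun0 s Xb Y]
    unfold dRun blockF
    rw [seg_add tr 0 n₀ l init, zero_add]
    refine seg_congr tr n₀ l _ ?_ ?_
    · intro t h1 h2
      have : p t := ⟨h1, h2⟩
      rw [hglue_in _ _ _ this]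
      simp [blockExt, h1, h2]
    · intro t h1 h2
      have : p t := ⟨h1, h2⟩
      simp only [dat]
      rw [hglue_in _ _ _ this]
      simp [blockExt, h1, h2, dat]
  -- measurability
  have hm1 : MeasurableSet {x : Sphere d × (Fin T → E d) | x.1 ∈ U' (dRun tr init η (n₀ + l) x.1 x.2)} := by
    have : {x : Sphere d × (Fin T → E d) | x.1 ∈ U' (dRun tr init η (n₀ + l) x.1 x.2)} =
        ⋃ a, {x | dRun tr init η (n₀ + l) x.1 x.2 = a} ∩ (Prod.fst ⁻¹' (U' a)) := by
      ext x
      simp
    rw [this]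
    exact MeasurableSet.iUnion fun a =>
      (measurableSet_dRun tr htr init η _ a).inter (measurable_fst (hU' a))
  have hF : ∀ a, ∀ c a', MeasurableSet {X | blockF tr n₀ l a X c = a'} :=
    fun a c a' => blockF_measurable tr htr n₀ l a c a'
  have hm2 : MeasurableSet {x : Sphere d × (Fin T → E d) |
      x.1 ∈ stepU η b q U' (blockF tr n₀ l (dRun tr init η n₀ x.1 x.2)) τ} := by
    have : {x : Sphere d × (Fin T → E d) |
        x.1 ∈ stepU η b q U' (blockF tr n₀ l (dRun tr init η n₀ x.1 x.2)) τ} =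
        ⋃ a, {x | dRun tr init η n₀ x.1 x.2 = a} ∩
          (Prod.fst ⁻¹' (stepU η b q U' (blockF tr n₀ l a) τ)) := by
      ext x
      simp
    rw [this]
    exact MeasurableSet.iUnion fun a =>
      (measurableSet_dRun tr htr init η _ a).inter
        (measurable_fst (measurableSet_stepU η b q hU' (hF a) τ))
  have hm3 : MeasurableSet (stepExc (ι := blockIdx T n₀ l) η b q U') :=
    measurableSet_stepExc η b q hU'
  -- sectionwise inequality
  have hsec : ∀ s : Sphere d,
      γ d (Fin T) (Prod.mk s ⁻¹' {x : Sphere d × (Fin T → E d) | x.1 ∈ U' (dRun tr init η (n₀ + l) x.1 x.2)}) ≤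
      ENNReal.ofReal τ + γ d (Fin T) (Prod.mk s ⁻¹' {x : Sphere d × (Fin T → E d) |
        x.1 ∈ stepU η b q U' (blockF tr n₀ l (dRun tr init η n₀ x.1 x.2)) τ}) +
      γ d (blockIdx T n₀ l) (Prod.mk s ⁻¹' (stepExc η b q U')) := by
    intro s
    have hs1 := measurable_prodMk_left (x := s) hm1
    have hs2 := measurable_prodMk_left (x := s) hm2
    rw [gamma_split p hs1, gamma_split p hs2]
    have key : ∀ Y : {t // ¬ p t} → E d,
        γ d {t // p t} {Xb | (MeasurableEquiv.piEquivPiSubtypeProd (fun _ : Fin T => E d) p).symm (Xb, Y) ∈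
            Prod.mk s ⁻¹' {x : Sphere d × (Fin T → E d) | x.1 ∈ U' (dRun tr init η (n₀ + l) x.1 x.2)}} ≤
        γ d {t // p t} {Xb | (MeasurableEquiv.piEquivPiSubtypeProd (fun _ : Fin T => E d) p).symm (Xb, Y) ∈
            Prod.mk s ⁻¹' {x : Sphere d × (Fin T → E d) |
              x.1 ∈ stepU η b q U' (blockF tr n₀ l (dRun tr init η n₀ x.1 x.2)) τ}} +
          (γ d (blockIdx T n₀ l) (Prod.mk s ⁻¹' (stepExc η b q U')) + ENNReal.ofReal τ) := by
      intro Y
      have h1 := step_pointwise hd η b q τ U' (blockF tr n₀ l (dRun tr init η n₀ s (glue 0 Y))) s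
      have e1 : {Xb | (MeasurableEquiv.piEquivPiSubtypeProd (fun _ : Fin T => E d) p).symm (Xb, Y) ∈
            Prod.mk s ⁻¹' {x : Sphere d × (Fin T → E d) | x.1 ∈ U' (dRun tr init η (n₀ + l) x.1 x.2)}} =
          {Xb : blockIdx T n₀ l → E d | s ∈ U' (blockF tr n₀ l (dRun tr init η n₀ s (glue 0 Y)) Xb (dat η Xb s))} := by
        ext Xb
        change s ∈ U' (dRun tr init η (n₀ + l) s (glue Xb Y)) ↔ _
        rw [hrun s Xb Y]
        exact Iff.rfl
      have e2 : γ d {t // p t} {Xb | (MeasurableEquiv.piEquivPiSubtypeProd (fun _ : Fin T => E d) p).symm (Xb, Y) ∈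
            Prod.mk s ⁻¹' {x : Sphere d × (Fin T → E d) |
              x.1 ∈ stepU η b q U' (blockF tr n₀ l (dRun tr init η n₀ x.1 x.2)) τ}} =
          (stepU η b q U' (blockF tr n₀ l (dRun tr init η n₀ s (glue 0 Y))) τ).indicator 1 s := by
        have : {Xb : blockIdx T n₀ l → E d | (MeasurableEquiv.piEquivPiSubtypeProd (fun _ : Fin T => E d) p).symm (Xb, Y) ∈
            Prod.mk s ⁻¹' {x : Sphere d × (Fin T → E d) |
              x.1 ∈ stepU η b q U' (blockF tr n₀ l (dRun tr init η n₀ x.1 x.2)) τ}} =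
            {Xb | s ∈ stepU η b q U' (blockF tr n₀ l (dRun tr init η n₀ s (glue 0 Y))) τ} := by
          ext Xb
          change s ∈ stepU η b q U' (blockF tr n₀ l (dRun tr init η n₀ s (glue Xb Y))) τ ↔ _
          rw [hrun0 s Xb Y]
          exact Iff.rfl
        rw [this]
        by_cases hs : s ∈ stepU η b q U' (blockF tr n₀ l (dRun tr init η n₀ s (glue 0 Y))) τ
        · simp [hs]
        · simp [hs]
      rw [e1, e2]
      calc _ ≤ _ := h1
        _ = _ := by
          rw [show {X : blockIdx T n₀ l → E d | (s, X) ∈ stepExc η b q U'} =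
            Prod.mk s ⁻¹' (stepExc η b q U') from rfl]
          ring
    calc _ ≤ ∫⁻ Y, (γ d {t // p t} {Xb | (MeasurableEquiv.piEquivPiSubtypeProd (fun _ : Fin T => E d) p).symm (Xb, Y) ∈
            Prod.mk s ⁻¹' {x : Sphere d × (Fin T → E d) |
              x.1 ∈ stepU η b q U' (blockF tr n₀ l (dRun tr init η n₀ x.1 x.2)) τ}} +
          (γ d (blockIdx T n₀ l) (Prod.mk s ⁻¹' (stepExc η b q U')) + ENNReal.ofReal τ)) ∂(γ d {t // ¬ p t}) :=
            lintegral_mono key
      _ = _ := by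
        rw [lintegral_add_right _ measurable_const, lintegral_const, measure_univ, mul_one]
        ring
  -- integrate over `s`
  have hP : ((σ d).prod (γ d (Fin T))) {x | x.1 ∈ U' (dRun tr init η (n₀ + l) x.1 x.2)} ≤
      ENNReal.ofReal τ + ((σ d).prod (γ d (Fin T)))
          {x | x.1 ∈ stepU η b q U' (blockF tr n₀ l (dRun tr init η n₀ x.1 x.2)) τ} +
        ((σ d).prod (γ d (blockIdx T n₀ l))) (stepExc η b q U') := by
    rw [Measure.prod_apply hm1, Measure.prod_apply hm2, Measure.prod_apply hm3]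
    calc _ ≤ ∫⁻ s, (ENNReal.ofReal τ + γ d (Fin T) (Prod.mk s ⁻¹' {x : Sphere d × (Fin T → E d) |
        x.1 ∈ stepU η b q U' (blockF tr n₀ l (dRun tr init η n₀ x.1 x.2)) τ}) +
      γ d (blockIdx T n₀ l) (Prod.mk s ⁻¹' (stepExc η b q U'))) ∂(σ d) := lintegral_mono hsec
      _ = _ := by
        rw [lintegral_add_right _ (measurable_measure_prodMk_left hm3),
          lintegral_add_left measurable_const, lintegral_const, measure_univ, mul_one]
  have hfin : ∀ A, ((σ d).prod (γ d (Fin T))) A ≠ ⊤ := fun A => measure_ne_top _ _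
  have hfin' : ∀ A, ((σ d).prod (γ d (blockIdx T n₀ l))) A ≠ ⊤ := fun A => measure_ne_top _ _
  have := ENNReal.toReal_mono (by
    exact ENNReal.add_ne_top.mpr ⟨ENNReal.add_ne_top.mpr ⟨ENNReal.ofReal_ne_top, hfin _⟩, hfin' _⟩) hP
  rw [ENNReal.toReal_add (ENNReal.add_ne_top.mpr ⟨ENNReal.ofReal_ne_top, hfin _⟩) (hfin' _),
    ENNReal.toReal_add ENNReal.ofReal_ne_top (hfin _), ENNReal.toReal_ofReal hτ] at this
  exact this

theorem Profile.mono_const {b : ℕ} {q : ℤ} {Λ Λ' : ℝ} (h : Λ ≤ Λ') {U : Set (Sphere d)}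
    (hU : Profile b q Λ U) : Profile b q Λ' U := by
  refine ⟨hU.meas, fun z p hp => (hU.bound z p hp).trans ?_⟩
  exact mul_le_mul_of_nonneg_right (mul_le_mul_of_nonneg_right h (θ_nonneg _ _ _)) (cap_nonneg _ _)

/-- The family of pull backs. -/
def pullV (tr : Fin T → St' → E d → ℤ → St') (η : ℝ) (n : ℕ → ℕ) (K b Δ : ℕ) (q₀ : ℤ)
    (Utop : St' → Set (Sphere d)) : ℕ → St' → Set (Sphere d)
  | 0 => Utop
  | i + 1 => fun a => stepU η b (q₀ + ((i : ℤ) + 1) * Δ) (pullV tr η n K b Δ q₀ Utop i)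
      (blockF tr (n (K - i - 1)) (n (K - i) - n (K - i - 1)) a) ((2 : ℝ) ^ (-(i : ℤ) - 3))

theorem sBall_zero_four : sBall (0 : E d) ((2 : ℝ) ^ (2 : ℤ)) = Set.univ := by
  ext w
  simp only [sBall, Set.mem_setOf_eq, Set.mem_univ, iff_true, sub_zero]
  have : ‖(w : E d)‖ = 1 := by simpa using w.2
  rw [this]
  norm_num

/-- **The chain.** -/
theorem chain [Fintype St'] (hd : 2 ≤ d) (tr : Fin T → St' → E d → ℤ → St')
    (htr : ∀ t q c q', MeasurableSet {x | tr t q x c = q'}) (init : St') {η : ℝ} (hη : 0 < η)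
    {K : ℕ} (n : ℕ → ℕ) (hn0 : n 0 = 0) (hnK : n K = T) {ℓ kmax : ℕ} (hℓ : 1 ≤ ℓ)
    (hsz : ∀ j < K, n j + ℓ ≤ n (j + 1) ∧ n (j + 1) ≤ n j + kmax)
    {b m : ℕ} (hm : 1 ≤ m) (hdim : kmax + b + m + 1 ≤ d) {Δ : ℕ} {q₀ : ℤ} (hηq : η ≤ (2 : ℝ) ^ q₀)
    {Pm : ℝ} (hPm : 0 < Pm) (hP : ∀ i < K, (((Finset.Icc (q₀ + ((i : ℤ) + 1) * Δ) 3).card : ℕ) : ℝ) ≤ Pm)
    (hnum1 : ∀ i < K, Pm * (1 / 2 : ℝ) ^ ℓ ≤ (2 : ℝ) ^ (-(i : ℤ) - 5))
    (hnum2 : ∀ i < K, Pm * ((Fintype.card St' : ℝ) * (2 ^ (5 * d) *
      (2 ^ (22 * d) * (2 : ℝ) ^ (i + 2) * (2 : ℝ) ^ (-((Δ : ℤ) * (b : ℤ))) * ((2 : ℝ) ^ (i + 5) * Pm)) ^ m)) ≤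
        (2 : ℝ) ^ (-(i : ℤ) - 5))
    (hb : 2 * K + 3 < b)
    {Utop : St' → Set (Sphere d)} (htop : ∀ a, Profile b q₀ 1 (Utop a))
    (hsucc : (1 / 2 : ℝ) ≤ ((σ d).prod (γ d (Fin T))).real
      {x | x.1 ∈ Utop (dRun tr init η T x.1 x.2)}) :
    3 ≤ q₀ + (K : ℤ) * Δ := by
  have hd0 : 0 < d := by omega
  have := isProb_σ hd0
  have hnT : ∀ i ≤ K, n (K - i) ≤ T := by
    intro i
    induction i with
    | zero => intro _; simp [hnK]
    | succ i ih =>
      intro hi
      have h1 := ih (by omega)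
      have h2 := hsz (K - i - 1) (by omega)
      have h3 : K - i - 1 + 1 = K - i := by omega
      rw [h3] at h2
      have h4 : K - (i + 1) = K - i - 1 := by omega
      rw [h4]
      omega
  set V := pullV tr η n K b Δ q₀ Utop with hV
  have claim : ∀ i ≤ K, (∀ a, Profile b (q₀ + (i : ℤ) * Δ) ((2 : ℝ) ^ (i + 2)) (V i a)) ∧
      (2 : ℝ) ^ (-(i : ℤ) - 1) ≤ ((σ d).prod (γ d (Fin T))).real
        {x | x.1 ∈ V i (dRun tr init η (n (K - i)) x.1 x.2)} := by
    intro i
    induction i with
    | zero =>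
      intro _
      constructor
      · intro a
        have : q₀ + ((0 : ℕ) : ℤ) * Δ = q₀ := by simp
        rw [this]
        exact (htop a).mono_const (by norm_num)
      · simp only [Nat.sub_zero, hnK]
        norm_num
        norm_num at hsucc
        exact hsucc
    | succ i ih =>
      intro hi
      obtain ⟨ih1, ih2⟩ := ih (by omega)
      have hiK : i < K := by omega
      have hj : K - i - 1 + 1 = K - i := by omega
      have hsz' := hsz (K - i - 1) (by omega)
      rw [hj] at hsz'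
      set n₀ := n (K - i - 1) with hn₀
      set l := n (K - i) - n₀ with hl
      have hnl : n₀ + l = n (K - i) := by omega
      have hlT : n₀ + l ≤ T := by rw [hnl]; exact hnT i (by omega)
      have hlℓ : ℓ ≤ l := by omega
      have hlk : l ≤ kmax := by omega
      have hcard : Fintype.card (blockIdx T n₀ l) = l := card_blockIdx hlT
      set τ : ℝ := (2 : ℝ) ^ (-(i : ℤ) - 3) with hτ
      have hτpos : 0 < τ := by positivity
      have hq_eq : q₀ + (((i + 1 : ℕ) : ℤ)) * Δ = q₀ + ((i : ℤ) + 1) * Δ := by push_cast; ring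
      have hV_succ : ∀ a, V (i + 1) a = stepU η b (q₀ + ((i : ℤ) + 1) * Δ) (V i)
          (blockF tr n₀ l a) τ := fun a => rfl
      constructor
      · intro a
        rw [hq_eq, hV_succ a]
        have hprof := stepU_profile hd0 hη b (q₀ + ((i : ℤ) + 1) * Δ) hτpos
          (fun a => (ih1 a).meas) (fun c a' => blockF_measurable tr htr n₀ l a c a')
        have hval : 1 / τ = (2 : ℝ) ^ (i + 1 + 2) := by
          rw [hτ, one_div, ← zpow_neg, ← zpow_natCast]
          congr 1
          push_cast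
          ring
        rwa [hval] at hprof
      · -- the measure estimate
        have hstep := integrated_step hd0 tr htr init η n₀ l b (q₀ + ((i : ℤ) + 1) * Δ) hτpos.le
          (fun a => (ih1 a).meas)
        have hrunset : {x : Sphere d × (Fin T → E d) | x.1 ∈ V i (dRun tr init η (n₀ + l) x.1 x.2)} =
            {x | x.1 ∈ V i (dRun tr init η (n (K - i)) x.1 x.2)} := by rw [hnl]
        rw [hrunset] at hstep
        have hex := stepExc_real_le (ι := blockIdx T n₀ l) (St' := St') (η := η)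
          (q := q₀ + ((i : ℤ) + 1) * Δ) (q' := q₀ + (i : ℤ) * Δ)
          (ε₁ := (2 : ℝ) ^ (-(i : ℤ) - 5) / Pm) (b := b) (m := m)
          (Λ' := (2 : ℝ) ^ (i + 2)) (U' := V i)
          (by omega) hd hη
          (hηq.trans (zpow_le_zpow_right₀ (by norm_num) (by nlinarith [Int.natCast_nonneg Δ, Int.natCast_nonneg i])))
          (by positivity) hm (by omega) (by positivity) ih1
        rw [hcard] at hex
        set x : ℝ := (2 : ℝ) ^ (-(i : ℤ) - 5) with hx
        have hxpos : 0 < x := by positivity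
        have hβ : (2 : ℝ) ^ (-(i : ℤ) - 1) = 16 * x := by
          rw [hx, show (-(i : ℤ) - 1) = (-(i : ℤ) - 5) + 4 by ring, zpow_add₀ two_ne_zero]
          norm_num
          ring
        have hτx : τ = 4 * x := by
          rw [hτ, hx, show (-(i : ℤ) - 3) = (-(i : ℤ) - 5) + 2 by ring, zpow_add₀ two_ne_zero]
          norm_num
          ring
        have hβ' : (2 : ℝ) ^ (-(((i + 1 : ℕ) : ℤ)) - 1) = 8 * x := by
          rw [hx, show (-(((i + 1 : ℕ) : ℤ)) - 1) = (-(i : ℤ) - 5) + 3 by push_cast; ring,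
            zpow_add₀ two_ne_zero]
          norm_num
          ring
        have hexp : (q₀ + (i : ℤ) * Δ - (q₀ + ((i : ℤ) + 1) * Δ)) * (b : ℤ) = -((Δ : ℤ) * (b : ℤ)) := by
          ring
        rw [hexp] at hex
        have hinv : (2 : ℝ) ^ (i + 2) * (2 : ℝ) ^ (-((Δ : ℤ) * (b : ℤ))) ≠ 0 := by positivity
        have hdiv : (2 : ℝ) ^ (22 * d) * (2 : ℝ) ^ (i + 2) * (2 : ℝ) ^ (-((Δ : ℤ) * (b : ℤ))) / (x / Pm) =
            (2 : ℝ) ^ (22 * d) * (2 : ℝ) ^ (i + 2) * (2 : ℝ) ^ (-((Δ : ℤ) * (b : ℤ))) *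
              ((2 : ℝ) ^ (i + 5) * Pm) := by
          have hx' : x⁻¹ = (2 : ℝ) ^ (i + 5) := by
            rw [hx, ← zpow_neg, ← zpow_natCast]
            congr 1
            push_cast
            ring
          have h5 : (x / Pm)⁻¹ = (2 : ℝ) ^ (i + 5) * Pm := by
            rw [inv_div, div_eq_mul_inv, hx', mul_comm]
          rw [div_eq_mul_inv, h5]
        rw [hdiv] at hex
        have hpow : (1 / 2 : ℝ) ^ l ≤ (1 / 2 : ℝ) ^ ℓ :=
          pow_le_pow_of_le_one (by norm_num) (by norm_num) hlℓ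
        have hEnn : 0 ≤ (1 / 2 : ℝ) ^ l + x / Pm + (Fintype.card St' : ℝ) * (2 ^ (5 * d) *
            (2 ^ (22 * d) * (2 : ℝ) ^ (i + 2) * (2 : ℝ) ^ (-((Δ : ℤ) * (b : ℤ))) *
              ((2 : ℝ) ^ (i + 5) * Pm)) ^ m) := by positivity
        have hPi := hP i hiK
        have hQ : ((σ d).prod (γ d (blockIdx T n₀ l))).real (stepExc η b (q₀ + ((i : ℤ) + 1) * Δ) (V i)) ≤
            3 * x := by
          refine hex.trans ((mul_le_mul_of_nonneg_right hPi hEnn).trans ?_)
          have h1 := hnum1 i hiK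
          have h2 := hnum2 i hiK
          have h3 : Pm * (x / Pm) = x := by field_simp
          have h4 : Pm * (1 / 2 : ℝ) ^ l ≤ x := (mul_le_mul_of_nonneg_left hpow hPm.le).trans h1
          nlinarith [h1, h2, h3, h4]
        have hset : {x_1 : Sphere d × (Fin T → E d) | x_1.1 ∈ V (i + 1) (dRun tr init η (n (K - (i + 1))) x_1.1 x_1.2)} =
            {x_1 | x_1.1 ∈ stepU η b (q₀ + ((i : ℤ) + 1) * Δ) (V i)
              (blockF tr n₀ l (dRun tr init η n₀ x_1.1 x_1.2)) τ} := by
          have : K - (i + 1) = K - i - 1 := by omega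
          rw [this]
          rfl
        rw [hset, hβ']
        rw [hβ] at ih2
        linarith
  obtain ⟨h1, h2⟩ := claim K le_rfl
  by_contra hcon
  have hlt : q₀ + (K : ℤ) * Δ ≤ 2 := by omega
  have hset : {x : Sphere d × (Fin T → E d) | x.1 ∈ V K (dRun tr init η (n (K - K)) x.1 x.2)} =
      V K init ×ˢ Set.univ := by
    ext x
    simp only [Nat.sub_self, hn0, dRun, seg, Set.mem_setOf_eq, Set.mem_prod, Set.mem_univ, and_true]
  rw [hset] at h2
  have h3 : ((σ d).prod (γ d (Fin T))).real (V K init ×ˢ Set.univ) = (σ d).real (V K init) := by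
    simp [Measure.real, Measure.prod_prod]
  rw [h3] at h2
  have h4 := (h1 init).bound 0 2 le_rfl
  rw [sBall_zero_four, Set.inter_univ] at h4
  have h5 : cap d (12 * (2 : ℝ) ^ (2 : ℤ)) ≤ 1 := cap_le_one hd0 _
  have h6 : θ b (q₀ + (K : ℤ) * Δ) (2 + 1) ≤ (2 : ℝ) ^ (-(b : ℤ)) := by
    unfold θ
    refine (min_le_right _ _).trans (zpow_le_zpow_right₀ (by norm_num) ?_)
    have : (0 : ℤ) ≤ b := Int.natCast_nonneg b
    nlinarith
  have h7 : (2 : ℝ) ^ (-(K : ℤ) - 1) ≤ (2 : ℝ) ^ (K + 2) * (2 : ℝ) ^ (-(b : ℤ)) := by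
    calc _ ≤ _ := h2
      _ ≤ _ := h4
      _ ≤ (2 : ℝ) ^ (K + 2) * (2 : ℝ) ^ (-(b : ℤ)) * 1 := by
        refine mul_le_mul (mul_le_mul_of_nonneg_left h6 (by positivity)) h5 (cap_nonneg _ _) (by positivity)
      _ = _ := mul_one _
  rw [← zpow_natCast, ← zpow_add₀ two_ne_zero,
    zpow_le_zpow_iff_right₀ (by norm_num)] at h7
  push_cast at h7
  omega

end

end Crest.Agent.S0499Lib
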