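/-
S0499 package H1b: approximation of a measurable map by one reading only a dyadic cell in
the second variable.
-/
import Crest.Agent.S0499Lib.Defs

set_option autoImplicit false

namespace Crest.Agent.S0499Lib

open MeasureTheory ProbabilityTheory Crest.StreamLearn Filter Topology
open scoped ENNReal symmDiff

noncomputable section

variable {d : ℕ}

theorem cell_two_pow (n : ℕ) (y : ℝ) : cell ((2 : ℝ) ^ (-(n : ℤ))) y = ⌊(2 : ℝ) ^ n * y⌋ := by
  unfold cell
  congr 1
  rw [zpow_neg, zpow_natCast, div_inv_eq_mul, mul_comm]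

/-- The dyadic reading map. -/
def gn (n : ℕ) (p : E d × ℝ) : E d × ℤ := (p.1, ⌊(2 : ℝ) ^ n * p.2⌋)

theorem measurable_gn (n : ℕ) : Measurable (gn (d := d) n) := by
  unfold gn
  refine measurable_fst.prodMk ?_
  exact Int.measurable_floor.comp (measurable_const.mul measurable_snd)

/-- The sets readable at level `n`. -/
def levelSets (n : ℕ) : Set (Set (E d × ℝ)) :=
  {t | ∃ C : Set (E d × ℤ), MeasurableSet C ∧ t = gn n ⁻¹' C}

theorem gn_eq_succ (n : ℕ) (p : E d × ℝ) :
    gn n p = (fun q : E d × ℤ => (q.1, q.2 / ((2 : ℕ) : ℤ))) (gn (n + 1) p) := by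
  unfold gn
  simp only [Prod.mk.injEq, true_and]
  have := Int.floor_div_natCast ((2 : ℝ) ^ (n + 1) * p.2) 2
  rw [← this]
  congr 1
  push_cast
  rw [pow_succ]
  field_simp

theorem levelSets_succ (n : ℕ) : levelSets (d := d) n ⊆ levelSets (n + 1) := by
  rintro t ⟨C, hC, rfl⟩
  refine ⟨(fun q : E d × ℤ => (q.1, q.2 / ((2 : ℕ) : ℤ))) ⁻¹' C, ?_, ?_⟩
  · refine (measurable_fst.prodMk ?_) hC
    exact (measurable_from_top (f := fun c : ℤ => c / ((2 : ℕ) : ℤ))).comp measurable_snd
  · ext p
    simp only [Set.mem_preimage]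
    rw [gn_eq_succ]

theorem levelSets_mono {m n : ℕ} (h : m ≤ n) : levelSets (d := d) m ⊆ levelSets n := by
  induction n, h using Nat.le_induction with
  | base => exact subset_rfl
  | succ n _ ih => exact ih.trans (levelSets_succ n)

/-- All readable sets. -/
def allLevelSets : Set (Set (E d × ℝ)) := ⋃ n, levelSets n

theorem isSetRing_allLevelSets : IsSetRing (allLevelSets (d := d)) where
  empty_mem := by
    refine Set.mem_iUnion.2 ⟨0, ∅, MeasurableSet.empty, by simp⟩
  union_mem := by
    intro s t hs ht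
    obtain ⟨m, hm⟩ := Set.mem_iUnion.1 hs
    obtain ⟨n, hn⟩ := Set.mem_iUnion.1 ht
    obtain ⟨C, hC, rfl⟩ := levelSets_mono (le_max_left m n) hm
    obtain ⟨D, hD, hD'⟩ := levelSets_mono (le_max_right m n) hn
    refine Set.mem_iUnion.2 ⟨max m n, C ∪ D, hC.union hD, ?_⟩
    rw [hD', Set.preimage_union]
  sdiff_mem := by
    intro s t hs ht
    obtain ⟨m, hm⟩ := Set.mem_iUnion.1 hs
    obtain ⟨n, hn⟩ := Set.mem_iUnion.1 ht
    obtain ⟨C, hC, rfl⟩ := levelSets_mono (le_max_left m n) hm
    obtain ⟨D, hD, hD'⟩ := levelSets_mono (le_max_right m n) hn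
    refine Set.mem_iUnion.2 ⟨max m n, C \ D, hC.diff hD, ?_⟩
    rw [hD', Set.preimage_sdiff]

theorem tendsto_dyadic (y : ℝ) :
    Tendsto (fun n : ℕ => ((⌊(2 : ℝ) ^ n * y⌋ : ℤ) : ℝ) / (2 : ℝ) ^ n) atTop (𝓝 y) := by
  have h1 : Tendsto (fun n : ℕ => ((1 : ℝ) / 2) ^ n) atTop (𝓝 0) :=
    tendsto_pow_atTop_nhds_zero_of_lt_one (by norm_num) (by norm_num)
  have h2 : Tendsto (fun n : ℕ => y - ((1 : ℝ) / 2) ^ n) atTop (𝓝 y) := by
    simpa using tendsto_const_nhds.sub h1
  refine tendsto_of_tendsto_of_tendsto_of_le_of_le h2 tendsto_const_nhds ?_ ?_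
  · intro n
    have hpos : (0 : ℝ) < 2 ^ n := by positivity
    show y - (1 / 2 : ℝ) ^ n ≤ ((⌊(2 : ℝ) ^ n * y⌋ : ℤ) : ℝ) / (2 : ℝ) ^ n
    rw [le_div_iff₀ hpos]
    have := Int.lt_floor_add_one ((2 : ℝ) ^ n * y)
    have h3 : (1 / 2 : ℝ) ^ n * 2 ^ n = 1 := by
      rw [← mul_pow]; norm_num
    nlinarith
  · intro n
    have hpos : (0 : ℝ) < 2 ^ n := by positivity
    show ((⌊(2 : ℝ) ^ n * y⌋ : ℤ) : ℝ) / (2 : ℝ) ^ n ≤ y
    rw [div_le_iff₀ hpos]
    have := Int.floor_le ((2 : ℝ) ^ n * y)
    nlinarith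

theorem generateFrom_allLevelSets :
    (inferInstance : MeasurableSpace (E d × ℝ)) =
      MeasurableSpace.generateFrom (allLevelSets (d := d)) := by
  set m : MeasurableSpace (E d × ℝ) := MeasurableSpace.generateFrom (allLevelSets (d := d)) with hm
  apply le_antisymm
  · -- the product σ-algebra is contained in `m`
    have hfst : @Measurable _ _ m _ (Prod.fst : E d × ℝ → E d) := by
      intro S hS
      apply MeasurableSpace.measurableSet_generateFrom
      refine Set.mem_iUnion.2 ⟨0, Prod.fst ⁻¹' S, measurable_fst hS, ?_⟩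
      ext p; simp [gn]
    have hsnd : @Measurable _ _ m _ (Prod.snd : E d × ℝ → ℝ) := by
      have hf : ∀ n : ℕ, @Measurable _ _ m _
          (fun p : E d × ℝ => ((⌊(2 : ℝ) ^ n * p.2⌋ : ℤ) : ℝ) / (2 : ℝ) ^ n) := by
        intro n S hS
        apply MeasurableSpace.measurableSet_generateFrom
        refine Set.mem_iUnion.2 ⟨n, (fun q : E d × ℤ => ((q.2 : ℝ)) / (2 : ℝ) ^ n) ⁻¹' S, ?_, ?_⟩
        · refine Measurable.comp (g := fun c : ℤ => (c : ℝ) / (2 : ℝ) ^ n) ?_ measurable_snd hS
          exact measurable_from_top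
        · ext p; simp [gn]
      refine @measurable_of_tendsto_metrizable _ _ m _ _ _ _ _ _ hf ?_
      rw [tendsto_pi_nhds]
      intro p
      exact tendsto_dyadic p.2
    refine sup_le ?_ ?_
    · exact (measurable_iff_comap_le).1 hfst
    · exact (measurable_iff_comap_le).1 hsnd
  · refine MeasurableSpace.generateFrom_le ?_
    intro t ht
    obtain ⟨n, hn⟩ := Set.mem_iUnion.1 ht
    obtain ⟨C, hC, rfl⟩ := hn
    exact measurable_gn n hC

open Classical in
/-- First element of a list satisfying a predicate. -/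
def firstOf {St' X : Type*} (l : List St') (P : St' → X → Prop) (a₀ : St') (x : X) : St' :=
  (l.find? (fun b => decide (P b x))).getD a₀

theorem measurableSet_firstOf {St' X : Type*} [MeasurableSpace X] (l : List St')
    (P : St' → X → Prop) (hP : ∀ b, MeasurableSet {x | P b x}) (a₀ a : St') :
    MeasurableSet {x | firstOf l P a₀ x = a} := by
  classical
  induction l with
  | nil =>
    by_cases h : a₀ = a <;> simp [firstOf, h]
  | cons b l ih =>
    have : {x | firstOf (b :: l) P a₀ x = a} =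
        ({x | P b x} ∩ {_x | b = a}) ∪ ({x | P b x}ᶜ ∩ {x | firstOf l P a₀ x = a}) := by
      ext x
      by_cases hb : P b x <;> simp [firstOf, List.find?_cons, hb]
    rw [this]
    exact ((hP b).inter (MeasurableSet.const _)).union ((hP b).compl.inter ih)

theorem firstOf_eq {St' X : Type*} (l : List St') (P : St' → X → Prop) (a₀ a : St') (x : X)
    (ha : a ∈ l) (hPa : P a x) (hb : ∀ b ∈ l, b ≠ a → ¬ P b x) : firstOf l P a₀ x = a := by
  classical
  induction l with
  | nil => simp at ha
  | cons c l ih =>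
    by_cases hc : c = a
    · subst hc
      simp [firstOf, hPa]
    · have hc' : ¬ P c x := hb c (by simp) hc
      have ha' : a ∈ l := by
        rcases List.mem_cons.1 ha with h | h
        · exact absurd h.symm hc
        · exact h
      have := ih ha' (fun b hbl hne => hb b (List.mem_cons_of_mem _ hbl) hne)
      simpa [firstOf, List.find?_cons, hc'] using this

/-- Approximation of a measurable map into a finite type by one reading only `⌊y / η⌋` in the second
variable, for all the small dyadic meshes `η = 2^{-n}`, `n ≥ n₀`. -/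
theorem exists_discrete_approx' {St' : Type} [Fintype St'] [Nonempty St'] (ν : Measure (E d × ℝ))
    [IsFiniteMeasure ν] (f : E d → ℝ → St')
    (hf : ∀ a, MeasurableSet {p : E d × ℝ | f p.1 p.2 = a}) {δ : ℝ} (hδ : 0 < δ) :
    ∃ n₀ : ℕ, ∀ n ≥ n₀, ∃ f' : E d → ℤ → St', (∀ c a, MeasurableSet {x | f' x c = a}) ∧
      ν.real {p | f p.1 p.2 ≠ f' p.1 (cell ((2 : ℝ) ^ (-(n : ℤ))) p.2)} ≤ δ := by
  classical
  set N : ℕ := Fintype.card St' with hN
  have hNpos : 0 < N := Fintype.card_pos
  set δ' : ℝ := δ / N with hδ'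
  have hδ'pos : 0 < δ' := by positivity
  have happrox : ∀ a : St', ∃ t ∈ allLevelSets (d := d),
      ν (t ∆ {p : E d × ℝ | f p.1 p.2 = a}) < ENNReal.ofReal δ' := by
    intro a
    refine exists_measure_symmDiff_lt_of_generateFrom_isSetRing isSetRing_allLevelSets ?_
      generateFrom_allLevelSets (hf a) (by simpa using hδ'pos)
    refine ⟨{Set.univ}, Set.countable_singleton _, ?_, by simp⟩
    rintro _ rfl
    exact Set.mem_iUnion.2 ⟨0, Set.univ, MeasurableSet.univ, by simp⟩
  choose t htC htν using happrox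
  have hlevel : ∀ a, ∃ k, t a ∈ levelSets k := fun a => Set.mem_iUnion.1 (htC a)
  choose k hk using hlevel
  refine ⟨Finset.univ.sup k, fun n hn => ?_⟩
  have hmem : ∀ a, t a ∈ levelSets (d := d) n := fun a =>
    levelSets_mono ((Finset.le_sup (Finset.mem_univ a)).trans hn) (hk a)
  choose C hC hCt using hmem
  let a₀ : St' := Classical.arbitrary St'
  let l : List St' := Finset.univ.toList
  let f' : E d → ℤ → St' := fun x c => firstOf l (fun b (y : E d × ℤ) => y ∈ C b) a₀ (x, c)
  refine ⟨f', ?_, ?_⟩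
  · intro c a
    have hm := measurableSet_firstOf l (fun b (y : E d × ℤ) => y ∈ C b) (fun b => hC b) a₀ a
    exact (measurable_id.prodMk measurable_const : Measurable (fun x : E d => (x, c))) hm
  · have hsub : {p : E d × ℝ | f p.1 p.2 ≠ f' p.1 (cell ((2 : ℝ) ^ (-(n : ℤ))) p.2)} ⊆
        ⋃ a, (t a ∆ {p : E d × ℝ | f p.1 p.2 = a}) := by
      intro p hp
      by_contra hcon
      simp only [Set.mem_iUnion, not_exists] at hcon
      apply hp
      have key : ∀ b, p ∈ t b ↔ f p.1 p.2 = b := by
        intro b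
        have := hcon b
        simp only [Set.mem_symmDiff, Set.mem_ofPred_eq, not_or, not_and, not_not] at this
        exact ⟨this.1, this.2⟩
      symm
      apply firstOf_eq
      · simp [l]
      · have := (key (f p.1 p.2)).2 rfl
        rw [hCt] at this
        show (p.1, cell ((2 : ℝ) ^ (-(n : ℤ))) p.2) ∈ C _
        rw [cell_two_pow]
        simpa [gn] using this
      · intro b _ hne hmemb
        have h1 : p ∈ t b := by
          rw [hCt]
          have hmemb' : (p.1, cell ((2 : ℝ) ^ (-(n : ℤ))) p.2) ∈ C b := hmemb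
          rw [cell_two_pow] at hmemb'
          simpa [gn] using hmemb'
        exact hne ((key b).1 h1).symm
    calc ν.real {p | f p.1 p.2 ≠ f' p.1 (cell ((2 : ℝ) ^ (-(n : ℤ))) p.2)}
        ≤ ν.real (⋃ a, (t a ∆ {p : E d × ℝ | f p.1 p.2 = a})) :=
          measureReal_mono hsub (measure_ne_top _ _)
      _ ≤ ∑ a, ν.real (t a ∆ {p : E d × ℝ | f p.1 p.2 = a}) :=
          measureReal_iUnion_fintype_le _
      _ ≤ ∑ _a : St', δ' := by
          refine Finset.sum_le_sum fun a _ => ?_
          exact ENNReal.toReal_le_of_le_ofReal hδ'pos.le (htν a).le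
      _ = δ := by
          simp only [Finset.sum_const, Finset.card_univ, nsmul_eq_mul]
          rw [hδ', ← hN]
          field_simp

end

end Crest.Agent.S0499Lib
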