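/-
S0499 package H1c: from a randomized learner with a good seed to a discretized machine.
-/
import Crest.Agent.S0499Lib.SphereBasic
import Crest.Agent.S0499Lib.DiscreteApprox

set_option autoImplicit false

namespace Crest.Agent.S0499Lib

open MeasureTheory ProbabilityTheory Crest.StreamLearn
open scoped ENNReal

noncomputable section

variable {d : ℕ} {T M : ℕ}

/-- Iterating along `Fin T`. -/
def finIter {β : Type*} (F : Fin T → β → β) (a₀ : β) : ℕ → β
  | 0 => a₀
  | l + 1 => if h : l < T then F ⟨l, h⟩ (finIter F a₀ l) else finIter F a₀ l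

theorem foldl_take_eq_finIter {β : Type*} (F : Fin T → β → β) (a₀ : β) (l : ℕ) (hl : l ≤ T) :
    ((List.finRange T).take l).foldl (fun a t => F t a) a₀ = finIter F a₀ l := by
  induction l with
  | zero => simp [finIter]
  | succ l ih =>
    have hlT : l < T := hl
    have hlen : l < (List.finRange T).length := by simpa using hlT
    rw [List.take_succ_eq_append_getElem hlen, List.foldl_append, ih hlT.le]
    simp [finIter, hlT]

theorem foldl_eq_finIter {β : Type*} (F : Fin T → β → β) (a₀ : β) :
    (List.finRange T).foldl (fun a t => F t a) a₀ = finIter F a₀ T := by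
  have := foldl_take_eq_finIter F a₀ T le_rfl
  rwa [List.take_of_length_le (by simp)] at this

section Learner

variable (L : RLearner d T M) (ω : L.Ω)

/-- The real valued step of the learner on the extended states. -/
def xStep (t : Fin T) (a : L.St × Option (Fin (T + 1))) (x : E d) (y : ℝ) :
    L.St × Option (Fin (T + 1)) :=
  if a.2.isSome then a else
    if (L.trans t ω a.1 x y).2 then
      ((L.trans t ω a.1 x y).1, some ⟨t.val + 1, by omega⟩)
    else ((L.trans t ω a.1 x y).1, none)

/-- The initial extended state. -/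
def xInit : L.St × Option (Fin (T + 1)) :=
  (L.init ω, if L.stopFirst ω then some ⟨0, by omega⟩ else none)

/-- Forget the `Fin` bound. -/
def xToRun (a : L.St × Option (Fin (T + 1))) : L.St × Option ℕ := (a.1, a.2.map Fin.val)

/-- The output attached to an extended state. -/
def xOut (a : L.St × Option (Fin (T + 1))) : E d :=
  L.out ((a.2.map Fin.val).getD T) ω a.1

theorem xOut_unit (a : L.St × Option (Fin (T + 1))) : ‖xOut L ω a‖ = 1 := L.out_unit _ _ _

/-- The fold function of `RLearner.run`. -/
def runF (s : E d) (xs : Fin T → E d) (t : Fin T) (st : L.St × Option ℕ) : L.St × Option ℕ :=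
  if st.2.isSome then st else
    if (L.trans t ω st.1 (xs t) (inner ℝ (xs t) s)).2
    then ((L.trans t ω st.1 (xs t) (inner ℝ (xs t) s)).1, some (t.val + 1))
    else ((L.trans t ω st.1 (xs t) (inner ℝ (xs t) s)).1, none)

theorem run_eq_finIter (s : E d) (xs : Fin T → E d) :
    L.run ω s xs = finIter (runF L ω s xs) (L.init ω, if L.stopFirst ω then some 0 else none) T := by
  rw [← foldl_eq_finIter]
  rfl

theorem xToRun_xStep (s : E d) (xs : Fin T → E d) (t : Fin T) (a : L.St × Option (Fin (T + 1))) :
    xToRun L (xStep L ω t a (xs t) (inner ℝ (xs t) s)) = runF L ω s xs t (xToRun L a) := by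
  unfold xToRun xStep runF
  rcases a with ⟨q, o⟩
  cases o with
  | none =>
    by_cases h : (L.trans t ω q (xs t) (inner ℝ (xs t) s)).2 <;> simp [h]
  | some v => simp

theorem xToRun_xInit :
    xToRun L (xInit L ω) = (L.init ω, if L.stopFirst ω then some 0 else none) := by
  unfold xToRun xInit
  by_cases h : L.stopFirst ω <;> simp [h]

/-- The real run on extended states matches the learner's run. -/
theorem xToRun_finIter (s : E d) (xs : Fin T → E d) (l : ℕ) :
    xToRun L (finIter (fun t a => xStep L ω t a (xs t) (inner ℝ (xs t) s)) (xInit L ω) l) =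
      finIter (runF L ω s xs) (L.init ω, if L.stopFirst ω then some 0 else none) l := by
  induction l with
  | zero => exact xToRun_xInit L ω
  | succ l ih =>
    by_cases h : l < T
    · simp only [finIter, h, dif_pos]
      rw [xToRun_xStep, ih]
    · simp only [finIter, h, dif_neg, not_false_eq_true]
      exact ih

theorem output_eq_xOut (s : E d) (xs : Fin T → E d) :
    L.output ω s xs =
      xOut L ω (finIter (fun t a => xStep L ω t a (xs t) (inner ℝ (xs t) s)) (xInit L ω) T) := by
  have h := xToRun_finIter L ω s xs T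
  rw [← run_eq_finIter] at h
  unfold RLearner.output xOut
  rw [← h]
  rfl

theorem measurableSet_xStep (t : Fin T) (a b : L.St × Option (Fin (T + 1))) :
    MeasurableSet {p : E d × ℝ | xStep L ω t a p.1 p.2 = b} := by
  classical
  letI := L.mΩ
  letI := L.fin
  by_cases ha : a.2.isSome
  · have : {p : E d × ℝ | xStep L ω t a p.1 p.2 = b} = {_p | a = b} := by
      ext p; simp [xStep, ha]
    rw [this]
    exact MeasurableSet.const _
  · have hG := L.trans_measurable t a.1
    have hG1 : ∀ u : L.St, MeasurableSet {p : E d × ℝ | (L.trans t ω a.1 p.1 p.2).1 = u} := by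
      intro u
      have h1 := hG.1.comp (measurable_prodMk_left (x := ω))
      exact h1 (MeasurableSpace.measurableSet_top (s := {u}))
    have hG2 : ∀ β : Bool, MeasurableSet {p : E d × ℝ | (L.trans t ω a.1 p.1 p.2).2 = β} := by
      intro β
      have h2 := hG.2.comp (measurable_prodMk_left (x := ω))
      exact h2 (measurableSet_singleton β)
    have : {p : E d × ℝ | xStep L ω t a p.1 p.2 = b} =
        ⋃ u : L.St, ⋃ β : Bool,
          ({p : E d × ℝ | (L.trans t ω a.1 p.1 p.2).1 = u} ∩
            {p : E d × ℝ | (L.trans t ω a.1 p.1 p.2).2 = β}) ∩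
            {_p | (u, if β then some ⟨t.val + 1, by omega⟩ else none) = b} := by
      ext p
      simp only [Set.mem_ofPred_eq, Set.mem_iUnion, Set.mem_inter_iff, xStep, ha, if_false]
      constructor
      · intro h
        refine ⟨(L.trans t ω a.1 p.1 p.2).1, (L.trans t ω a.1 p.1 p.2).2, ⟨rfl, rfl⟩, ?_⟩
        rw [← h]
        by_cases hβ : (L.trans t ω a.1 p.1 p.2).2 <;> simp [hβ]
      · rintro ⟨u, β, ⟨rfl, rfl⟩, h⟩
        rw [← h]
        by_cases hβ : (L.trans t ω a.1 p.1 p.2).2 <;> simp [hβ]
    rw [this]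
    exact MeasurableSet.iUnion fun u => MeasurableSet.iUnion fun β =>
      ((hG1 u).inter (hG2 β)).inter (MeasurableSet.const _)

end Learner

/-- The discretized run agrees with the finIter run when the transitions agree. -/
theorem seg_eq_finIter {St' : Type*} (tr : Fin T → St' → E d → ℤ → St') (F : Fin T → St' → St')
    (a₀ : St') (X : Fin T → E d) (c : Fin T → ℤ)
    (h : ∀ t q, F t q = tr t q (X t) (c t)) (l : ℕ) :
    seg tr 0 l a₀ X c = finIter F a₀ l := by
  induction l with
  | zero => rfl
  | succ l ih =>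
    simp only [seg, finIter, stepAt, Nat.zero_add]
    by_cases hl : l < T
    · simp only [hl, dif_pos]
      rw [ih, h]
    · simp only [hl, dif_neg, not_false_eq_true]
      exact ih

/-- The reduction, given a good seed. -/
theorem exists_discrete_machine_of_seed (L : RLearner d T M) (hd : 0 < d) {ε : ℝ} (hε : 0 < ε)
    (ω : L.Ω)
    (hω : (2 / 3 : ℝ) ≤ ((σ d).prod (γ d (Fin T))).real
      {p | Real.arccos (inner ℝ (L.output ω p.1 p.2) (p.1 : E d)) ≤ ε})
    (hchord : ∀ u s : E d, ‖u‖ = 1 → ‖s‖ = 1 → Real.arccos (inner ℝ u s) ≤ ε → ‖u - s‖ ≤ ε)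
    {ηmax : ℝ} (hηmax : 0 < ηmax) :
    ∃ (St' : Type) (_ : Fintype St') (tr : Fin T → St' → E d → ℤ → St') (init : St')
      (û : St' → E d) (η : ℝ),
      (∀ t q c q', MeasurableSet {x | tr t q x c = q'}) ∧ 0 < η ∧ η ≤ ηmax ∧
      (Fintype.card St' : ℝ) ≤ 2 ^ M * ((T : ℝ) + 2) ∧ (∀ a, ‖û a‖ = 1) ∧
      (1 / 2 : ℝ) ≤ ((σ d).prod (γ d (Fin T))).real
        {x | x.1 ∈ sBall (û (dRun tr init η T x.1 x.2)) (2 * ε)} := by
  classical
  letI := L.fin
  haveI : IsProbabilityMeasure (σ d) := isProb_σ hd
  let St' : Type := L.St × Option (Fin (T + 1))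
  haveI : Nonempty St' := ⟨xInit L ω⟩
  set N : ℕ := Fintype.card St' with hN
  have hNpos : 0 < N := Fintype.card_pos
  let Ψ : Sphere d × E d → E d × ℝ := fun z => (z.2, inner ℝ z.2 (z.1 : E d))
  have hΨ : Measurable Ψ := by
    refine measurable_snd.prodMk ?_
    exact (continuous_snd.inner (continuous_subtype_val.comp continuous_fst)).measurable
  let ν : Measure (E d × ℝ) := ((σ d).prod (stdGaussian (E d))).map Ψ
  haveI : IsFiniteMeasure ν := Measure.isFiniteMeasure_map _ _
  set δ : ℝ := 1 / (100 * ((T : ℝ) + 1) * (N : ℝ)) with hδ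
  have hδpos : 0 < δ := by positivity
  have happrox := fun tq : Fin T × St' =>
    exists_discrete_approx' ν (fun x y => xStep L ω tq.1 tq.2 x y)
      (fun b => measurableSet_xStep L ω tq.1 tq.2 b) hδpos
  choose n₀ hn₀ using happrox
  obtain ⟨n₁, hn₁⟩ := exists_pow_lt_of_lt_one hηmax (by norm_num : (1 / 2 : ℝ) < 1)
  set n : ℕ := max (Finset.univ.sup n₀) n₁ with hn
  have hn_ge : ∀ tq, n₀ tq ≤ n := fun tq =>
    (Finset.le_sup (Finset.mem_univ tq)).trans (le_max_left _ _)
  have hexist := fun tq : Fin T × St' => hn₀ tq n (hn_ge tq)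
  choose f' hf'meas hf'err using hexist
  set η : ℝ := (2 : ℝ) ^ (-(n : ℤ)) with hη
  have hηpos : 0 < η := by positivity
  have hηle : η ≤ ηmax := by
    have h1 : η = (1 / 2 : ℝ) ^ n := by
      rw [hη, zpow_neg, zpow_natCast, one_div, inv_pow]
    rw [h1]
    exact (pow_le_pow_of_le_one (by norm_num) (by norm_num) (le_max_right _ _)).trans hn₁.le
  let tr : Fin T → St' → E d → ℤ → St' := fun t q x c => f' (t, q) x c
  refine ⟨St', inferInstance, tr, xInit L ω, xOut L ω, η, ?_, hηpos, hηle, ?_, xOut_unit L ω, ?_⟩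
  · intro t q c q'
    exact hf'meas (t, q) c q'
  · have hcard : (Fintype.card St' : ℝ) = (Fintype.card L.St : ℝ) * ((T : ℝ) + 2) := by
      simp only [St', Fintype.card_prod, Fintype.card_option, Fintype.card_fin]
      push_cast
      ring
    rw [hcard]
    have h2 : (Fintype.card L.St : ℝ) ≤ 2 ^ M := by exact_mod_cast L.card_le
    exact mul_le_mul_of_nonneg_right h2 (by positivity)
  · -- the bad event
    let Φ : Fin T → Sphere d × (Fin T → E d) → E d × ℝ :=
      fun t z => Ψ (z.1, z.2 t)
    have hΦmap : ∀ t, ((σ d).prod (γ d (Fin T))).map (Φ t) = ν := by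
      intro t
      have hmp : MeasurePreserving (fun z : Sphere d × (Fin T → E d) => (z.1, z.2 t))
          ((σ d).prod (γ d (Fin T))) ((σ d).prod (stdGaussian (E d))) :=
        (MeasurePreserving.id (σ d)).prod (measurePreserving_eval _ t)
      have : Φ t = Ψ ∘ (fun z : Sphere d × (Fin T → E d) => (z.1, z.2 t)) := rfl
      rw [this, ← Measure.map_map hΨ hmp.measurable, hmp.map_eq]
    have hΦmeas : ∀ t, Measurable (Φ t) := by
      intro t
      exact hΨ.comp (measurable_fst.prodMk ((measurable_pi_apply t).comp measurable_snd))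
    let D : Fin T × St' → Set (E d × ℝ) := fun tq =>
      {p | xStep L ω tq.1 tq.2 p.1 p.2 ≠ f' tq p.1 (cell η p.2)}
    let Bad : Fin T × St' → Set (Sphere d × (Fin T → E d)) := fun tq => Φ tq.1 ⁻¹' D tq
    set μ : Measure (Sphere d × (Fin T → E d)) := (σ d).prod (γ d (Fin T)) with hμ
    have hBad : ∀ tq, μ.real (Bad tq) ≤ δ := by
      intro tq
      have h1 : μ (Bad tq) ≤ ν (D tq) := by
        rw [← hΦmap tq.1]
        exact Measure.le_map_apply (hΦmeas tq.1).aemeasurable _
      have h2 : ν.real (D tq) ≤ δ := hf'err tq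
      calc μ.real (Bad tq) ≤ ν.real (D tq) :=
            ENNReal.toReal_mono (measure_ne_top _ _) h1
        _ ≤ δ := h2
    have hBadTotal : μ.real (⋃ tq, Bad tq) ≤ 1 / 100 := by
      have hcardtq : (Fintype.card (Fin T × St') : ℝ) = (T : ℝ) * (N : ℝ) := by
        simp [Fintype.card_prod, hN]
      calc μ.real (⋃ tq, Bad tq) ≤ ∑ tq, μ.real (Bad tq) := measureReal_iUnion_fintype_le _
        _ ≤ ∑ _tq : Fin T × St', δ := Finset.sum_le_sum fun tq _ => hBad tq
        _ = (T : ℝ) * (N : ℝ) * δ := by
            simp only [Finset.sum_const, Finset.card_univ, nsmul_eq_mul, hcardtq]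
        _ ≤ 1 / 100 := by
            rw [hδ]
            have hNR : (0 : ℝ) < N := by exact_mod_cast hNpos
            have hTR : (0 : ℝ) ≤ T := Nat.cast_nonneg _
            rw [mul_one_div, div_le_div_iff₀ (by positivity) (by norm_num)]
            nlinarith [mul_nonneg hTR hNR.le]
    -- inclusion
    have hsub : {p : Sphere d × (Fin T → E d) |
          Real.arccos (inner ℝ (L.output ω p.1 p.2) (p.1 : E d)) ≤ ε} ⊆
        {x | x.1 ∈ sBall (xOut L ω (dRun tr (xInit L ω) η T x.1 x.2)) (2 * ε)} ∪
          ⋃ tq, Bad tq := by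
      intro z hz
      by_cases hzb : z ∈ ⋃ tq, Bad tq
      · exact Or.inr hzb
      · left
        have hgood : ∀ t q, (fun t a => xStep L ω t a (z.2 t) (inner ℝ (z.2 t) (z.1 : E d))) t q =
            tr t q (z.2 t) (dat η z.2 z.1 t) := by
          intro t q
          by_contra hne
          apply hzb
          exact Set.mem_iUnion.2 ⟨(t, q), hne⟩
        have hrun : dRun tr (xInit L ω) η T z.1 z.2 =
            finIter (fun t a => xStep L ω t a (z.2 t) (inner ℝ (z.2 t) (z.1 : E d))) (xInit L ω) T :=
          seg_eq_finIter tr _ _ _ _ hgood T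
        have hout : xOut L ω (dRun tr (xInit L ω) η T z.1 z.2) = L.output ω z.1 z.2 := by
          rw [hrun, output_eq_xOut]
        have hz1 : ‖((z.1 : Sphere d) : E d)‖ = 1 := by simpa using z.1.2
        have hch := hchord _ _ (L.out_unit _ _ _) hz1 hz
        show ‖((z.1 : Sphere d) : E d) - xOut L ω (dRun tr (xInit L ω) η T z.1 z.2)‖ < 2 * ε
        rw [hout, norm_sub_rev]
        have : ‖L.output ω z.1 z.2 - ((z.1 : Sphere d) : E d)‖ ≤ ε := hch
        linarith
    have hfinal := measureReal_mono hsub (μ := μ) (measure_ne_top _ _)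
    have hunion := measureReal_union_le (μ := μ)
      {x : Sphere d × (Fin T → E d) |
        x.1 ∈ sBall (xOut L ω (dRun tr (xInit L ω) η T x.1 x.2)) (2 * ε)} (⋃ tq, Bad tq)
    linarith

end

end Crest.Agent.S0499Lib
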