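/-
S0499 package H1: from a randomized learner to a discretized deterministic machine.
-/
import Crest.Agent.S0499Lib.SphereBasic
import Crest.Agent.S0499Lib.DiscreteMachine

set_option autoImplicit false
set_option linter.style.haveILetI false

namespace Crest.Agent.S0499Lib

open MeasureTheory ProbabilityTheory Crest.StreamLearn
open scoped ENNReal

noncomputable section

variable {d : ℕ} {T M : ℕ}

/-- A map read off a measurable discrete value and the point is measurable. -/
theorem measurable_comp_countable {P α β : Type*} [MeasurableSpace P] [MeasurableSpace α]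
    [MeasurableSpace β] [Countable α] [MeasurableSingletonClass α] {r : P → α} (hr : Measurable r)
    {g : α → P → β} (hg : ∀ a, Measurable (g a)) : Measurable (fun p => g (r p) p) := by
  have h : Measurable (fun q : P × α => g q.2 q.1) :=
    measurable_from_prod_countable_left (fun a => hg a)
  exact h.comp (measurable_id.prodMk hr)

/-- A fold over a list of a family of measurable steps on a discrete space is measurable. -/
theorem measurable_foldl_countable {P α τ : Type*} [MeasurableSpace P] [MeasurableSpace α]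
    [Countable α] [MeasurableSingletonClass α] (f : P → α → τ → α)
    (hf : ∀ a t, Measurable (fun p => f p a t)) (l : List τ) {r : P → α} (hr : Measurable r) :
    Measurable (fun p => l.foldl (f p) (r p)) := by
  induction l generalizing r with
  | nil => simpa using hr
  | cons t l ih =>
    simp only [List.foldl_cons]
    exact ih (measurable_comp_countable hr (g := fun a p => f p a t) (fun a => hf a t))

/-- The success event is measurable (induction along the run, using the measurability fields of
`RLearner`). -/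
theorem measurableSet_success (L : RLearner d T M) (ε : ℝ) :
    letI : MeasurableSpace L.Ω := L.mΩ
    MeasurableSet {p : Sphere d × (L.Ω × (Fin T → E d)) |
      Real.arccos (inner ℝ (L.output p.2.1 p.1 p.2.2) (p.1 : E d)) ≤ ε} := by
  letI : MeasurableSpace L.Ω := L.mΩ
  letI : MeasurableSpace L.St := ⊤
  letI : MeasurableSpace (Option ℕ) := ⊤
  haveI : Fintype L.St := L.fin
  haveI hSt : DiscreteMeasurableSpace L.St := ⟨fun _ => MeasurableSpace.measurableSet_top⟩
  haveI hOpt : DiscreteMeasurableSpace (Option ℕ) := ⟨fun _ => MeasurableSpace.measurableSet_top⟩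
  haveI : MeasurableSingletonClass L.St := ⟨fun _ => MeasurableSpace.measurableSet_top⟩
  haveI : MeasurableSingletonClass (Option ℕ) := ⟨fun _ => MeasurableSpace.measurableSet_top⟩
  -- one step of the run, for a fixed old configuration
  have hstep : ∀ (a : L.St × Option ℕ) (t : Fin T),
      Measurable (fun p : Sphere d × (L.Ω × (Fin T → E d)) =>
        (if a.2.isSome then a else
          if (L.trans t p.2.1 a.1 (p.2.2 t) (inner ℝ (p.2.2 t) (p.1 : E d))).2
          then ((L.trans t p.2.1 a.1 (p.2.2 t) (inner ℝ (p.2.2 t) (p.1 : E d))).1, some (t.val + 1))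
          else ((L.trans t p.2.1 a.1 (p.2.2 t) (inner ℝ (p.2.2 t) (p.1 : E d))).1, none))) := by
    intro a t
    by_cases ha : a.2.isSome
    · simp only [ha, if_true]
      exact measurable_const
    · simp only [ha]
      have hm : Measurable (fun p : Sphere d × (L.Ω × (Fin T → E d)) =>
          (p.2.1, (p.2.2 t, (inner ℝ (p.2.2 t) (p.1 : E d) : ℝ)))) := by
        refine measurable_snd.fst.prodMk (Measurable.prodMk ?_ ?_)
        · exact (measurable_pi_apply t).comp measurable_snd.snd
        · exact Measurable.inner ((measurable_pi_apply t).comp measurable_snd.snd)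
            (measurable_subtype_coe.comp measurable_fst)
      have h1 := ((L.trans_measurable t a.1).1).comp hm
      have h2 := ((L.trans_measurable t a.1).2).comp hm
      have h3 : Measurable (fun x : L.St × Bool =>
          (if x.2 then (x.1, some (t.val + 1)) else (x.1, none) : L.St × Option ℕ)) :=
        Measurable.of_discrete
      exact h3.comp (h1.prodMk h2)
  -- the run
  have hrun : Measurable (fun p : Sphere d × (L.Ω × (Fin T → E d)) =>
      L.run p.2.1 (p.1 : E d) p.2.2) := by
    unfold RLearner.run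
    refine measurable_foldl_countable _ hstep _ ?_
    refine Measurable.prodMk ?_ ?_
    · exact (L.init_measurable).comp measurable_snd.fst
    · have h3 : Measurable (fun b : Bool => (if b then some 0 else none : Option ℕ)) :=
        Measurable.of_discrete
      exact h3.comp ((L.stopFirst_measurable).comp measurable_snd.fst)
  -- the final value
  have hg : ∀ a : L.St × Option ℕ, Measurable (fun p : Sphere d × (L.Ω × (Fin T → E d)) =>
      Real.arccos (inner ℝ (L.out (a.2.getD T) p.2.1 a.1) (p.1 : E d))) := by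
    intro a
    exact Real.continuous_arccos.measurable.comp
      (Measurable.inner ((L.out_measurable _ _).comp measurable_snd.fst)
        (measurable_subtype_coe.comp measurable_fst))
  have hfin := measurable_comp_countable hrun hg
  exact measurableSet_le hfin measurable_const

/-- There is a seed for which the conditional success probability is at least `2/3` (Tonelli). -/
theorem exists_good_seed (L : RLearner d T M) (hd : 0 < d) {ε : ℝ} (h : 2 / 3 ≤ L.successProb ε) :
    ∃ ω : L.Ω, (2 / 3 : ℝ) ≤ ((σ d).prod (γ d (Fin T))).real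
      {p | Real.arccos (inner ℝ (L.output ω p.1 p.2) (p.1 : E d)) ≤ ε} := by
  letI : MeasurableSpace L.Ω := L.mΩ
  haveI := L.prob
  haveI := isProb_σ hd
  have hSm := measurableSet_success L ε
  set S : Set (Sphere d × (L.Ω × (Fin T → E d))) := {p : Sphere d × (L.Ω × (Fin T → E d)) |
      Real.arccos (inner ℝ (L.output p.2.1 p.1 p.2.2) (p.1 : E d)) ≤ ε} with hS
  -- rearranging the product
  let Φ : L.Ω × (Sphere d × (Fin T → E d)) → Sphere d × (L.Ω × (Fin T → E d)) :=
    fun q => (q.2.1, (q.1, q.2.2))
  have hΦ : MeasurePreserving Φ (L.ρ.prod ((σ d).prod (γ d (Fin T))))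
      ((σ d).prod (L.ρ.prod (γ d (Fin T)))) := by
    have h1 := (measurePreserving_prodAssoc L.ρ (σ d) (γ d (Fin T))).symm
    have h2 : MeasurePreserving (Prod.map Prod.swap id)
        ((L.ρ.prod (σ d)).prod (γ d (Fin T))) (((σ d).prod L.ρ).prod (γ d (Fin T))) :=
      (Measure.measurePreserving_swap (μ := L.ρ) (ν := σ d)).prod (MeasurePreserving.id _)
    have h3 := measurePreserving_prodAssoc (σ d) L.ρ (γ d (Fin T))
    exact h3.comp (h2.comp h1)
  have hΦS : MeasurableSet (Φ ⁻¹' S) := hΦ.measurable hSm
  have hμ : ((σ d).prod (L.ρ.prod (γ d (Fin T)))) S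
      = ∫⁻ ω, ((σ d).prod (γ d (Fin T))) (Prod.mk ω ⁻¹' (Φ ⁻¹' S)) ∂L.ρ := by
    rw [← hΦ.measure_preimage hSm.nullMeasurableSet, Measure.prod_apply hΦS]
  have hint : ∫⁻ ω, ((σ d).prod (γ d (Fin T))) (Prod.mk ω ⁻¹' (Φ ⁻¹' S)) ∂L.ρ ≠ ⊤ := by
    rw [← hμ]
    exact measure_ne_top _ _
  obtain ⟨ω, hω⟩ := exists_lintegral_le hint
  refine ⟨ω, ?_⟩
  have h' : L.successProb ε = (((σ d).prod (L.ρ.prod (γ d (Fin T)))) S).toReal := rfl
  have h2 : (((σ d).prod (L.ρ.prod (γ d (Fin T)))) S).toReal
      ≤ (((σ d).prod (γ d (Fin T))) (Prod.mk ω ⁻¹' (Φ ⁻¹' S))).toReal := by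
    rw [hμ]
    exact ENNReal.toReal_mono (measure_ne_top _ _) hω
  calc (2 / 3 : ℝ) ≤ L.successProb ε := h
    _ ≤ _ := by rw [h']; exact h2

/-- `arccos ⟪u, s⟫ ≤ ε` implies the chord `‖u - s‖ ≤ ε` for unit vectors. -/
theorem chord_le_of_arccos_le {u s : E d} (hu : ‖u‖ = 1) (hs : ‖s‖ = 1) {ε : ℝ} (hε : 0 ≤ ε)
    (h : Real.arccos (inner ℝ u s) ≤ ε) : ‖u - s‖ ≤ ε := by
  set t : ℝ := inner ℝ u s with ht
  have ht1 : |t| ≤ 1 := by
    have := abs_real_inner_le_norm u s
    simpa [hu, hs] using this
  have hcos : Real.cos (Real.arccos t) = t :=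
    Real.cos_arccos (abs_le.mp ht1).1 (abs_le.mp ht1).2
  have hθ0 : 0 ≤ Real.arccos t := Real.arccos_nonneg t
  have h1 := Real.one_sub_sq_div_two_le_cos (x := Real.arccos t)
  rw [hcos] at h1
  have h2 : ‖u - s‖ ^ 2 = 2 - 2 * t := by
    rw [@norm_sub_sq_real, hu, hs]
    ring
  have h3 : ‖u - s‖ ^ 2 ≤ ε ^ 2 := by
    have h4 : Real.arccos t ^ 2 ≤ ε ^ 2 := pow_le_pow_left₀ hθ0 h 2
    nlinarith
  exact (pow_le_pow_iff_left₀ (norm_nonneg _) hε (by norm_num)).mp h3

/-- Approximation of a measurable map into a finite type by one reading only `⌊y / η⌋` in the second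
variable, for all the small dyadic meshes `η = 2^{-n}`, `n ≥ n₀`.

Proof: the sets `{(x, y) | (x, ⌊2^n y⌋) ∈ C}` (`n : ℕ`, `C` measurable) form a ring of sets,
generating the product σ-algebra, as `y = lim ⌊2^n y⌋ / 2^n`:
use `exists_measure_symmDiff_lt_of_generateFrom_isSetRing`. Approximate each level set; take the
first approximate level set that contains the point. -/
theorem exists_discrete_approx {St' : Type} [Fintype St'] [Nonempty St'] (ν : Measure (E d × ℝ))
    [IsFiniteMeasure ν] (f : E d → ℝ → St')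
    (hf : ∀ a, MeasurableSet {p : E d × ℝ | f p.1 p.2 = a}) {δ : ℝ} (hδ : 0 < δ) :
    ∃ n₀ : ℕ, ∀ n ≥ n₀, ∃ f' : E d → ℤ → St', (∀ c a, MeasurableSet {x | f' x c = a}) ∧
      ν.real {p | f p.1 p.2 ≠ f' p.1 (cell ((2 : ℝ) ^ (-(n : ℤ))) p.2)} ≤ δ :=
  exists_discrete_approx' ν f hf hδ

/-- The reduction. `St' = L.St × Option (Fin (T + 1))`, with a fixed good seed. -/
theorem exists_discrete_machine (L : RLearner d T M) (hd : 0 < d) {ε : ℝ} (hε : 0 < ε)
    (h : 2 / 3 ≤ L.successProb ε) {ηmax : ℝ} (hηmax : 0 < ηmax) :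
    ∃ (St' : Type) (_ : Fintype St') (tr : Fin T → St' → E d → ℤ → St') (init : St')
      (û : St' → E d) (η : ℝ),
      (∀ t q c q', MeasurableSet {x | tr t q x c = q'}) ∧ 0 < η ∧ η ≤ ηmax ∧
      (Fintype.card St' : ℝ) ≤ 2 ^ M * ((T : ℝ) + 2) ∧ (∀ a, ‖û a‖ = 1) ∧
      (1 / 2 : ℝ) ≤ ((σ d).prod (γ d (Fin T))).real
        {x | x.1 ∈ sBall (û (dRun tr init η T x.1 x.2)) (2 * ε)} := by
  obtain ⟨ω, hω⟩ := exists_good_seed L hd h
  exact exists_discrete_machine_of_seed L hd hε ω hω
    (fun u s hu hs hh => chord_le_of_arccos_le hu hs hε.le hh) hηmax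

end

end Crest.Agent.S0499Lib
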