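/-
S0499 package I1: fewer than `d / 4` samples are not enough.
-/
import Crest.Agent.S0499Lib.SphereBasic
import Crest.Agent.S0499Lib.Discretize

set_option autoImplicit false

namespace Crest.Agent.S0499Lib

open MeasureTheory ProbabilityTheory Crest.StreamLearn
open scoped ENNReal

noncomputable section

variable {d : ℕ} {T M : ℕ}

/-- The run depends on the signal only through the measurements. -/
theorem run_congr (L : RLearner d T M) (ω : L.Ω) {s s' : E d} {xs : Fin T → E d}
    (h : ∀ t, inner ℝ (xs t) s = inner ℝ (xs t) s') : L.run ω s xs = L.run ω s' xs := by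
  unfold RLearner.run
  simp only [h]

theorem output_congr (L : RLearner d T M) (ω : L.Ω) {s s' : E d} {xs : Fin T → E d}
    (h : ∀ t, inner ℝ (xs t) s = inner ℝ (xs t) s') : L.output ω s xs = L.output ω s' xs := by
  unfold RLearner.output
  rw [run_congr L ω h]

theorem inner_reflection_eq (W : Submodule ℝ (E d)) [W.HasOrthogonalProjection] {x : E d}
    (hx : x ∈ W) (s : E d) : inner ℝ x (W.reflection s) = inner ℝ x s := by
  have h := (W.reflection).inner_map_map x s
  rwa [Submodule.reflection_mem_subspace_eq_self hx] at h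

/-- `‖s - R s‖ = 2 ‖s - P s‖`. -/
theorem norm_sub_reflection (W : Submodule ℝ (E d)) [W.HasOrthogonalProjection] (s : E d) :
    ‖s - W.reflection s‖ = 2 * ‖s - W.starProjection s‖ := by
  rw [Submodule.reflection_apply]
  have : s - (2 • W.starProjection s - s) = (2 : ℝ) • (s - W.starProjection s) := by
    rw [smul_sub, two_smul ℝ, two_smul ℝ, two_smul ℕ]; abel
  rw [this, norm_smul]; norm_num

/-- Pythagoras for the orthogonal projection. -/
theorem norm_sq_starProjection_add (W : Submodule ℝ (E d)) [W.HasOrthogonalProjection] (s : E d) :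
    ‖W.starProjection s‖ ^ 2 + ‖s - W.starProjection s‖ ^ 2 = ‖s‖ ^ 2 := by
  have h : inner ℝ (W.starProjection s) (s - W.starProjection s) = 0 :=
    Submodule.inner_right_of_mem_orthogonal (Submodule.starProjection_apply_mem W s)
      (Submodule.sub_starProjection_mem_orthogonal s)
  have h2 := norm_add_sq_real (W.starProjection s) (s - W.starProjection s)
  rw [h] at h2
  have h3 : W.starProjection s + (s - W.starProjection s) = s := by abel
  rw [h3] at h2
  linarith

/-- `‖P s‖² = ∑ ⟪s, e_i⟫²` for an orthonormal basis of `W`. -/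
theorem norm_sq_starProjection_eq_sum (W : Submodule ℝ (E d)) [FiniteDimensional ℝ W] (s : E d) :
    ‖W.starProjection s‖ ^ 2 =
      ∑ i, (inner ℝ s ((stdOrthonormalBasis ℝ W i : W) : E d)) ^ 2 := by
  have h := (stdOrthonormalBasis ℝ W).sum_sq_norm_inner_right (W.orthogonalProjectionOnto s)
  have h0 : ‖W.starProjection s‖ = ‖W.orthogonalProjectionOnto s‖ := by
    rw [Submodule.starProjection_apply]; simp
  rw [h0, ← h]
  refine Finset.sum_congr rfl fun i _ => ?_
  rw [Real.norm_eq_abs, sq_abs,
    Submodule.inner_orthogonalProjectionOnto_eq_of_mem_left (K := W) (stdOrthonormalBasis ℝ W i) s,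
    real_inner_comm]

/-- The integrability of the squared coordinates. -/
theorem integrable_inner_sq (hd : 0 < d) (v : E d) :
    Integrable (fun s : Sphere d => (inner ℝ (s : E d) v) ^ 2) (σ d) := by
  have := isProb_σ hd
  have hc : Continuous (fun s : Sphere d => (inner ℝ (s : E d) v) ^ 2) := by fun_prop
  refine Integrable.of_bound hc.aestronglyMeasurable (‖v‖ ^ 2) (Filter.Eventually.of_forall fun s => ?_)
  have h1 : |inner ℝ (s : E d) v| ≤ ‖(s : E d)‖ * ‖v‖ := abs_real_inner_le_norm _ _
  have hs : ‖(s : E d)‖ = 1 := by simp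
  rw [hs, one_mul] at h1
  rw [Real.norm_eq_abs, abs_pow]
  gcongr

/-- `∫ ‖P s‖² dσ = dim W / d`. -/
theorem integral_norm_sq_starProjection (hd : 0 < d) (W : Submodule ℝ (E d))
    [FiniteDimensional ℝ W] :
    ∫ s : Sphere d, ‖W.starProjection (s : E d)‖ ^ 2 ∂(σ d) =
      (Module.finrank ℝ W : ℝ) / d := by
  simp_rw [norm_sq_starProjection_eq_sum]
  rw [integral_finsetSum _ fun i _ => integrable_inner_sq hd _]
  simp_rw [second_moment hd]
  have h1 : ∀ i, ‖((stdOrthonormalBasis ℝ W i : W) : E d)‖ = 1 := fun i => by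
    exact (stdOrthonormalBasis ℝ W).orthonormal.1 i
  simp [h1, Finset.sum_const, Finset.card_univ, div_eq_mul_inv]

/-- The signals at which the span of the rows is close. -/
theorem slice_le (L : RLearner d T M) (hd : 0 < d) (hT : 4 * T ≤ d) {ε : ℝ} (hε : 0 < ε)
    (hε' : ε ≤ 1 / 10) (ω : L.Ω) (X : Fin T → E d) {A : Set (Sphere d)}
    (hA : A = {s : Sphere d | Real.arccos (inner ℝ (L.output ω (s : E d) X) (s : E d)) ≤ ε})
    (hAm : MeasurableSet A) :
    (σ d).real A ≤ 63 / 100 := by
  have := isProb_σ hd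
  let W : Submodule ℝ (E d) := Submodule.span ℝ (Set.range X)
  have : FiniteDimensional ℝ W := FiniteDimensional.span_of_finite ℝ (Set.finite_range X)
  let g := sphereMap (W.reflection) 
  have hg : MeasurePreserving g (σ d) (σ d) := measurePreserving_sphereMap hd _
  have hinner : ∀ (s : E d) t, inner ℝ (X t) s = inner ℝ (X t) (W.reflection s) := fun s t =>
    (inner_reflection_eq W (Submodule.subset_span ⟨t, rfl⟩) s).symm
  -- the bad set
  let f : Sphere d → ℝ := fun s => ‖W.starProjection (s : E d)‖ ^ 2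
  let B : Set (Sphere d) := {s | (99 / 100 : ℝ) ≤ f s}
  have hAB : A ∩ g ⁻¹' A ⊆ B := by
    rintro s ⟨hs1, hs2⟩
    rw [hA] at hs1 hs2
    simp only [Set.mem_ofPred_eq, Set.mem_preimage] at hs1 hs2
    have hsn : ‖(s : E d)‖ = 1 := by simp
    have hgn : ‖((g s : Sphere d) : E d)‖ = 1 := by simp
    have hgs : ((g s : Sphere d) : E d) = W.reflection (s : E d) := rfl
    have hout : L.output ω ((g s : Sphere d) : E d) X = L.output ω (s : E d) X := by
      rw [hgs]; exact (output_congr L ω (hinner _)).symm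
    rw [hout] at hs2
    have hu : ‖L.output ω (s : E d) X‖ = 1 := L.out_unit _ _ _
    have h1 := chord_le_of_arccos_le hu hsn hε.le hs1
    have h2 := chord_le_of_arccos_le hu hgn hε.le hs2
    have h3 : ‖(s : E d) - W.reflection (s : E d)‖ ≤ 2 * ε := by
      rw [← hgs]
      calc ‖(s : E d) - ((g s : Sphere d) : E d)‖
          = ‖(L.output ω (s : E d) X - ((g s : Sphere d) : E d)) -
              (L.output ω (s : E d) X - (s : E d))‖ := by congr 1; abel
        _ ≤ _ := norm_sub_le _ _
        _ ≤ 2 * ε := by linarith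
    rw [norm_sub_reflection] at h3
    have h4 := norm_sq_starProjection_add W (s : E d)
    rw [hsn] at h4
    have h5 : ‖(s : E d) - W.starProjection (s : E d)‖ ≤ 1 / 10 := by linarith
    have h6 : ‖(s : E d) - W.starProjection (s : E d)‖ ^ 2 ≤ (1 / 10) ^ 2 := by gcongr
    show (99 / 100 : ℝ) ≤ ‖W.starProjection (s : E d)‖ ^ 2
    nlinarith
  -- Markov
  have hf_int : Integrable f (σ d) := by
    have : f = fun s : Sphere d => ∑ i, (inner ℝ (s : E d) ((stdOrthonormalBasis ℝ W i : W) : E d)) ^ 2 := by
      funext s; exact norm_sq_starProjection_eq_sum W (s : E d)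
    rw [this]
    exact integrable_finsetSum _ fun i _ => integrable_inner_sq hd _
  have hfI : ∫ s, f s ∂(σ d) ≤ 1 / 4 := by
    rw [integral_norm_sq_starProjection hd W]
    have h1 : (Module.finrank ℝ W : ℝ) ≤ T := by
      have := finrank_range_le_card (R := ℝ) X
      simp only [Fintype.card_fin] at this
      exact_mod_cast this
    have hd' : (0 : ℝ) < d := by exact_mod_cast hd
    have h2 : (4 : ℝ) * T ≤ d := by exact_mod_cast hT
    rw [div_le_iff₀ hd']
    linarith
  have hB : (99 / 100 : ℝ) * (σ d).real B ≤ 1 / 4 :=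
    (mul_meas_ge_le_integral_of_nonneg (Filter.Eventually.of_forall fun s => by
      show (0:ℝ) ≤ ‖W.starProjection (s : E d)‖ ^ 2; positivity) hf_int _).trans hfI
  -- inclusion-exclusion
  have hgA : MeasurableSet (g ⁻¹' A) := hg.measurable hAm
  have h1 : (σ d).real (g ⁻¹' A) = (σ d).real A := by
    unfold Measure.real
    rw [hg.measure_preimage hAm.nullMeasurableSet]
  have h2 := measureReal_union_add_inter (μ := σ d) (s := A) hgA
  have h3 : (σ d).real (A ∪ g ⁻¹' A) ≤ 1 := measureReal_le_one
  have h4 : (σ d).real (A ∩ g ⁻¹' A) ≤ (σ d).real B := measureReal_mono hAB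
  have hB' : (σ d).real B ≤ 26 / 100 := by linarith
  linarith

/-- Fewer than `d / 4` samples are not enough. -/
theorem samples_gt (L : RLearner d T M) (hd : 0 < d) {ε : ℝ} (hε : 0 < ε) (hε' : ε ≤ 1 / 10)
    (h : 2 / 3 ≤ L.successProb ε) : (d : ℝ) < 4 * T := by
  by_contra hcon
  have hT : 4 * T ≤ d := by
    have : (4 : ℝ) * T ≤ d := not_lt.mp hcon
    exact_mod_cast this
  let _ : MeasurableSpace L.Ω := L.mΩ
  have := L.prob
  have := isProb_σ hd
  have hS := measurableSet_success L ε
  let S : Set (Sphere d × (L.Ω × (Fin T → E d))) :=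
    {p | Real.arccos (inner ℝ (L.output p.2.1 p.1 p.2.2) (p.1 : E d)) ≤ ε}
  have hS' : MeasurableSet S := hS
  have hle : ((σ d).prod (L.ρ.prod (γ d (Fin T)))) S ≤ ENNReal.ofReal (63 / 100) := by
    rw [Measure.prod_apply_symm hS']
    calc ∫⁻ y, (σ d) ((fun x => (x, y)) ⁻¹' S) ∂(L.ρ.prod (γ d (Fin T)))
        ≤ ∫⁻ _, ENNReal.ofReal (63 / 100) ∂(L.ρ.prod (γ d (Fin T))) := by
          refine lintegral_mono fun y => ?_
          have hm : MeasurableSet ((fun x => (x, y)) ⁻¹' S) :=
            measurable_prodMk_right hS'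
          have := slice_le L hd hT hε hε' y.1 y.2 (A := (fun x => (x, y)) ⁻¹' S) rfl hm
          rw [Measure.real] at this
          exact (ENNReal.le_ofReal_iff_toReal_le (measure_ne_top _ _) (by norm_num)).mpr this
      _ = ENNReal.ofReal (63 / 100) := by simp
  have hle' : L.successProb ε ≤ 63 / 100 := by
    unfold RLearner.successProb
    show ((σ d).prod (L.ρ.prod (γ d (Fin T)))).real S ≤ 63 / 100
    rw [Measure.real]
    exact ENNReal.toReal_le_of_le_ofReal (by norm_num) hle
  linarith

end

end Crest.Agent.S0499Lib
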