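/-
S0499 package I: the two easy lower bounds.
-/
import Crest.Agent.S0499Lib.SphereBasic
import Crest.Agent.S0499Lib.Discretize
import Crest.Agent.S0499Lib.SamplesGt

set_option autoImplicit false

namespace Crest.Agent.S0499Lib

open MeasureTheory ProbabilityTheory Crest.StreamLearn
open scoped ENNReal

noncomputable section

variable {d : ℕ} {T M : ℕ}

/-- The stopping index of a run is at most the horizon. -/
theorem run_index_le (L : RLearner d T M) (ω : L.Ω) (s : E d) (xs : Fin T → E d) :
    (L.run ω s xs).2.getD T ≤ T := by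
  unfold RLearner.run
  have key : ∀ (l : List (Fin T)) (st : L.St × Option ℕ), st.2.getD T ≤ T →
      (l.foldl (fun st t => if st.2.isSome then st else
        if (L.trans t ω st.1 (xs t) (inner ℝ (xs t) s)).2
        then ((L.trans t ω st.1 (xs t) (inner ℝ (xs t) s)).1, some (t.val + 1))
        else ((L.trans t ω st.1 (xs t) (inner ℝ (xs t) s)).1, none)) st).2.getD T ≤ T := by
    intro l
    induction l with
    | nil => intro st h; simpa using h
    | cons t l ih =>
      intro st h
      rw [List.foldl_cons]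
      apply ih
      by_cases h1 : st.2.isSome = true
      · simpa [h1] using h
      · by_cases h2 : (L.trans t ω st.1 (xs t) (inner ℝ (xs t) s)).2 = true
        · simp only [h1, h2, if_true, if_false]
          simpa using t.isLt
        · simp [h1, h2]
  apply key
  by_cases h : L.stopFirst ω = true
  · simp [h]
  · simp [h]

/-- The information limit: the output takes at most `(T + 2) 2^M` values given the seed, and each
success signal is in a cap of radius `2ε` around one of the outputs. -/
theorem info_limit (L : RLearner d T M) (hd : 2 ≤ d) {ε : ℝ} (hε : 0 < ε) (hε' : ε ≤ 1 / 10)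
    (h : 2 / 3 ≤ L.successProb ε) :
    (2 / 3 : ℝ) ≤ ((T : ℝ) + 2) * 2 ^ M * (8 * (4 * ε) ^ (d - 1)) := by
  have hd0 : 0 < d := by omega
  let _ : MeasurableSpace L.Ω := L.mΩ
  let _ : Fintype L.St := L.fin
  have := L.prob
  have := isProb_σ hd0
  set μ : Measure (Sphere d × (L.Ω × (Fin T → E d))) :=
    (sphereUniform d).prod (L.ρ.prod (Measure.pi fun _ : Fin T => stdGaussian (E d))) with hμ
  have : IsProbabilityMeasure (sphereUniform d) := isProb_σ hd0
  have : IsProbabilityMeasure μ := by rw [hμ]; infer_instance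
  -- one ball
  set B : ℕ → L.St → Set (Sphere d × (L.Ω × (Fin T → E d))) :=
    fun i q => {x | ‖(x.1 : E d) - L.out i x.2.1 q‖ < 2 * ε} with hB
  have hBmeas : ∀ i q, MeasurableSet (B i q) := by
    intro i q
    apply measurableSet_lt _ measurable_const
    apply Measurable.norm
    apply Measurable.sub
    · exact measurable_subtype_coe.comp measurable_fst
    · exact (L.out_measurable i q).comp (measurable_fst.comp measurable_snd)
  have hBμ : ∀ i q, μ (B i q) = ENNReal.ofReal (cap d (2 * ε)) := by
    intro i q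
    rw [hμ, Measure.prod_apply_symm (hBmeas i q)]
    have hsec : ∀ y : L.Ω × (Fin T → E d),
        sphereUniform d ((fun x : Sphere d => (x, y)) ⁻¹' B i q) = ENNReal.ofReal (cap d (2 * ε)) := by
      intro y
      have hz : L.out i y.1 q ∈ Metric.sphere (0 : E d) 1 := by
        simpa using L.out_unit i y.1 q
      have h1 := real_sBall_eq_cap hd0 (⟨L.out i y.1 q, hz⟩ : Sphere d) (2 * ε)
      have h2 : (fun x : Sphere d => (x, y)) ⁻¹' B i q = sBall (L.out i y.1 q) (2 * ε) := rfl
      rw [h2, ← h1]
      exact (ofReal_measureReal (measure_ne_top _ _)).symm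
    simp_rw [hsec]
    simp
  -- the success set is in the union of the balls
  classical
  set U : Set (Sphere d × (L.Ω × (Fin T → E d))) :=
    ⋃ i ∈ Finset.range (T + 1), ⋃ q ∈ (Finset.univ : Finset L.St), B i q with hU
  have hsub : {p : Sphere d × (L.Ω × (Fin T → E d)) |
      Real.arccos (inner ℝ (L.output p.2.1 p.1 p.2.2) (p.1 : E d)) ≤ ε} ⊆ U := by
    intro p hp
    have hs : ‖(p.1 : E d)‖ = 1 := by simpa using p.1.2
    have hchord := chord_le_of_arccos_le (L.out_unit _ _ _) hs hε.le hp
    simp only [hU, Set.mem_iUnion, Finset.mem_range, Finset.mem_univ, exists_prop, true_and]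
    refine ⟨(L.run p.2.1 p.1 p.2.2).2.getD T, Nat.lt_succ_of_le (run_index_le L _ _ _),
      (L.run p.2.1 p.1 p.2.2).1, ?_⟩
    show ‖(p.1 : E d) - L.out _ p.2.1 _‖ < 2 * ε
    rw [norm_sub_rev]
    have : ‖L.output p.2.1 p.1 p.2.2 - (p.1 : E d)‖ ≤ ε := hchord
    unfold RLearner.output at this
    linarith
  have hUμ : μ U ≤ ∑ i ∈ Finset.range (T + 1), ∑ q ∈ (Finset.univ : Finset L.St),
      ENNReal.ofReal (cap d (2 * ε)) := by
    refine (measure_biUnion_finset_le _ _).trans (Finset.sum_le_sum fun i _ => ?_)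
    refine (measure_biUnion_finset_le _ _).trans (Finset.sum_le_sum fun q _ => ?_)
    exact (hBμ i q).le
  have hUreal : μ.real U ≤ ((T : ℝ) + 1) * 2 ^ M * cap d (2 * ε) := by
    have hcap := cap_nonneg d (2 * ε)
    have h1 : μ U ≤ ENNReal.ofReal (((T : ℝ) + 1) * (Fintype.card L.St : ℝ) * cap d (2 * ε)) := by
      refine hUμ.trans (le_of_eq ?_)
      simp only [Finset.sum_const, Finset.card_range, Finset.card_univ, nsmul_eq_mul]
      rw [ENNReal.ofReal_mul (by positivity), ENNReal.ofReal_mul (by positivity)]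
      simp [ENNReal.ofReal_add, mul_assoc]
    have h2 : μ.real U ≤ ((T : ℝ) + 1) * (Fintype.card L.St : ℝ) * cap d (2 * ε) :=
      ENNReal.toReal_le_of_le_ofReal (by positivity) h1
    refine h2.trans ?_
    have h3 : (Fintype.card L.St : ℝ) ≤ 2 ^ M := by exact_mod_cast L.card_le
    gcongr
  have hprob : L.successProb ε ≤ μ.real U := by
    unfold RLearner.successProb
    exact measureReal_mono hsub (measure_ne_top _ _)
  -- the cap bound
  have hcapb : cap d (2 * ε) ≤ 8 * (4 * ε) ^ (d - 1) := by
    have h1 := cap_le_pow hd (x := 2 * ε) (y := 4) (by positivity) (by norm_num) le_rfl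
    have h2 : 8 * (2 * ε) / 4 = 4 * ε := by ring
    rw [h2] at h1
    have h3 := cap_le_one hd0 4
    have h4 : 0 ≤ 8 * (4 * ε) ^ (d - 1) := by positivity
    nlinarith
  have hfin : 0 ≤ 8 * (4 * ε) ^ (d - 1) := by positivity
  calc (2 / 3 : ℝ) ≤ L.successProb ε := h
    _ ≤ μ.real U := hprob
    _ ≤ ((T : ℝ) + 1) * 2 ^ M * cap d (2 * ε) := hUreal
    _ ≤ ((T : ℝ) + 2) * 2 ^ M * (8 * (4 * ε) ^ (d - 1)) := by
      have h2M : (0 : ℝ) < 2 ^ M := by positivity
      have hT : (0 : ℝ) ≤ (T : ℝ) := Nat.cast_nonneg T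
      apply mul_le_mul (mul_le_mul_of_nonneg_right (by linarith) h2M.le) hcapb (cap_nonneg _ _)
      positivity

end

end Crest.Agent.S0499Lib
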