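/-
S0499 package T: the terminal sets (small balls) have a profile.
-/
import Crest.Agent.S0499Lib.SphereBasic

set_option autoImplicit false

namespace Crest.Agent.S0499Lib

open MeasureTheory ProbabilityTheory Crest.StreamLearn
open scoped ENNReal

noncomputable section

variable {d : ℕ}

/-- A ball `B(û, 2ε)` has the profile `(b, q₀, 1)` as soon as `64 ε ≤ 2^q₀`, `b ≤ d - 1`.
Case `p + 1 ≤ q₀`: `θ = 1` and `real_sBall_le_cap_two`, `cap_mono`.
Case `q₀ < p + 1`: `w := 2^(q₀-p-1) < 1`, `θ = w^b`; with `R = 2^p ≤ 4`, `y := min (12 R) 4 ≥ R`,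
`cap(2ε) ≤ 8 (16 ε / y)^{d-1} cap y ≤ 8 (w / 2)^{d-1} cap(12 R) ≤ w^b cap(12 R)`, as `16 ε / R ≤ w / 2`. -/
theorem top_profile (hd : 4 ≤ d) {b : ℕ} (hb : b ≤ d - 1) {û : E d} (hû : ‖û‖ = 1) {ε : ℝ}
    (hε : 0 < ε) {q₀ : ℤ} (hq : 64 * ε ≤ (2 : ℝ) ^ q₀) :
    Profile b q₀ 1 (sBall û (2 * ε)) := by
  have hd0 : 0 < d := by omega
  have := isProb_σ hd0
  refine ⟨measurableSet_sBall _ _, fun z p hp => ?_⟩
  have h2 : (0 : ℝ) < 2 := by norm_num
  set R : ℝ := (2 : ℝ) ^ p with hR
  have hRpos : 0 < R := zpow_pos h2 p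
  have hR4 : R ≤ 4 := by
    have : R ≤ (2 : ℝ) ^ (2 : ℤ) := zpow_le_zpow_right₀ (by norm_num) hp
    norm_num at this ⊢; linarith
  rw [one_mul]
  by_cases hcase : p + 1 ≤ q₀
  · -- the trivial case
    have hθ : θ b q₀ (p + 1) = 1 := by
      unfold θ
      apply min_eq_left
      apply one_le_zpow₀ (by norm_num)
      apply mul_nonneg <;> omega
    rw [hθ, one_mul]
    calc (σ d).real (sBall û (2 * ε) ∩ sBall z R)
        ≤ (σ d).real (sBall z R) := measureReal_mono Set.inter_subset_right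
      _ ≤ cap d (2 * R) := real_sBall_le_cap_two hd0 z hRpos.le
      _ ≤ cap d (12 * R) := cap_mono hd0 (by linarith)
  · push Not at hcase
    set w : ℝ := (2 : ℝ) ^ (q₀ - (p + 1)) with hw
    have hwpos : 0 < w := zpow_pos h2 _
    have hw1 : w ≤ 1 := by
      apply zpow_le_one_of_nonpos₀ (by norm_num)
      omega
    have hθ : θ b q₀ (p + 1) = w ^ b := by
      unfold θ
      rw [hw, ← zpow_natCast, ← zpow_mul]
      apply min_eq_right
      apply zpow_le_one_of_nonpos₀ (by norm_num)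
      apply mul_nonpos_of_nonpos_of_nonneg <;> omega
    rw [hθ]
    have hRw : 2 ^ q₀ = 2 * w * R := by
      have e : q₀ = 1 + (q₀ - (p + 1) + p) := by ring
      rw [hw, hR, mul_assoc, ← zpow_add₀ h2.ne']
      conv_lhs => rw [e, zpow_add₀ h2.ne', zpow_one]
    set y : ℝ := min (12 * R) 4 with hy
    have hypos : 0 < y := lt_min (by linarith) (by norm_num)
    have hy4 : y ≤ 4 := min_le_right _ _
    have hRy : R ≤ y := le_min (by linarith) hR4
    have hymono : cap d y ≤ cap d (12 * R) := cap_mono hd0 (min_le_left _ _)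
    have hcapε : (σ d).real (sBall û (2 * ε) ∩ sBall z R) ≤ cap d (2 * ε) := by
      have : (σ d).real (sBall û (2 * ε)) = cap d (2 * ε) :=
        real_sBall_eq_cap hd0 ⟨û, by simpa using hû⟩ (2 * ε)
      rw [← this]
      exact measureReal_mono Set.inter_subset_left
    have hmain := cap_le_pow (d := d) (by omega) (x := 2 * ε) (y := y) (by positivity) hypos hy4
    have hratio : 8 * (2 * ε) / y ≤ w / 2 := by
      rw [div_le_iff₀ hypos]
      have : w / 2 * R ≤ w / 2 * y := by
        apply mul_le_mul_of_nonneg_left hRy (by positivity)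
      nlinarith
    have hratio0 : 0 ≤ 8 * (2 * ε) / y := by positivity
    have hpow : 8 * (8 * (2 * ε) / y) ^ (d - 1) ≤ w ^ b := by
      calc 8 * (8 * (2 * ε) / y) ^ (d - 1) ≤ 8 * (w / 2) ^ (d - 1) := by
            gcongr
        _ = 8 * (1 / 2) ^ (d - 1) * w ^ (d - 1) := by
            rw [div_eq_mul_inv w 2, mul_pow]; ring_nf
        _ ≤ 1 * w ^ (d - 1) := by
            apply mul_le_mul_of_nonneg_right _ (by positivity)
            have : ((1 : ℝ) / 2) ^ (d - 1) ≤ (1 / 2) ^ 3 :=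
              pow_le_pow_of_le_one (by norm_num) (by norm_num) (by omega)
            norm_num at this ⊢
            linarith
        _ = w ^ (d - 1) := one_mul _
        _ ≤ w ^ b := pow_le_pow_of_le_one hwpos.le hw1 hb
    calc (σ d).real (sBall û (2 * ε) ∩ sBall z R)
        ≤ cap d (2 * ε) := hcapε
      _ ≤ 8 * (8 * (2 * ε) / y) ^ (d - 1) * cap d y := hmain
      _ ≤ w ^ b * cap d y := by
          apply mul_le_mul_of_nonneg_right hpow (cap_nonneg _ _)
      _ ≤ w ^ b * cap d (12 * R) := by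
          apply mul_le_mul_of_nonneg_left hymono (by positivity)

end

end Crest.Agent.S0499Lib
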