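/-
S0499 package J: final arithmetic assembly.
-/
import Crest.Agent.S0499Lib.Chain
import Crest.Agent.S0499Lib.TopProfile
import Crest.Agent.S0499Lib.EasyRanges

set_option autoImplicit false

namespace Crest.Agent.S0499Lib

open MeasureTheory ProbabilityTheory Crest.StreamLearn
open scoped ENNReal

noncomputable section

theorem pow_bound_aux : ∀ y : ℕ, 20 ≤ y → 1024 * y ^ 2 ≤ 2 ^ y := by
  intro y hy
  induction y, hy using Nat.le_induction with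
  | base => norm_num
  | succ y hy ih =>
    rw [pow_succ 2 y]
    nlinarith

/-- `x = log₂ (1 / ε)`, and the information limit in logarithmic form. -/
theorem log_info_bound {d T M : ℕ} (hd : 2 ≤ d) {ε : ℝ} (hε : 0 < ε)
    (h : (2 / 3 : ℝ) ≤ ((T : ℝ) + 2) * 2 ^ M * (8 * (4 * ε) ^ (d - 1))) :
    ((d : ℝ) - 1) * (Real.logb 2 (1 / ε) - 2) ≤ M + Real.logb 2 ((T : ℝ) + 2) + 4 := by
  have hT : (0 : ℝ) < (T : ℝ) + 2 := by positivity
  have h4 : (0 : ℝ) < 4 * ε := by positivity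
  have hlog := Real.logb_le_logb_of_le (b := 2) (by norm_num) (by norm_num : (0 : ℝ) < 2 / 3) h
  rw [Real.logb_mul (by positivity) (by positivity), Real.logb_mul (by positivity) (by positivity),
    Real.logb_mul (by norm_num) (by positivity), Real.logb_pow, Real.logb_pow] at hlog
  have h2 : Real.logb 2 2 = 1 := Real.logb_self_eq_one (by norm_num)
  have h8 : Real.logb 2 8 = 3 := by
    rw [show (8 : ℝ) = 2 ^ 3 by norm_num, Real.logb_pow, h2]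
    norm_num
  have h4e : Real.logb 2 (4 * ε) = 2 - Real.logb 2 (1 / ε) := by
    rw [Real.logb_mul (by norm_num) hε.ne', show (4 : ℝ) = 2 ^ 2 by norm_num, Real.logb_pow, h2,
      one_div, Real.logb_inv]
    norm_num
  have h23 : (-1 : ℝ) ≤ Real.logb 2 (2 / 3) := by
    rw [Real.le_logb_iff_rpow_le (by norm_num) (by norm_num)]
    rw [Real.rpow_neg_one]
    norm_num
  rw [h2, h8, h4e] at hlog
  have hdcast : ((d - 1 : ℕ) : ℝ) = (d : ℝ) - 1 := by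
    rw [Nat.cast_sub (by omega)]
    norm_num
  rw [hdcast] at hlog
  nlinarith

/-- The case of many samples: the information limit is enough. -/
theorem large_T_case {d T M : ℕ} {A : ℝ} (hA : 0 < A) (hd : 2 ≤ d) {ε : ℝ} (hε' : ε ≤ 1 / 10) (hε : 0 < ε)
    (hM : (M : ℝ) ≤ A * (d : ℝ) ^ 2) (hT : (d : ℝ) ^ 2 ≤ 64 * T)
    (h : ((d : ℝ) - 1) * (Real.logb 2 (1 / ε) - 2) ≤ M + Real.logb 2 ((T : ℝ) + 2) + 4) :
    (d : ℝ) * Real.logb 2 (1 / ε) ≤ (142 + 128 * A) * T := by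
  set x := Real.logb 2 (1 / ε) with hx
  have hd' : (2 : ℝ) ≤ d := by exact_mod_cast hd
  have hT1 : (1 : ℝ) ≤ T := by
    have : (4 : ℝ) ≤ 64 * T := by nlinarith
    have hT0 : 0 < T := by
      rcases Nat.eq_zero_or_pos T with h0 | h0
      · rw [h0] at this
        norm_num at this
      · exact h0
    exact_mod_cast hT0
  have hlog : Real.logb 2 ((T : ℝ) + 2) ≤ (T : ℝ) + 2 := by
    have h2 : (0 : ℝ) < (T : ℝ) + 2 := by positivity
    rw [Real.logb_le_iff_le_rpow (by norm_num) h2]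
    have := (Real.add_one_le_exp (((T : ℝ) + 2) * Real.log 2))
    have hlog2 : (1 / 2 : ℝ) ≤ Real.log 2 := by
      have := Real.log_two_gt_d9
      linarith
    have h3 : (2 : ℝ) ^ ((T : ℝ) + 2) = Real.exp (((T : ℝ) + 2) * Real.log 2) := by
      rw [Real.rpow_def_of_pos (by norm_num), mul_comm]
    rw [h3]
    calc (T : ℝ) + 2 ≤ (T : ℝ) + 2 := le_rfl
      _ ≤ _ := by
        have h4 : Real.exp (((T : ℝ) + 2) * Real.log 2) ≥ 1 + (((T : ℝ) + 2) * Real.log 2) + (((T : ℝ) + 2) * Real.log 2)^2/2 :=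
          Real.quadratic_le_exp_of_nonneg (by positivity)
        have h5 : ((T : ℝ) + 2) * Real.log 2 ≥ ((T : ℝ) + 2) / 2 := by nlinarith
        nlinarith
  by_cases hx2 : x ≤ 2
  · have : (d : ℝ) * x ≤ (d : ℝ) * 2 := by nlinarith
    have h6 : (d : ℝ) ≤ (d : ℝ) ^ 2 := by nlinarith
    nlinarith
  · push_neg at hx2
    have hd2 : (d : ℝ) ≤ 2 * ((d : ℝ) - 1) := by linarith
    have h7 : (d : ℝ) * (x - 2) ≤ 2 * (((d : ℝ) - 1) * (x - 2)) := by nlinarith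
    have h6 : (d : ℝ) ≤ (d : ℝ) ^ 2 := by nlinarith
    have h8 : (M : ℝ) ≤ 64 * A * T := by nlinarith
    nlinarith

theorem numeric_P {q₀ : ℤ} {x : ℝ} (hxq : 6 - x ≤ q₀) (hPm : 0 < x + 5) (Δ i : ℕ) :
    (((Finset.Icc (q₀ + ((i : ℤ) + 1) * Δ) 3).card : ℕ) : ℝ) ≤ x + 5 := by
  rw [Int.card_Icc]
  have hq : q₀ ≤ q₀ + ((i : ℤ) + 1) * Δ := by
    have : (0 : ℤ) ≤ ((i : ℤ) + 1) * Δ := by positivity
    linarith
  rcases le_or_gt (3 + 1 - (q₀ + ((i : ℤ) + 1) * Δ)) 0 with hz | hz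
  · rw [Int.toNat_of_nonpos hz]
    simpa using hPm.le
  · have h1 : (((3 + 1 - (q₀ + ((i : ℤ) + 1) * Δ)).toNat : ℕ) : ℝ) =
        ((3 + 1 - (q₀ + ((i : ℤ) + 1) * Δ) : ℤ) : ℝ) := by
      rw [← Int.cast_natCast, Int.toNat_of_nonneg hz.le]
    rw [h1]
    have h2 : (3 + 1 - (q₀ + ((i : ℤ) + 1) * Δ) : ℤ) ≤ 4 - q₀ := by linarith
    have h3 : ((3 + 1 - (q₀ + ((i : ℤ) + 1) * Δ) : ℤ) : ℝ) ≤ ((4 - q₀ : ℤ) : ℝ) := Int.cast_le.mpr h2
    have h4 : ((4 - q₀ : ℤ) : ℝ) = 4 - (q₀ : ℝ) := by push_cast; ring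
    rw [h4] at h3
    linarith

theorem numeric_1 {Pm : ℝ} {y ℓ i : ℕ} (hPmy : Pm ≤ (2 : ℝ) ^ y) (h : y + i + 5 ≤ ℓ) :
    Pm * (1 / 2 : ℝ) ^ ℓ ≤ (2 : ℝ) ^ (-(i : ℤ) - 5) := by
  have h1 : (1 / 2 : ℝ) ^ ℓ = (2 : ℝ) ^ (-(ℓ : ℤ)) := by
    rw [one_div, inv_pow, ← zpow_natCast, ← zpow_neg]
  calc Pm * (1 / 2 : ℝ) ^ ℓ ≤ (2 : ℝ) ^ y * (1 / 2 : ℝ) ^ ℓ :=
        mul_le_mul_of_nonneg_right hPmy (by positivity)
    _ = (2 : ℝ) ^ ((y : ℤ) + -(ℓ : ℤ)) := by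
        rw [h1, ← zpow_natCast, ← zpow_add₀ two_ne_zero]
    _ ≤ _ := zpow_le_zpow_right₀ (by norm_num) (by omega)

theorem numeric_2 {Pm C : ℝ} (hPm : 0 < Pm) (hC0 : 0 ≤ C) {y M d i Δ b m : ℕ} (hPmy : Pm ≤ (2 : ℝ) ^ y)
    (hC : C ≤ (2 : ℝ) ^ (M + y)) {e : ℤ}
    (he : e = (22 * (d : ℤ) + (i : ℤ) + 2 + (i : ℤ) + 5 + (y : ℤ)) - (Δ : ℤ) * (b : ℤ))
    (hfinal : (y : ℤ) + (((M + y : ℕ) : ℤ) + (((5 * d : ℕ) : ℤ) + e * (m : ℤ))) ≤ -(i : ℤ) - 5) :
    Pm * (C * (2 ^ (5 * d) *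
      (2 ^ (22 * d) * (2 : ℝ) ^ (i + 2) * (2 : ℝ) ^ (-((Δ : ℤ) * (b : ℤ))) * ((2 : ℝ) ^ (i + 5) * Pm)) ^ m)) ≤
        (2 : ℝ) ^ (-(i : ℤ) - 5) := by
  have hbase : (2 : ℝ) ^ (22 * d) * (2 : ℝ) ^ (i + 2) * (2 : ℝ) ^ (-((Δ : ℤ) * (b : ℤ))) *
      ((2 : ℝ) ^ (i + 5) * Pm) ≤ (2 : ℝ) ^ e := by
    calc _ ≤ (2 : ℝ) ^ (22 * d) * (2 : ℝ) ^ (i + 2) * (2 : ℝ) ^ (-((Δ : ℤ) * (b : ℤ))) *
          ((2 : ℝ) ^ (i + 5) * (2 : ℝ) ^ y) := by gcongr
      _ = _ := by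
        simp only [← zpow_natCast, ← zpow_add₀ (two_ne_zero' ℝ)]
        congr 1
        rw [he]
        push_cast
        ring
  calc _ ≤ (2 : ℝ) ^ y * ((2 : ℝ) ^ (M + y) * (2 ^ (5 * d) * ((2 : ℝ) ^ e) ^ m)) := by
        gcongr
    _ = (2 : ℝ) ^ ((y : ℤ) + (((M + y : ℕ) : ℤ) + (((5 * d : ℕ) : ℤ) + e * (m : ℤ)))) := by
        rw [← zpow_natCast (2 : ℝ) y, ← zpow_natCast (2 : ℝ) (M + y), ← zpow_natCast (2 : ℝ) (5 * d),
          ← zpow_natCast ((2 : ℝ) ^ e) m, ← zpow_mul, ← zpow_add₀ two_ne_zero,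
          ← zpow_add₀ two_ne_zero, ← zpow_add₀ two_ne_zero]
    _ ≤ _ := zpow_le_zpow_right₀ (by norm_num) hfinal

theorem exp_arith {A D Br Y I Dl Mr e : ℝ} (hA : 0 < A) (hD : 640 ≤ D) (hBr : D / 5 ≤ Br)
    (hI : 16 * (I + 1) ≤ D) (_hI0 : 0 ≤ I) (hY : 32 * (Y - 1) ≤ D) (hΔ : 25 * A + 140 ≤ Dl)
    (hM : Mr ≤ A * D ^ 2) (he : e = 22 * D + I + 2 + I + 5 + Y - Dl * Br) :
    Y + (Mr + Y) + (5 * D + e * Br) ≤ -I - 5 := by
  have hD0 : 0 < D := by linarith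
  have hBr0 : 0 ≤ Br := by linarith [div_pos hD0 (by norm_num : (0:ℝ) < 5)]
  have hΔb : (25 * A + 140) * (D / 5) ≤ Dl * Br :=
    mul_le_mul hΔ hBr (by positivity) (by linarith [mul_pos hA hD0])
  have h2 : e ≤ -(5 * A + 5) * D := by
    rw [he]
    have : (25 * A + 140) * (D / 5) = (5 * A + 28) * D := by ring
    have h5 : -(5 * A + 5) * D = 23 * D - (5 * A + 28) * D := by ring
    rw [h5]
    linarith
  have h3 : e * Br ≤ -(A + 1) * D ^ 2 := by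
    have hneg : e ≤ 0 := by
      have : 0 ≤ (5 * A + 5) * D := by positivity
      linarith
    calc e * Br ≤ e * (D / 5) := mul_le_mul_of_nonpos_left hBr hneg
      _ ≤ (-(5 * A + 5) * D) * (D / 5) := mul_le_mul_of_nonneg_right h2 (by positivity)
      _ = _ := by ring
  have h4 : D * D ≥ 640 * D := by nlinarith
  have h6 : -(A + 1) * D ^ 2 = - (A * D ^ 2) - D * D := by ring
  rw [h6] at h3
  linarith

theorem small_T_case {A : ℝ} (hA : 0 < A) {Δ : ℕ} (hΔ : 25 * A + 140 ≤ Δ) {d M T : ℕ} (hd : 640 ≤ d)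
    (hdA : 2 * A + 10 ≤ d) (hM : (M : ℝ) ≤ A * (d : ℝ) ^ 2) (hT : 64 * T < d ^ 2) {ε : ℝ}
    (hε : 0 < ε) (hε' : ε ≤ 1 / 10) (L : RLearner d T M) (h : 2 / 3 ≤ L.successProb ε)
    (hdT : (d : ℝ) < 4 * T)
    (hinfo : ((d : ℝ) - 1) * (Real.logb 2 (1 / ε) - 2) ≤ M + Real.logb 2 ((T : ℝ) + 2) + 4) :
    (d : ℝ) * Real.logb 2 (1 / ε) ≤ 4 * ((Δ : ℝ) + 4) * T := by
  set x := Real.logb 2 (1 / ε) with hx
  have hDreal : (640 : ℝ) ≤ d := by exact_mod_cast hd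
  -- block parameters
  set ℓ := (d + 3) / 4 with hℓ
  set K := T / ℓ with hK
  set b := d / 4 - 2 with hb
  set y := d / 32 + 1 with hy
  have hℓpos : 0 < ℓ := by omega
  have hdT' : d < 4 * T := by exact_mod_cast hdT
  have hKpos : 0 < K := Nat.div_pos (by omega) hℓpos
  have hKℓ : K * ℓ ≤ T := Nat.div_mul_le_self T ℓ
  have hKℓ' : T < (K + 1) * ℓ := by
    have := Nat.lt_mul_div_succ T hℓpos
    rw [mul_comm]
    exact this
  have hdK : d * K ≤ 4 * T := by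
    have : d ≤ 4 * ℓ := by omega
    calc d * K ≤ 4 * ℓ * K := Nat.mul_le_mul_right _ this
      _ = 4 * (K * ℓ) := by ring
      _ ≤ 4 * T := Nat.mul_le_mul_left _ hKℓ
  have h16K : 16 * K < d := by
    have : d * (16 * K) < d * d := by nlinarith
    exact Nat.lt_of_mul_lt_mul_left this
  have hy20 : 20 ≤ y := by omega
  have hd_y : d < 32 * y := by omega
  have hd2y : (d : ℝ) ^ 2 ≤ (2 : ℝ) ^ y := by
    have h1 := pow_bound_aux y hy20
    have h2 : d ^ 2 ≤ 2 ^ y := by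
      calc d ^ 2 ≤ (32 * y) ^ 2 := Nat.pow_le_pow_left hd_y.le 2
        _ = 1024 * y ^ 2 := by ring
        _ ≤ 2 ^ y := h1
    exact_mod_cast h2
  have hTy : (T : ℝ) + 2 ≤ (2 : ℝ) ^ y := by
    have : (T : ℝ) * 64 < (d : ℝ) ^ 2 := by
      have h3 : T * 64 < d ^ 2 := by omega
      exact_mod_cast h3
    nlinarith
  have hlogT : Real.logb 2 ((T : ℝ) + 2) ≤ y := by
    rw [Real.logb_le_iff_le_rpow (by norm_num) (by positivity)]
    simpa using hTy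
  have hyd : (y : ℝ) ≤ d := by
    have : y ≤ d := by omega
    exact_mod_cast this
  have hxub : x ≤ 2 * A * d + 5 := by
    by_contra hcon
    push_neg at hcon
    have h1 : ((d : ℝ) - 1) * (2 * A * d + 3) < ((d : ℝ) - 1) * (x - 2) :=
      mul_lt_mul_of_pos_left (by linarith) (by linarith)
    have h2 : ((d : ℝ) - 1) * (2 * A * d + 3) ≤ M + y + 4 := by linarith
    have h3 : A * (d : ℝ) * ((d : ℝ) - 2) ≥ 0 := mul_nonneg (mul_nonneg hA.le (by linarith)) (by linarith)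
    nlinarith
  set q₀ : ℤ := Int.clog 2 (64 * ε) with hq₀
  have hq1 : 64 * ε ≤ (2 : ℝ) ^ q₀ := by
    have := Int.self_le_zpow_clog (R := ℝ) (b := 2) (by norm_num) (64 * ε)
    simpa using this
  have hq2 : (2 : ℝ) ^ (q₀ - 1) < 64 * ε := by
    have := Int.zpow_pred_clog_lt_self (R := ℝ) (b := 2) (r := 64 * ε) (by norm_num) (by positivity)
    simpa using this
  obtain ⟨St', inst, tr, init, û, η, htr, hη, hηle, hcard, hû, hsucc⟩ :=
    exists_discrete_machine L (by omega) hε h (ηmax := (2 : ℝ) ^ q₀) (by positivity)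
  let _ := inst
  have h64 : Real.logb 2 (64 * ε) = 6 - x := by
    have h2 : Real.logb 2 2 = 1 := Real.logb_self_eq_one (by norm_num)
    rw [Real.logb_mul (by norm_num) hε.ne', show (64 : ℝ) = 2 ^ 6 by norm_num, Real.logb_pow, h2, hx,
      one_div, Real.logb_inv]
    norm_num
  have hxq : 6 - x ≤ q₀ := by
    rw [← h64]
    have := Real.logb_le_logb_of_le (b := 2) (by norm_num) (by positivity) hq1
    have h3 : Real.logb 2 ((2 : ℝ) ^ q₀) = q₀ := by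
      rw [← Real.rpow_intCast, Real.logb_rpow (by norm_num) (by norm_num)]
    rwa [h3] at this
  have hxq2 : (q₀ : ℝ) - 1 < 6 - x := by
    rw [← h64]
    have h3 := Real.logb_lt_logb (b := 2) (by norm_num) (by positivity) hq2
    have h4 : Real.logb 2 ((2 : ℝ) ^ (q₀ - 1)) = (q₀ : ℝ) - 1 := by
      rw [← Real.rpow_intCast, Real.logb_rpow (by norm_num) (by norm_num)]
      push_cast
      ring
    rwa [h4] at h3
  have hx0 : 0 ≤ x := by
    apply Real.logb_nonneg (by norm_num)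
    rw [one_div, one_le_inv₀ hε]
    linarith
  have hPm : 0 < x + 5 := by linarith
  have hPmy : x + 5 ≤ (2 : ℝ) ^ y := by
    have h1 : x + 5 ≤ (2 * A + 10) * d := by nlinarith
    have h2 : (2 * A + 10) * (d : ℝ) ≤ (d : ℝ) ^ 2 := by nlinarith
    linarith
  -- the time grid
  let n : ℕ → ℕ := fun j => if j < K then j * ℓ else T
  have hn0 : n 0 = 0 := by simp [n, hKpos]
  have hnK : n K = T := by simp [n]
  have hsz : ∀ j < K, n j + ℓ ≤ n (j + 1) ∧ n (j + 1) ≤ n j + 2 * ℓ := by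
    intro j hj
    by_cases hj1 : j + 1 < K
    · simp only [n, hj, hj1, if_true]
      have e3 : (j + 1) * ℓ = j * ℓ + ℓ := by ring
      omega
    · have hjK : j + 1 = K := by omega
      simp only [n, hj, hj1, if_true, if_false]
      have e1 : (j + 1) * ℓ ≤ T := by rw [hjK]; exact hKℓ
      have e2 : T < (j + 1 + 1) * ℓ := by rw [hjK]; exact hKℓ'
      have e3 : (j + 1) * ℓ = j * ℓ + ℓ := by ring
      have e4 : (j + 1 + 1) * ℓ = j * ℓ + 2 * ℓ := by ring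
      omega
  have hdim : 2 * ℓ + b + b + 1 ≤ d := by omega
  have hb2 : 2 * K + 3 < b := by omega
  have hbpos : 1 ≤ b := by omega
  have hP : ∀ i < K, (((Finset.Icc (q₀ + ((i : ℤ) + 1) * Δ) 3).card : ℕ) : ℝ) ≤ x + 5 :=
    fun i _ => numeric_P hxq hPm Δ i
  have hnum1 : ∀ i < K, (x + 5) * (1 / 2 : ℝ) ^ ℓ ≤ (2 : ℝ) ^ (-(i : ℤ) - 5) :=
    fun i hi => numeric_1 hPmy (by omega)
  have hnum2 : ∀ i < K, (x + 5) * ((Fintype.card St' : ℝ) * (2 ^ (5 * d) *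
      (2 ^ (22 * d) * (2 : ℝ) ^ (i + 2) * (2 : ℝ) ^ (-((Δ : ℤ) * (b : ℤ))) * ((2 : ℝ) ^ (i + 5) * (x + 5))) ^ b)) ≤
        (2 : ℝ) ^ (-(i : ℤ) - 5) := by
    intro i hi
    have hcard' : (Fintype.card St' : ℝ) ≤ (2 : ℝ) ^ (M + y) := by
      calc (Fintype.card St' : ℝ) ≤ 2 ^ M * ((T : ℝ) + 2) := hcard
        _ ≤ 2 ^ M * 2 ^ y := by gcongr
        _ = _ := (pow_add _ _ _).symm
    refine numeric_2 hPm (by positivity) hPmy hcard' rfl ?_
    set e : ℤ := (22 * (d : ℤ) + (i : ℤ) + 2 + (i : ℤ) + 5 + (y : ℤ)) - (Δ : ℤ) * (b : ℤ) with he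
    have hBr : (d : ℝ) / 5 ≤ b := by
      have h1 : d ≤ 4 * b + 11 := by omega
      have h2 : (d : ℝ) ≤ 4 * b + 11 := by exact_mod_cast h1
      linarith
    have hI : 16 * ((i : ℝ) + 1) ≤ d := by
      have h1 : 16 * (i + 1) ≤ d := by omega
      exact_mod_cast h1
    have hY : 32 * ((y : ℝ) - 1) ≤ d := by
      have h1 : 32 * (y - 1) ≤ d := by omega
      have h2 : ((y - 1 : ℕ) : ℝ) = (y : ℝ) - 1 := by
        rw [Nat.cast_sub (by omega)]
        simp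
      rw [← h2]
      exact_mod_cast h1
    have he_real : (e : ℝ) = 22 * (d : ℝ) + i + 2 + i + 5 + y - (Δ : ℝ) * b := by
      rw [he]
      push_cast
      ring
    have hreal := exp_arith (Mr := (M : ℝ)) hA hDreal hBr hI (by positivity) hY hΔ hM he_real
    have : (((y : ℤ) + (((M + y : ℕ) : ℤ) + (((5 * d : ℕ) : ℤ) + e * (b : ℤ))) : ℤ) : ℝ) ≤
        ((-(i : ℤ) - 5 : ℤ) : ℝ) := by
      push_cast
      linarith
    exact_mod_cast this
  have htop : ∀ a, Profile b q₀ 1 (sBall (û a) (2 * ε)) := fun a =>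
    top_profile (by omega) (by omega) (hû a) hε hq1
  have hchain := chain (d := d) (T := T) (St' := St') (by omega) tr htr init hη (K := K) n hn0 hnK
    (ℓ := ℓ) (kmax := 2 * ℓ) hℓpos hsz (b := b) (m := b) hbpos hdim (Δ := Δ) (q₀ := q₀) hηle
    (Pm := x + 5) hPm hP hnum1 hnum2 hb2 (Utop := fun a => sBall (û a) (2 * ε)) htop hsucc
  have hchain' : (3 : ℝ) ≤ q₀ + (K : ℝ) * Δ := by exact_mod_cast hchain
  have hxK : x < 4 + (K : ℝ) * Δ := by linarith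
  have hdKr : (d : ℝ) * K ≤ 4 * T := by exact_mod_cast hdK
  have hΔ0 : (0 : ℝ) ≤ Δ := by positivity
  have hd0 : (0 : ℝ) < d := by linarith
  calc (d : ℝ) * x ≤ (d : ℝ) * (4 + (K : ℝ) * Δ) := mul_le_mul_of_nonneg_left hxK.le hd0.le
    _ = 4 * d + ((d : ℝ) * K) * Δ := by ring
    _ ≤ 4 * (4 * T) + (4 * T) * Δ := by
        have := mul_le_mul_of_nonneg_right hdKr hΔ0
        linarith
    _ = _ := by ring

theorem final_theorem :
    ∀ A : ℝ, 0 < A → ∃ c : ℝ, 0 < c ∧ ∃ d₀ : ℕ, ∀ d ≥ d₀, ∀ (M T : ℕ),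
      (M : ℝ) ≤ A * (d : ℝ) ^ 2 → ∀ ε : ℝ, 0 < ε → ε ≤ 1 / 10 →
        ∀ L : Crest.StreamLearn.RLearner d T M,
          2 / 3 ≤ L.successProb ε → c * d * Real.log (1 / ε) ≤ T := by
  intro A hA
  set Δ : ℕ := ⌈25 * A + 140⌉₊ with hΔ
  have hΔle : 25 * A + 140 ≤ (Δ : ℝ) := Nat.le_ceil _
  have hΔ0 : (0 : ℝ) ≤ Δ := by positivity
  refine ⟨min (1 / (142 + 128 * A)) (1 / (4 * ((Δ : ℝ) + 4))), by positivity,
    max 640 ⌈2 * A + 10⌉₊, ?_⟩
  intro d hd M T hM ε hε hε' L h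
  have hd1 : 640 ≤ d := le_trans (le_max_left _ _) hd
  have hd2 : 2 * A + 10 ≤ (d : ℝ) :=
    (Nat.le_ceil _).trans (by exact_mod_cast le_trans (le_max_right _ _) hd)
  have hinfo := log_info_bound (by omega) hε (info_limit L (by omega) hε hε' h)
  have hdT := samples_gt L (by omega) hε hε' h
  set x := Real.logb 2 (1 / ε) with hx
  have hx0 : 0 ≤ Real.log (1 / ε) := by
    apply Real.log_nonneg
    rw [one_div, one_le_inv₀ hε]
    linarith
  have hlog : Real.log (1 / ε) ≤ x := by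
    rw [hx, Real.logb, le_div_iff₀ (Real.log_pos (by norm_num))]
    have h2 : Real.log 2 ≤ 1 := by
      have := Real.log_two_lt_d9
      linarith
    nlinarith
  have hd0 : (0 : ℝ) < d := by
    have : (640 : ℝ) ≤ d := by exact_mod_cast hd1
    linarith
  set c := min (1 / (142 + 128 * A)) (1 / (4 * ((Δ : ℝ) + 4))) with hc
  have hc0 : 0 ≤ c := by positivity
  have hT0 : (0 : ℝ) ≤ T := by positivity
  have hstep : c * d * Real.log (1 / ε) ≤ c * (d * x) := by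
    have : (d : ℝ) * Real.log (1 / ε) ≤ d * x := mul_le_mul_of_nonneg_left hlog hd0.le
    nlinarith
  refine hstep.trans ?_
  by_cases hT : 64 * T < d ^ 2
  · have := small_T_case hA hΔle hd1 hd2 hM hT hε hε' L h hdT hinfo
    calc c * (d * x) ≤ (1 / (4 * ((Δ : ℝ) + 4))) * (4 * ((Δ : ℝ) + 4) * T) :=
          mul_le_mul (min_le_right _ _) this (by nlinarith [hx0, hlog]) (by positivity)
      _ = T := by
          field_simp
  · push_neg at hT
    have hT' : (d : ℝ) ^ 2 ≤ 64 * T := by exact_mod_cast (by omega : d ^ 2 ≤ 64 * T)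
    have := large_T_case hA (by omega) hε' hε hM hT' hinfo
    calc c * (d * x) ≤ (1 / (142 + 128 * A)) * ((142 + 128 * A) * T) :=
          mul_le_mul (min_le_left _ _) this (by nlinarith [hx0, hlog]) (by positivity)
      _ = T := by
          field_simp

end

end Crest.Agent.S0499Lib
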